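import Crest.Agent.R123.Defs

set_option linter.unusedSectionVars false
set_option linter.unusedVariables false

open scoped BigOperators

noncomputable section

namespace Crest.Agent.R123

/-! ## the cutoff -/

theorem ct_nonneg (s ρ : ℝ) : 0 ≤ ct s ρ := by
  exact Real.smoothTransition.nonneg _

theorem ct_le_one (s ρ : ℝ) : ct s ρ ≤ 1 := by
  exact Real.smoothTransition.le_one _

theorem ct_eq_one {s ρ : ℝ} (hs : 0 < s) (h0 : 0 ≤ ρ) (h : ρ ≤ s) : ct s ρ = 1 := by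
  refine Real.smoothTransition.one_of_one_le ?_
  have : ρ ^ 2 / s ^ 2 ≤ 1 := by
    rw [div_le_one (by positivity)]
    gcongr
  linarith

theorem ct_eq_zero {s ρ : ℝ} (hs : 0 < s) (h : 2 * s ≤ ρ) : ct s ρ = 0 := by
  refine Real.smoothTransition.zero_of_nonpos ?_
  have : 4 ≤ ρ ^ 2 / s ^ 2 := by
    rw [le_div_iff₀ (by positivity)]
    nlinarith
  linarith

theorem ct_mono {s s' : ℝ} (hs : 0 < s) (h : s ≤ s') (ρ : ℝ) : ct s ρ ≤ ct s' ρ := by
  refine Real.smoothTransition.monotone ?_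
  have : ρ ^ 2 / s' ^ 2 ≤ ρ ^ 2 / s ^ 2 := by gcongr
  linarith

theorem ct_sub_ne_zero {s s' ρ : ℝ} (hs : 0 < s) (h : s ≤ s') (h0 : 0 ≤ ρ)
    (hne : ct s' ρ - ct s ρ ≠ 0) : s < ρ ∧ ρ < 2 * s' := by
  constructor
  · by_contra! h1
    exact hne (by rw [ct_eq_one hs h0 h1, ct_eq_one (hs.trans_le h) h0 (h1.trans h), sub_self])
  · by_contra! h1
    exact hne (by rw [ct_eq_zero (hs.trans_le h) h1, ct_eq_zero hs (by linarith), sub_self])

/-- bounded `C¹` functions with bounded derivative -/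
def Bd (f : ℂ → ℝ) : Prop :=
  ContDiff ℝ 1 f ∧ (∃ C, ∀ u, |f u| ≤ C) ∧ ∃ D, ∀ u, ‖fderiv ℝ f u‖ ≤ D

theorem Bd.const (c : ℝ) : Bd fun _ => c :=
  ⟨contDiff_const, ⟨|c|, fun _ => le_rfl⟩, 0, fun _ => by simp⟩

theorem Bd.sub {f g : ℂ → ℝ} (hf : Bd f) (hg : Bd g) : Bd fun u => f u - g u := by
  obtain ⟨f1, ⟨C, f2⟩, D, f3⟩ := hf
  obtain ⟨g1, ⟨C', g2⟩, D', g3⟩ := hg
  refine ⟨f1.sub g1, ⟨C + C', fun u => (abs_sub _ _).trans (add_le_add (f2 u) (g2 u))⟩,
    D + D', fun u => ?_⟩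
  rw [fderiv_fun_sub (f1.differentiable one_ne_zero u) (g1.differentiable one_ne_zero u)]
  exact (norm_sub_le _ _).trans (add_le_add (f3 u) (g3 u))

theorem Bd.mul {f g : ℂ → ℝ} (hf : Bd f) (hg : Bd g) : Bd fun u => f u * g u := by
  obtain ⟨f1, ⟨C, f2⟩, D, f3⟩ := hf
  obtain ⟨g1, ⟨C', g2⟩, D', g3⟩ := hg
  have hC : 0 ≤ C := (abs_nonneg _).trans (f2 0)
  have hC' : 0 ≤ C' := (abs_nonneg _).trans (g2 0)
  refine ⟨f1.mul g1, ⟨C * C', fun u => by
    rw [abs_mul]; exact mul_le_mul (f2 u) (g2 u) (abs_nonneg _) hC⟩, C * D' + C' * D, fun u => ?_⟩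
  rw [fderiv_fun_mul (f1.differentiable one_ne_zero u) (g1.differentiable one_ne_zero u)]
  refine (norm_add_le _ _).trans (add_le_add ?_ ?_)
  · rw [norm_smul, Real.norm_eq_abs]
    exact mul_le_mul (f2 u) (g3 u) (norm_nonneg _) hC
  · rw [norm_smul, Real.norm_eq_abs]
    exact mul_le_mul (g2 u) (f3 u) (norm_nonneg _) hC'

theorem cls_add_two (k : ℕ) : cls (k + 2) = cls k := by
  exact Fin.ext (Nat.add_mod_right k 2)

theorem cls_zero : cls 0 = 0 := by
  rfl

namespace Pre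

variable {β : Type} [Fintype β] (P : Pre β)

/-! ## constants -/

theorem one_le_K : 1 ≤ P.K := by
  exact Fintype.card_pos_iff.2 ⟨P.b0⟩

theorem two_le_L : 2 ≤ P.L := by
  have := P.one_le
  unfold L
  linarith

theorem Lam_ge : 4 * P.L ≤ P.Lam := by
  have := P.two_le_L
  have h : (1 : ℝ) ≤ 4 ^ P.K := one_le_pow₀ (by norm_num)
  unfold Lam
  nlinarith

theorem Lam_pos : 0 < P.Lam := by
  have := P.two_le_L
  have := P.Lam_ge
  linarith

theorem Z_ge : 32 * P.Lam * (P.K : ℝ) ≤ P.Z := by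
  have h : (1 : ℝ) ≤ P.K := by exact_mod_cast P.one_le_K
  have := P.Lam_pos
  unfold Z
  have : (P.K : ℝ) ≤ (P.K : ℝ) ^ 2 := by nlinarith
  gcongr

theorem two_le_Z : 2 ≤ P.Z := by
  have h : (1 : ℝ) ≤ P.K := by exact_mod_cast P.one_le_K
  have := P.Z_ge
  have := P.Lam_ge
  have := P.two_le_L
  nlinarith

theorem one_le_Q (k : ℕ) : 1 ≤ P.Q k := by
  exact Nat.one_le_two_pow.trans (P.Qpow k)

theorem eta_pos (k : ℕ) : 0 < P.eta k := by
  have := P.Lam_pos
  unfold eta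
  positivity

theorem r1_pos (k : ℕ) : 0 < P.r1 k := by
  have := P.two_le_Z
  unfold r1
  positivity

theorem gam_pos (k : ℕ) : 0 < P.gam k := by
  have := P.two_le_Z
  unfold gam
  positivity

theorem gam_le (k : ℕ) : P.gam k ≤ P.Z⁻¹ := by
  have := P.two_le_Z
  unfold gam
  refine inv_anti₀ (by positivity) ?_
  exact le_self_pow₀ (by linarith) (by omega)

theorem gam_anti : Antitone P.gam := by
  intro k k' h
  have := P.two_le_Z
  unfold gam
  refine inv_anti₀ (by positivity) (pow_le_pow_right₀ (by linarith) ?_)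
  have h1 := P.Qmono (show k + 2 ≤ k' + 2 by omega)
  have h2 : P.K * (k + 1) ≤ P.K * (k' + 1) := Nat.mul_le_mul_left _ (by omega)
  omega

/-! ## the multipliers -/

theorem h_eq_one_of_lt {k i : ℕ} {u : ℂ} (hik : i < k) (h : P.h k u ≠ 0) : P.h i u = 1 := by
  induction k with
  | zero => omega
  | succ k ih =>
    have h1 := P.nest k u h
    rcases Nat.lt_succ_iff_lt_or_eq.1 hik with h2 | h2
    · exact ih h2 (by rw [h1]; exact one_ne_zero)
    · rw [h2, h1]

theorem lam_pos (k : ℕ) (u : ℂ) : 0 < P.lam k u := by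
  refine mul_pos P.Lam_pos (Finset.prod_pos fun i _ => ?_)
  have := P.h_le i u
  linarith

theorem kap_nonneg (k : ℕ) (u : ℂ) : 0 ≤ P.kap k u := by
  exact mul_nonneg (P.lam_pos k u).le (sub_nonneg.2 (P.h_le k u))

theorem lam_succ (k : ℕ) (u : ℂ) : P.lam (k + 1) u = P.lam k u * (1 - P.h k u / 2) := by
  rw [lam, lam, Finset.prod_range_succ, mul_assoc]

theorem lam_anti (u : ℂ) : Antitone fun k => P.lam k u := by
  refine antitone_nat_of_succ_le fun k => ?_
  rw [P.lam_succ]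
  have := P.h_nonneg k u
  have := P.lam_pos k u
  nlinarith

theorem kap_le (k : ℕ) (u : ℂ) : P.kap k u ≤ P.lam k u := by
  have := P.h_nonneg k u
  have := P.lam_pos k u
  rw [kap]
  nlinarith

theorem bd_h (k : ℕ) : Bd (P.h k) :=
  ⟨P.h_smooth k, ⟨1, fun u => by rw [abs_of_nonneg (P.h_nonneg k u)]; exact P.h_le k u⟩, P.h_der k⟩

theorem bd_lam (k : ℕ) : Bd (P.lam k) := by
  induction k with
  | zero =>
    have : P.lam 0 = fun _ => P.Lam := by funext u; simp [lam]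
    rw [this]
    exact Bd.const _
  | succ k ih =>
    have : P.lam (k + 1) = fun u => P.lam k u * (1 - P.h k u * (1 / 2)) := by
      funext u
      rw [P.lam_succ, mul_one_div]
    rw [this]
    exact ih.mul ((Bd.const 1).sub ((P.bd_h k).mul (Bd.const _)))

theorem bd_kap (k : ℕ) : Bd (P.kap k) := (P.bd_lam k).mul ((Bd.const 1).sub (P.bd_h k))

theorem bd_dk (k : ℕ) : Bd (P.dk k) := by
  by_cases hk : k < 2
  · have : P.dk k = P.kap k := by funext u; simp [dk, hk]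
    rw [this]
    exact P.bd_kap k
  · have : P.dk k = fun u => P.kap k u - P.kap (k - 2) u := by funext u; simp [dk, hk]
    rw [this]
    exact (P.bd_kap k).sub (P.bd_kap _)

theorem abs_dk_le (k : ℕ) (u : ℂ) : |P.dk k u| ≤ 4 * P.eta k := by
  have hL := P.Lam_pos
  by_cases hk : k < 2
  · rw [dk, if_pos hk, sub_zero, abs_of_nonneg (P.kap_nonneg k u)]
    refine (P.kap_le k u).trans ((P.lam_anti u (Nat.zero_le k)).trans ?_)
    beta_reduce
    rw [lam, eta, Finset.range_zero, Finset.prod_empty, mul_one, ← mul_div_assoc,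
      le_div_iff₀ (by positivity)]
    have : (2 : ℝ) ^ k ≤ 2 ^ 2 := pow_le_pow_right₀ (by norm_num) hk.le
    nlinarith
  obtain ⟨m, rfl⟩ : ∃ m, k = m + 2 := ⟨k - 2, by omega⟩
  rw [dk, if_neg hk, Nat.add_sub_cancel]
  by_cases h0 : P.h m u = 0
  · have h1 : P.h (m + 1) u = 0 := by
      by_contra h
      rw [P.nest m u h] at h0
      exact one_ne_zero h0
    have h2 : P.h (m + 2) u = 0 := by
      by_contra h
      rw [P.nest (m + 1) u h] at h1
      exact one_ne_zero h1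
    rw [kap, kap, P.lam_succ, P.lam_succ, h0, h1, h2]
    simpa using (P.eta_pos (m + 2)).le
  · have : P.lam m u = 4 * P.eta (m + 2) := by
      rw [lam, eta, Finset.prod_congr rfl (g := fun _ => (1 / 2 : ℝ)) fun i hi => by
        rw [P.h_eq_one_of_lt (Finset.mem_range.1 hi) h0]; norm_num]
      rw [Finset.prod_const, Finset.card_range, one_div, inv_pow, pow_add]
      field_simp
      norm_num
    rw [← this, abs_le]
    have a1 := P.kap_nonneg (m + 2) u
    have a2 := P.kap_nonneg m u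
    have a3 := P.kap_le m u
    have a4 := (P.kap_le (m + 2) u).trans (P.lam_anti u (show m ≤ m + 2 by omega))
    constructor <;> linarith

theorem dk_smooth (k : ℕ) : ContDiff ℝ 1 (P.dk k) := by
  exact (P.bd_dk k).1

/-- a channel of size at least `2 / Z` times the norm -/
theorem exists_big (x : E β) : ∃ c, 2 * ‖x‖ ≤ P.Z * ‖x c‖ := by
  have : Nonempty (β × Fin 2) := ⟨P.c0⟩
  obtain ⟨c, -, hc⟩ := Finset.exists_max_image Finset.univ (fun c => ‖x c‖) Finset.univ_nonempty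
  refine ⟨c, ?_⟩
  have hK : (1 : ℝ) ≤ P.K := by exact_mod_cast P.one_le_K
  have h1 : ‖x‖ ^ 2 ≤ (2 * P.K * ‖x c‖) ^ 2 := by
    rw [EuclideanSpace.norm_sq_eq]
    calc ∑ i, ‖x i‖ ^ 2 ≤ ∑ _i : β × Fin 2, ‖x c‖ ^ 2 :=
          Finset.sum_le_sum fun i _ => by
            have := hc i (Finset.mem_univ i)
            gcongr
      _ = 2 * P.K * ‖x c‖ ^ 2 := by
          simp [K, mul_comm]
      _ ≤ _ := by
          rw [mul_pow]
          gcongr
          nlinarith
  have h2 : ‖x‖ ≤ 2 * P.K * ‖x c‖ := (pow_le_pow_iff_left₀ (by positivity) (by positivity) two_ne_zero).1 h1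
  have h3 : 4 * (P.K : ℝ) ≤ P.Z := by
    have := P.Z_ge
    have := P.Lam_ge
    have := P.two_le_L
    nlinarith
  nlinarith [norm_nonneg (x c)]

/-- existence of the scale sequence -/
theorem exists_par : ∃ P' : Par β, P'.toPre = P := by
  have hD : ∀ k, ∃ s : ℝ, 0 < s ∧ ∀ s', 0 < s' → s' ≤ s →
      (∀ u, 2 * s' * ‖fderiv ℝ (P.dk k) u‖ ≤ P.eta k) ∧
      (∀ b u, 2 * s' * ‖fderiv ℝ (P.w k b) u‖ ≤ 1) ∧
      ∀ b u, 2 * s' * ‖fderiv ℝ (P.rd k b) u‖ ≤ 1 := by
    intro k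
    obtain ⟨D, hD⟩ := (P.bd_dk k).2.2
    choose Dw hDw using P.w_der k
    choose Dr hDr using P.rd_der k
    have h0 : 0 ≤ D := (norm_nonneg _).trans (hD 0)
    have hw : ∀ b, 0 ≤ Dw b := fun b => (norm_nonneg _).trans (hDw b 0)
    have hr : ∀ b, 0 ≤ Dr b := fun b => (norm_nonneg _).trans (hDr b 0)
    have he := P.eta_pos k
    set T := D / P.eta k + ∑ b, Dw b + ∑ b, Dr b + 1 with hT
    have s1 : 0 ≤ ∑ b, Dw b := Finset.sum_nonneg fun b _ => hw b
    have s2 : 0 ≤ ∑ b, Dr b := Finset.sum_nonneg fun b _ => hr b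
    have s3 : 0 ≤ D / P.eta k := by positivity
    have T0 : 0 < T := by linarith
    refine ⟨1 / (2 * T), by positivity, fun s' h1 h2 => ?_⟩
    have key : ∀ y, 0 ≤ y → y ≤ T → 2 * s' * y ≤ 1 := fun y _ hy => by
      rw [le_div_iff₀ (by positivity)] at h2
      nlinarith
    refine ⟨fun u => ?_, fun b u => key _ (norm_nonneg _) ?_, fun b u => key _ (norm_nonneg _) ?_⟩
    · have := key (D / P.eta k) s3 (by linarith)
      rw [← mul_div_assoc, div_le_one he] at this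
      have := hD u
      nlinarith
    · have := Finset.single_le_sum (f := Dw) (fun b _ => hw b) (Finset.mem_univ b)
      have := hDw b u
      linarith
    · have := Finset.single_le_sum (f := Dr) (fun b _ => hr b) (Finset.mem_univ b)
      have := hDr b u
      linarith
  choose s hs hs' using hD
  let S : ℕ → ℝ := fun k => Nat.rec (min (1 / 2) (s 0)) (fun k Sk => min
    (P.gam k * (P.gam k ^ 2 * (Sk / P.Z ^ (P.Q k + 1)) / P.Z ^ (2 * P.Q k + 2)) / 2) (s (k + 1))) k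
  have hZ := P.two_le_Z
  have S0 : ∀ k, 0 < S k := fun k => by
    induction k with
    | zero => exact lt_min (by norm_num) (hs 0)
    | succ k ih =>
      have := P.gam_pos k
      exact lt_min (by positivity) (hs _)
  have S1 : ∀ k, S k ≤ s k := fun k => by
    cases k <;> exact min_le_right _ _
  refine ⟨⟨P, S, S0, min_le_left _ _, fun k => ?_, fun k => (hs' k _ (S0 k) (S1 k)).1,
    fun k => (hs' k _ (S0 k) (S1 k)).2.1, fun k => (hs' k _ (S0 k) (S1 k)).2.2⟩, rfl⟩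
  have : S (k + 1) ≤ _ := min_le_left _ _
  linarith

end Pre

namespace Par

variable {β : Type} [Fintype β] [DecidableEq β] (P : Par β)

/-! ## scales: `S k ≫ hi k ≫ l k ≫ S (k+1)` -/

theorem hi_pos (k : ℕ) : 0 < P.hi k := by
  have := P.two_le_Z
  have := P.S_pos k
  unfold hi
  positivity

theorem l_pos (k : ℕ) : 0 < P.l k := by
  have := P.two_le_Z
  have := P.hi_pos k
  have := P.gam_pos k
  unfold l
  positivity

theorem hi_S (k : ℕ) : P.Z ^ (P.Q k + 1) * P.hi k = P.S k := by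
  have := P.two_le_Z
  unfold hi
  field_simp

theorem l_hi (k : ℕ) : P.Z ^ (2 * P.Q k + 2) * P.l k = P.gam k ^ 2 * P.hi k := by
  have := P.two_le_Z
  unfold l
  field_simp

theorem S_l (k : ℕ) : 2 * P.S (k + 1) ≤ P.gam k * P.l k := by
  exact P.S_step k

theorem two_hi_le (k : ℕ) : 2 * P.hi k ≤ P.S k := by
  have hZ := P.two_le_Z
  have h1 : P.Z ≤ P.Z ^ (P.Q k + 1) := le_self_pow₀ (by linarith) (by omega)
  have := P.hi_pos k
  rw [← P.hi_S]
  nlinarith

theorem gam_le_one (k : ℕ) : P.gam k ≤ 1 :=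
  (P.gam_le k).trans (inv_le_one_of_one_le₀ (by have := P.two_le_Z; linarith))

theorem two_l_le (k : ℕ) : 2 * P.l k ≤ P.hi k := by
  have hZ := P.two_le_Z
  have h1 : P.Z ≤ P.Z ^ (2 * P.Q k + 2) := le_self_pow₀ (by linarith) (by omega)
  have h2 := P.l_pos k
  have h3 := P.l_hi k
  have h4 : P.gam k ^ 2 ≤ 1 := pow_le_one₀ (P.gam_pos k).le (P.gam_le_one k)
  have := P.hi_pos k
  nlinarith

theorem two_S_le (k : ℕ) : 2 * P.S (k + 1) ≤ P.l k := by
  have := P.S_l k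
  have := P.gam_le_one k
  have := P.l_pos k
  nlinarith

theorem S_anti : Antitone P.S := by
  refine antitone_nat_of_succ_le fun k => ?_
  linarith [P.two_S_le k, P.two_l_le k, P.two_hi_le k, P.S_pos (k + 1), P.l_pos k, P.hi_pos k]

theorem hi_anti : Antitone P.hi := by
  refine antitone_nat_of_succ_le fun k => ?_
  linarith [P.two_S_le k, P.two_l_le k, P.two_hi_le (k + 1), P.S_pos (k + 1), P.l_pos k,
    P.hi_pos (k + 1)]

theorem l_anti : Antitone P.l := by
  refine antitone_nat_of_succ_le fun k => ?_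
  linarith [P.two_S_le k, P.two_l_le (k + 1), P.two_hi_le (k + 1), P.S_pos (k + 1),
    P.l_pos (k + 1), P.hi_pos (k + 1)]

theorem S_tendsto : Filter.Tendsto P.S Filter.atTop (nhds 0) := by
  have h : ∀ k, P.S k ≤ (1 / 2) ^ k := fun k => by
    induction k with
    | zero => linarith [P.S0]
    | succ k ih =>
      rw [pow_succ]
      linarith [P.two_S_le k, P.two_l_le k, P.two_hi_le k, P.l_pos k, P.hi_pos k]
  exact squeeze_zero (fun k => (P.S_pos k).le) h
    (tendsto_pow_atTop_nhds_zero_of_lt_one (by norm_num) (by norm_num))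

theorem l_succ_le (k : ℕ) : P.l (k + 1) ≤ P.hi k := by
  linarith [P.l_anti (Nat.le_succ k), P.two_l_le k, P.l_pos k]

theorem sig_nonneg (k : ℕ) {ρ : ℝ} (h : 0 ≤ ρ) : 0 ≤ P.sig k ρ := by
  exact sub_nonneg.2 (ct_mono (P.l_pos _) (P.l_succ_le k) ρ)

theorem sig_le_one (k : ℕ) (ρ : ℝ) : P.sig k ρ ≤ 1 := by
  unfold sig
  linarith [ct_le_one (P.hi k) ρ, ct_nonneg (P.l (k + 1)) ρ]

theorem sig_ne_zero {k : ℕ} {ρ : ℝ} (h0 : 0 ≤ ρ) (h : P.sig k ρ ≠ 0) :
    P.l (k + 1) < ρ ∧ ρ < 2 * P.hi k := by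
  exact ct_sub_ne_zero (P.l_pos _) (P.l_succ_le k) h0 h

theorem sig_eq_one {k : ℕ} {ρ : ℝ} (h1 : 2 * P.l (k + 1) ≤ ρ) (h2 : ρ ≤ P.hi k) :
    P.sig k ρ = 1 := by
  rw [sig, ct_eq_one (P.hi_pos k) (by linarith [P.l_pos (k + 1)]) h2, ct_eq_zero (P.l_pos _) h1,
    sub_zero]

theorem tau_nonneg (k : ℕ) {ρ : ℝ} (h : 0 ≤ ρ) : 0 ≤ P.tau k ρ := by
  exact sub_nonneg.2 (ct_mono (P.S_pos _) (P.S_anti (by omega)) ρ)

theorem tau_le_one (k : ℕ) (ρ : ℝ) : P.tau k ρ ≤ 1 := by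
  unfold tau
  linarith [ct_le_one (P.S k) ρ, ct_nonneg (P.S (k + 2)) ρ]

theorem tau_ne_zero {k : ℕ} {ρ : ℝ} (h0 : 0 ≤ ρ) (h : P.tau k ρ ≠ 0) :
    P.S (k + 2) < ρ ∧ ρ < 2 * P.S k := by
  exact ct_sub_ne_zero (P.S_pos _) (P.S_anti (by omega)) h0 h

theorem tau_eq_one {k : ℕ} {ρ : ℝ} (h1 : 2 * P.S (k + 2) ≤ ρ) (h2 : ρ ≤ P.S k) :
    P.tau k ρ = 1 := by
  rw [tau, ct_eq_one (P.S_pos k) (by linarith [P.S_pos (k + 2)]) h2, ct_eq_zero (P.S_pos _) h1,
    sub_zero]

/-- two levels of the same class cannot both be active at the same scale -/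
theorem level_unique {k k' : ℕ} {ρ : ℝ} (hc : cls k = cls k') (h1 : 2 * P.S (k + 2) ≤ ρ)
    (h2 : ρ ≤ P.S k) (h3 : P.S (k' + 2) < ρ) (h4 : ρ < 2 * P.S k') : k = k' := by
  have hm : k % 2 = k' % 2 := congrArg Fin.val hc
  rcases lt_trichotomy k k' with h | h | h
  · linarith [P.S_anti (show k + 2 ≤ k' by omega)]
  · exact h
  · linarith [P.S_anti (show k' + 2 ≤ k by omega)]

end Par

end Crest.Agent.R123
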