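import Crest.Agent.R123.Stage

open scoped BigOperators

noncomputable section

namespace Crest.Agent.R123

namespace Orb

variable {β : Type} [Fintype β] [DecidableEq β] {P : Par β} (o : Orb P)

theorem axis_step (t : ℕ) (h : P.l 0 ≤ o.ρ t) (c : β × Fin 2) (hc : c ≠ P.c0) :
    o.x (t + 1) c = 0 := by
  rw [o.step t c, P.Hm_axis _ _ h c hc, mul_zero]

theorem drop (t : ℕ) (h : P.l 0 ≤ o.ρ t) : o.ρ (t + 1) < P.l 0 := by
  by_contra hc
  push Not at hc
  have hl := P.l_pos 0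
  have key : ∀ m : ℕ, (∀ c, c ≠ P.c0 → o.x (t + 1 + m) c = 0) ∧
      2 ^ m * P.l 0 ≤ o.ρ (t + 1 + m) := by
    intro m
    induction m with
    | zero => exact ⟨o.axis_step t h, by simpa using hc⟩
    | succ m ih =>
      have h1 : (1 : ℝ) ≤ 2 ^ m := one_le_pow₀ (by norm_num)
      have h2 : P.l 0 ≤ o.ρ (t + 1 + m) := by nlinarith [ih.2]
      refine ⟨o.axis_step _ h2, ?_⟩
      have h3 := P.Hm_axis_grow (o.u (t + 1 + m)) _ h2 (o.bdd _) ih.1
      have h4 : ‖o.x (t + 1 + m + 1) P.c0‖ ≤ o.ρ (t + 1 + (m + 1)) :=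
        PiLp.norm_apply_le (o.x (t + 1 + m + 1)) P.c0
      have h5 := o.φ_ge (t + 1 + m) P.c0
      rw [o.step, norm_mul, Complex.norm_real, Real.norm_of_nonneg (by linarith)] at h4
      have h6 : 2 ^ m * P.l 0 ≤ ‖o.x (t + 1 + m)‖ := ih.2
      have h7 : 1 / 2 * ‖P.Hm (o.u (t + 1 + m)) (o.x (t + 1 + m)) P.c0‖ ≤
          o.ρ (t + 1 + (m + 1)) :=
        le_trans (mul_le_mul_of_nonneg_right h5 (norm_nonneg _)) h4
      rw [pow_succ]
      linarith
  obtain ⟨m, hm⟩ := pow_unbounded_of_one_lt (2 * P.hi 0 / P.l 0) (by norm_num : (1 : ℝ) < 2)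
  rw [div_lt_iff₀ hl] at hm
  have h1 := (key m).2
  have h2 : o.ρ (t + 1 + m) < 2 * P.hi 0 := o.bdd _
  linarith

theorem A_pos (P : Par β) (k : ℕ) : 0 < P.A k := by
  have := P.l_pos (k + 1)
  have := P.toPre.gam_pos k
  unfold Par.A
  positivity

/-- during a stage the norm reaches any level `C` below the top of the zone -/
theorem reach {k s : ℕ} (hs : o.Start k s) {C : ℝ} (hC : P.Z * C ≤ P.B k) :
    ∃ t, s ≤ t ∧ C ≤ o.ρ t ∧ o.ρ t ≤ P.B k ∧ ∀ t', s ≤ t' → t' < t → o.ρ t' ≤ P.hi k := by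
  have hZ := P.toPre.two_le_Z
  have hhi := P.hi_pos k
  have hB : P.B k ≤ P.hi k := by
    unfold Par.B
    exact div_le_self hhi.le (one_le_pow₀ (by linarith))
  have hρ0 : 0 < o.ρ s := (A_pos P k).trans_le hs.2.1
  rcases le_or_gt C 0 with hC0 | hC0
  · exact ⟨s, le_rfl, by linarith, hs.2.2.1, fun t' h1 h2 => by omega⟩
  have hCB : C ≤ P.B k := by nlinarith
  have hex : ∃ m, C ≤ o.ρ (s + m) := by
    by_contra hne
    push Not at hne
    have hg := P.toPre.gam_pos k
    obtain ⟨m, hm⟩ := pow_unbounded_of_one_lt (C / (P.gam k * o.ρ s)) (by norm_num : (1 : ℝ) < 2)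
    rw [div_lt_iff₀ (by positivity)] at hm
    have h1 := (o.stage hs (s + (m + 1)) (by omega) fun t' h1 h2 => by
      obtain ⟨m', rfl⟩ := Nat.exists_eq_add_of_le h1
      linarith [hne m']).1 s le_rfl (by omega)
    rw [show s + (m + 1) - s = m + 1 by omega, pow_succ] at h1
    have h2 := hne (m + 1)
    have h3 : 0 < 2 ^ m * (P.gam k * o.ρ s) := by positivity
    nlinarith
  classical
  have hlt : ∀ t', s ≤ t' → t' < s + Nat.find hex → o.ρ t' < C := fun t' h1 h2 => by
    obtain ⟨m', rfl⟩ := Nat.exists_eq_add_of_le h1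
    exact lt_of_not_ge (Nat.find_min hex (by omega))
  refine ⟨s + Nat.find hex, by omega, Nat.find_spec hex, ?_, fun t' h1 h2 => by
    linarith [hlt t' h1 h2]⟩
  rcases Nat.eq_zero_or_pos (Nat.find hex) with h0 | h0
  · rw [h0]; exact hs.2.2.1
  · have h1 := hlt (s + Nat.find hex - 1) (by omega) (by omega)
    have h2 := o.rho_step (s + Nat.find hex - 1)
      (by linarith [P.hi_anti (Nat.zero_le k)])
    rw [show s + Nat.find hex - 1 + 1 = s + Nat.find hex by omega] at h2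
    nlinarith

theorem gam_le_one (P : Par β) (k : ℕ) : P.gam k ≤ 1 :=
  (P.toPre.gam_le k).trans (inv_le_one_of_one_le₀ (by linarith [P.toPre.two_le_Z]))

theorem not_start_zero (s : ℕ) : ¬ o.Start 0 s := by
  intro hs
  have hZ := P.toPre.two_le_Z
  have hg := P.toPre.gam_pos 0
  have hg1 := gam_le_one P 0
  have hl := P.l_pos 0
  have hhi := P.hi_pos 0
  have h1 := P.l_hi 0
  have hB : P.B 0 ≤ P.hi 0 := by
    unfold Par.B
    exact div_le_self hhi.le (one_le_pow₀ (by linarith))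
  have hC : P.Z * (P.l 0 / P.gam 0) ≤ P.B 0 := by
    unfold Par.B
    rw [P.Q0] at h1 ⊢
    rw [le_div_iff₀ (by positivity), ← mul_div_assoc, div_mul_eq_mul_div, div_le_iff₀ hg]
    have h2 : P.Z * P.l 0 * P.Z ^ 1 ≤ P.Z ^ (2 * 1 + 2) * P.l 0 := by
      have : P.Z ^ 2 ≤ P.Z ^ (2 * 1 + 2) := pow_le_pow_right₀ (by linarith) (by norm_num)
      nlinarith
    have h3 : P.gam 0 ^ 2 * P.hi 0 ≤ P.hi 0 * P.gam 0 := by
      have : 0 ≤ P.gam 0 * P.hi 0 * (1 - P.gam 0) := by
        apply mul_nonneg (by positivity); linarith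
      nlinarith
    linarith
  obtain ⟨t, hst, hC1, hC2, hb⟩ := o.reach hs hC
  have h2 := (o.stage hs (t + 1) (by omega) fun t' h1 h2 => by
    rcases Nat.lt_succ_iff_lt_or_eq.mp h2 with h3 | rfl
    · exact hb t' h1 h3
    · linarith).1 t hst (by omega)
  rw [div_le_iff₀ hg] at hC1
  have h3 := o.rho_nonneg t
  have h4 := o.drop t (by nlinarith)
  rw [show t + 1 - t = 1 by omega] at h2
  nlinarith

theorem A_bound (P : Par β) (k : ℕ) :
    P.Z ^ (P.Q (k + 1) + 1) * P.A k ≤ P.gam (k + 1) * P.B (k + 1) := by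
  have hZ := P.toPre.two_le_Z
  have hg := P.toPre.gam_pos k
  have hg' := P.toPre.gam_pos (k + 1)
  have hgg : P.gam (k + 1) ≤ P.gam k := P.toPre.gam_anti (Nat.le_succ k)
  have hl := P.l_pos (k + 1)
  have hhi := P.hi_pos (k + 1)
  have h1 := P.l_hi (k + 1)
  unfold Par.A Par.B
  rw [← mul_div_assoc, ← mul_div_assoc, div_le_div_iff₀ hg (by positivity)]
  have h2 : P.Z ^ (P.Q (k + 1) + 1) * (2 * P.l (k + 1)) * P.Z ^ P.Q (k + 1) ≤
      P.Z ^ (2 * P.Q (k + 1) + 2) * P.l (k + 1) := by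
    calc _ = P.Z ^ (2 * P.Q (k + 1) + 1) * 2 * P.l (k + 1) := by ring
      _ ≤ P.Z ^ (2 * P.Q (k + 1) + 1) * P.Z * P.l (k + 1) := by gcongr
      _ = _ := by ring
  have h3 : P.gam (k + 1) ^ 2 * P.hi (k + 1) ≤ P.gam (k + 1) * P.hi (k + 1) * P.gam k := by
    calc _ = P.gam (k + 1) * P.hi (k + 1) * P.gam (k + 1) := by ring
      _ ≤ _ := by gcongr
  linarith

theorem start_pred {k s : ℕ} (hs : o.Start (k + 1) s) : ∃ s', o.Start k s' := by
  have hZ := P.toPre.two_le_Z
  have hg := P.toPre.gam_pos (k + 1)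
  have hA := A_pos P k
  have hhi := P.hi_pos (k + 1)
  have hC : P.Z * (P.A k / P.gam (k + 1)) ≤ P.B (k + 1) := by
    rw [← mul_div_assoc, div_le_iff₀ hg]
    have h1 := A_bound P k
    have h2 : P.Z ≤ P.Z ^ (P.Q (k + 1) + 1) := le_self_pow₀ (by linarith) (by omega)
    nlinarith
  obtain ⟨t, hst, hC1, hC2, hb⟩ := o.reach hs hC
  obtain ⟨i, hi, hv⟩ := P.visit (k + 1) _ (o.norm_u (t + 1))
  rw [o.u_add] at hv
  have hBZ : P.Z ^ P.Q (k + 1) * P.B (k + 1) = P.hi (k + 1) := by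
    unfold Par.B
    field_simp
  have hB0 : 0 < P.B (k + 1) := by unfold Par.B; positivity
  have hup : ∀ j, j ≤ P.Q (k + 1) → o.ρ (t + j) ≤ P.Z ^ j * P.B (k + 1) := by
    intro j
    induction j with
    | zero => intro _; simpa using hC2
    | succ j ih =>
      intro hj
      have h1 := ih (by omega)
      have h2 : P.Z ^ j ≤ P.Z ^ P.Q (k + 1) := pow_le_pow_right₀ (by linarith) (by omega)
      have h3 := o.rho_step (t + j) (by
        have := P.hi_anti (Nat.zero_le (k + 1))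
        nlinarith)
      calc o.ρ (t + (j + 1)) = o.ρ (t + j + 1) := rfl
        _ ≤ P.Z * o.ρ (t + j) := h3
        _ ≤ P.Z * (P.Z ^ j * P.B (k + 1)) := by gcongr
        _ = _ := by ring
  have hup' : ∀ t', s ≤ t' → t' ≤ t + 1 + i → o.ρ t' ≤ P.hi (k + 1) := by
    intro t' h1 h2
    rcases lt_or_ge t' t with h3 | h3
    · exact hb t' h1 h3
    · obtain ⟨j, rfl⟩ := Nat.exists_eq_add_of_le h3
      have h4 := hup j (by omega)
      have h5 : P.Z ^ j ≤ P.Z ^ P.Q (k + 1) := pow_le_pow_right₀ (by linarith) (by omega)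
      nlinarith
  obtain ⟨h1, h2⟩ := o.stage hs (t + 1 + i) (by omega) fun t' h1 h2 => hup' t' h1 h2.le
  have h3 := hup' (t + 1 + i) (by omega) le_rfl
  refine ⟨t + 1 + i, hv, ?_, h3.trans ?_, h2 h3⟩
  · have h4 := h1 t hst (by omega)
    have h5 : (1 : ℝ) ≤ 2 ^ (t + 1 + i - t) := one_le_pow₀ (by norm_num)
    rw [div_le_iff₀ hg] at hC1
    have h6 := o.rho_nonneg t
    have h7 : P.gam (k + 1) * 1 * o.ρ t ≤ P.gam (k + 1) * 2 ^ (t + 1 + i - t) * o.ρ t := by
      gcongr
    linarith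
  · have h4 := P.two_hi_le (k + 1)
    have h5 := P.two_S_le k
    have h6 := P.l_hi k
    have h7 := P.l_pos k
    have h8 := P.hi_pos k
    have h9 := gam_le_one P k
    have h10 := P.toPre.gam_pos k
    unfold Par.B
    rw [le_div_iff₀ (by positivity)]
    have h11 : P.Z ^ P.Q k ≤ P.Z ^ (2 * P.Q k + 2) := pow_le_pow_right₀ (by linarith) (by omega)
    have h12 : P.gam k ^ 2 * P.hi k ≤ 1 * P.hi k := by
      gcongr
      exact pow_le_one₀ h10.le h9
    calc P.hi (k + 1) * P.Z ^ P.Q k ≤ P.l k * P.Z ^ (2 * P.Q k + 2) := by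
          gcongr
          linarith
      _ ≤ P.hi k := by linarith

theorem not_start (k : ℕ) : ∀ s, ¬ o.Start k s := by
  induction k with
  | zero => exact o.not_start_zero
  | succ k ih =>
    intro s hs
    obtain ⟨s', hs'⟩ := o.start_pred hs
    exact ih s' hs'

theorem B_le (P : Par β) (k : ℕ) : P.B k ≤ P.hi k := by
  unfold Par.B
  exact div_le_self (P.hi_pos k).le (one_le_pow₀ (by linarith [P.toPre.two_le_Z]))

theorem halve {k t : ℕ} {Y : ℝ} (hY : Y ≤ P.B k) (h : ∀ t', t ≤ t' → o.ρ t' ≤ Y) (t' : ℕ)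
    (ht : t + P.Q (k + 1) ≤ t') : o.ρ t' ≤ max (P.Z ^ P.Q (k + 1) * P.A k) (Y / 2) := by
  have hZ := P.toPre.two_le_Z
  have hB := B_le P k
  obtain ⟨i, hi, hv⟩ := P.visit (k + 1) _ (o.norm_u (t' - P.Q (k + 1)))
  rw [o.u_add] at hv
  set v := t' - P.Q (k + 1) + i with hvdef
  have hb : ∀ t'', t ≤ t'' → t'' < t' → o.ρ t'' ≤ P.hi k := fun t'' h1 _ => by linarith [h t'' h1]
  have hA := A_pos P k
  rcases lt_or_ge (o.ρ v) (P.A k) with h1 | h1
  · have h2 := o.rho_pow hb v (by omega) (t' - v) (by omega)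
    rw [show v + (t' - v) = t' by omega] at h2
    refine le_max_of_le_left (h2.trans ?_)
    gcongr
    · exact o.rho_nonneg _
    · linarith
    · omega
  · have h2 : ‖P.N (o.u v) (o.x v)‖ < P.r1 k * o.ρ v := by
      by_contra hc
      exact o.not_start k v ⟨hv, h1, (h v (by omega)).trans hY, le_of_not_gt hc⟩
    have h3 : 2 * P.S (k + 2) ≤ o.ρ v := by
      have h4 := P.two_S_le (k + 1)
      have h5 := P.l_pos (k + 1)
      have h6 : 2 * P.l (k + 1) ≤ P.A k := by
        unfold Par.A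
        rw [le_div_iff₀ (P.toPre.gam_pos k)]
        have := gam_le_one P k
        nlinarith
      linarith
    have h4 := o.landing (by linarith [h v (by omega), P.hi_anti (Nat.zero_le k)]) h3 hv
    have h5 := o.rho_pow hb (v + 1) (by omega) (t' - (v + 1)) (by omega)
    rw [show v + 1 + (t' - (v + 1)) = t' by omega] at h5
    refine le_max_of_le_right (h5.trans ?_)
    have h6 : P.Z ^ (t' - (v + 1)) ≤ P.Z ^ P.Q (k + 2) := by
      have : P.Q (k + 1) ≤ P.Q (k + 2) := P.Qmono (by omega)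
      exact pow_le_pow_right₀ (by linarith) (by omega)
    have h7 : P.Z ^ P.Q (k + 2) * (P.Z * P.r1 k) = 1 := by
      unfold Pre.r1
      field_simp
      ring
    have h8 := h v (by omega)
    have h9 := P.toPre.r1_pos k
    have h10 : o.ρ (v + 1) ≤ P.Z * P.r1 k * Y / 2 := by
      have : P.Z * ‖P.N (o.u v) (o.x v)‖ ≤ P.Z * (P.r1 k * Y) := by
        gcongr
        exact h2.le.trans (by gcongr)
      linarith
    calc P.Z ^ (t' - (v + 1)) * o.ρ (v + 1) ≤ P.Z ^ P.Q (k + 2) * (P.Z * P.r1 k * Y / 2) := by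
          gcongr
          exact o.rho_nonneg _
      _ = P.Z ^ P.Q (k + 2) * (P.Z * P.r1 k) * Y / 2 := by ring
      _ = Y / 2 := by rw [h7, one_mul]

theorem eventually_le_B (k : ℕ) : ∃ t, ∀ t', t ≤ t' → o.ρ t' ≤ P.B k := by
  have hZ := P.toPre.two_le_Z
  induction k with
  | zero =>
    refine ⟨1, fun t' ht => ?_⟩
    obtain ⟨t, rfl⟩ : ∃ t, t' = t + 1 := ⟨t' - 1, by omega⟩
    have hl := P.l_pos 0
    have hhi := P.hi_pos 0
    have h1 := P.l_hi 0
    have h2 : P.Z * P.l 0 ≤ P.B 0 := by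
      unfold Par.B
      rw [P.Q0] at h1 ⊢
      rw [le_div_iff₀ (by positivity)]
      have h2 : P.Z * P.l 0 * P.Z ^ 1 ≤ P.Z ^ (2 * 1 + 2) * P.l 0 := by
        have : P.Z ^ 2 ≤ P.Z ^ (2 * 1 + 2) := pow_le_pow_right₀ (by linarith) (by norm_num)
        nlinarith
      have h3 : P.gam 0 ^ 2 * P.hi 0 ≤ 1 * P.hi 0 := by
        gcongr
        exact pow_le_one₀ (P.toPre.gam_pos 0).le (gam_le_one P 0)
      linarith
    rcases le_or_gt (P.l 0) (o.ρ t) with h3 | h3
    · have := o.drop t h3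
      nlinarith
    · have h4 := o.rho_step t (by linarith [P.two_l_le 0])
      nlinarith
  | succ k ih =>
    obtain ⟨t, ht⟩ := ih
    have hA := A_pos P k
    set a := P.Z ^ P.Q (k + 1) * P.A k with ha
    have ha0 : 0 < a := by positivity
    have hB0 : 0 < P.B k := by
      have := P.hi_pos k
      unfold Par.B; positivity
    have key : ∀ n : ℕ, ∀ t', t + n * P.Q (k + 1) ≤ t' →
        o.ρ t' ≤ min (P.B k) (max a (P.B k / 2 ^ n)) := by
      intro n
      induction n with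
      | zero =>
        intro t' h
        exact le_min (ht t' (by omega)) (le_max_of_le_right (by simpa using ht t' (by omega)))
      | succ n ihn =>
        intro t' h
        refine le_min (ht t' (by omega)) ?_
        have h1 := o.halve (min_le_left _ _) ihn t' (by rw [add_mul] at h; omega)
        refine h1.trans (max_le (le_max_left _ _) ?_)
        have h2 : min (P.B k) (max a (P.B k / 2 ^ n)) ≤ max a (P.B k / 2 ^ n) := min_le_right _ _
        rcases le_total a (P.B k / 2 ^ n) with h3 | h3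
        · have h4 := h2.trans_eq (max_eq_right h3)
          refine le_max_of_le_right ?_
          rw [pow_succ, ← div_div]
          linarith
        · have h4 := h2.trans_eq (max_eq_left h3)
          exact le_max_of_le_left (by linarith)
    obtain ⟨n, hn⟩ := pow_unbounded_of_one_lt (P.B k / a) (by norm_num : (1 : ℝ) < 2)
    refine ⟨t + n * P.Q (k + 1), fun t' h => ?_⟩
    have h1 := (key n t' h).trans (min_le_right _ _)
    have h2 : P.B k / 2 ^ n ≤ a := by
      rw [div_lt_iff₀ ha0] at hn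
      rw [div_le_iff₀ (by positivity)]
      linarith
    rw [max_eq_left h2] at h1
    have h3 := A_bound P k
    have h4 : 0 < P.B (k + 1) := by
      have := P.hi_pos (k + 1)
      unfold Par.B; positivity
    have h5 := gam_le_one P (k + 1)
    have h6 : P.Z ^ (P.Q (k + 1) + 1) * P.A k = P.Z * a := by rw [ha]; ring
    nlinarith

theorem tendsto_zero : Filter.Tendsto o.x Filter.atTop (nhds 0) := by
  rw [tendsto_zero_iff_norm_tendsto_zero, Metric.tendsto_atTop]
  intro ε hε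
  obtain ⟨k, hk⟩ := (Metric.tendsto_atTop.mp P.S_tendsto) ε hε
  obtain ⟨t, ht⟩ := o.eventually_le_B k
  refine ⟨t, fun t' h => ?_⟩
  have h1 := hk k le_rfl
  have h2 := P.S_pos k
  rw [Real.dist_eq, sub_zero, abs_of_pos h2] at h1
  rw [Real.dist_eq, sub_zero, abs_of_nonneg (norm_nonneg _)]
  have h3 : ‖o.x t'‖ ≤ P.B k := ht t' h
  have h4 := B_le P k
  have h5 := P.two_hi_le k
  have h6 := P.hi_pos k
  linarith

end Orb

end Crest.Agent.R123
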