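import Crest.Agent.R123.Basic

/-! Derivative bounds: a small calculus `DB`, and the cutoff `x ↦ ct s ‖x‖`. -/

noncomputable section

namespace Crest.Agent.R123

section DB

variable {X Y W : Type*} [NormedAddCommGroup X] [NormedSpace ℝ X] [NormedAddCommGroup Y]
  [NormedSpace ℝ Y] [NormedAddCommGroup W] [NormedSpace ℝ W]

/-- Differentiable at `p`, with derivative of norm at most `a`. -/
def DB (f : X → Y) (p : X) (a : ℝ) : Prop := DifferentiableAt ℝ f p ∧ ‖fderiv ℝ f p‖ ≤ a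

theorem DB.mono {f : X → Y} {p : X} {a b : ℝ} (h : DB f p a) (hab : a ≤ b) : DB f p b :=
  ⟨h.1, h.2.trans hab⟩

theorem DB.nonneg {f : X → Y} {p : X} {a : ℝ} (h : DB f p a) : 0 ≤ a := (norm_nonneg _).trans h.2

theorem DB.const (c : Y) (p : X) : DB (fun _ => c) p 0 := ⟨differentiableAt_const c, by simp⟩

theorem DB.clm (L : X →L[ℝ] Y) (p : X) {a : ℝ} (h0 : 0 ≤ a) (h : ∀ x, ‖L x‖ ≤ a * ‖x‖) :
    DB L p a := ⟨L.differentiableAt, by rw [L.fderiv]; exact L.opNorm_le_bound h0 h⟩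

theorem DB.comp {g : Y → W} {f : X → Y} {p : X} {a b : ℝ} (hg : DB g (f p) a) (hf : DB f p b) :
    DB (fun x => g (f x)) p (a * b) := by
  refine ⟨hg.1.comp p hf.1, ?_⟩
  rw [fderiv_fun_comp p hg.1 hf.1]
  exact (ContinuousLinearMap.opNorm_comp_le _ _).trans
    (mul_le_mul hg.2 hf.2 (norm_nonneg _) hg.nonneg)

theorem DB.add {f g : X → Y} {p : X} {a b : ℝ} (hf : DB f p a) (hg : DB g p b) :
    DB (fun x => f x + g x) p (a + b) := by
  refine ⟨hf.1.add hg.1, ?_⟩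
  rw [fderiv_fun_add hf.1 hg.1]
  exact norm_add_le_of_le hf.2 hg.2

theorem DB.sub {f g : X → Y} {p : X} {a b : ℝ} (hf : DB f p a) (hg : DB g p b) :
    DB (fun x => f x - g x) p (a + b) := by
  refine ⟨hf.1.sub hg.1, ?_⟩
  rw [fderiv_fun_sub hf.1 hg.1]
  exact norm_sub_le_of_le hf.2 hg.2

theorem DB.sum {ι : Type*} (s : Finset ι) {f : ι → X → Y} {p : X} {a : ι → ℝ}
    (hf : ∀ i ∈ s, DB (f i) p (a i)) : DB (fun x => ∑ i ∈ s, f i x) p (∑ i ∈ s, a i) := by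
  refine ⟨DifferentiableAt.fun_sum fun i hi => (hf i hi).1, ?_⟩
  rw [fderiv_fun_sum fun i hi => (hf i hi).1]
  exact norm_sum_le_of_le _ fun i hi => (hf i hi).2

theorem DB.mul {A : Type*} [NormedCommRing A] [NormedAlgebra ℝ A] {f g : X → A} {p : X} {a b : ℝ}
    (hf : DB f p a) (hg : DB g p b) :
    DB (fun x => f x * g x) p (‖f p‖ * b + ‖g p‖ * a) := by
  refine ⟨hf.1.mul hg.1, ?_⟩
  rw [fderiv_fun_mul hf.1 hg.1]
  refine norm_add_le_of_le ((ContinuousLinearMap.opNorm_smul_le (f p) (fderiv ℝ g p)).trans ?_)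
    ((ContinuousLinearMap.opNorm_smul_le (g p) (fderiv ℝ f p)).trans ?_)
  · exact mul_le_mul_of_nonneg_left hg.2 (norm_nonneg _)
  · exact mul_le_mul_of_nonneg_left hf.2 (norm_nonneg _)

theorem DB.smul {f : X → ℝ} {g : X → Y} {p : X} {a b : ℝ} (hf : DB f p a) (hg : DB g p b) :
    DB (fun x => f x • g x) p (‖f p‖ * b + a * ‖g p‖) := by
  refine ⟨hf.1.smul hg.1, ?_⟩
  rw [fderiv_fun_smul hf.1 hg.1]
  refine norm_add_le_of_le ((norm_smul_le (f p) (fderiv ℝ g p)).trans ?_) ?_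
  · exact mul_le_mul_of_nonneg_left hg.2 (norm_nonneg _)
  · rw [ContinuousLinearMap.norm_smulRight_apply]
    exact mul_le_mul_of_nonneg_right hf.2 (norm_nonneg _)

theorem DB.ofReal {f : X → ℝ} {p : X} {a : ℝ} (hf : DB f p a) : DB (fun x => (f x : ℂ)) p a := by
  simpa using (DB.clm Complex.ofRealCLM (f p) zero_le_one (by simp)).comp hf

theorem DB.fst (p : X × Y) : DB (fun q : X × Y => q.1) p 1 :=
  DB.clm (ContinuousLinearMap.fst ℝ X Y) p zero_le_one fun q => by simpa using norm_fst_le q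

theorem DB.snd (p : X × Y) : DB (fun q : X × Y => q.2) p 1 :=
  DB.clm (ContinuousLinearMap.snd ℝ X Y) p zero_le_one fun q => by simpa using norm_snd_le q

theorem DB.of_hasDerivAt {g : ℝ → Y} {g' : Y} {t : ℝ} (h : HasDerivAt g g' t) : DB g t ‖g'‖ :=
  ⟨h.differentiableAt, by rw [← norm_deriv_eq_norm_fderiv, h.deriv]⟩

end DB

variable {β : Type} [Fintype β]

theorem DB.norm {x : E β} (hx : x ≠ 0) : DB (fun x : E β => ‖x‖) x 1 :=
  ⟨differentiableAt_id.norm ℂ hx, by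
    simpa using norm_fderiv_le_of_lipschitz ℝ (x₀ := x) lipschitzWith_one_norm⟩

theorem DB.coord (x : E β) (c : β × Fin 2) : DB (fun x : E β => x c) x 1 :=
  DB.clm ((EuclideanSpace.proj c : E β →L[ℂ] ℂ).restrictScalars ℝ) x zero_le_one fun y => by
    simpa using PiLp.norm_apply_le y c

theorem ct_contDiff (s : ℝ) : ContDiff ℝ 1 (ct s) :=
  Real.smoothTransition.contDiff.comp (by fun_prop)

theorem ct_norm_contDiff (s : ℝ) : ContDiff ℝ 1 fun x : E β => ct s ‖x‖ :=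
  Real.smoothTransition.contDiff.comp
    ((contDiff_const.sub ((contDiff_norm_sq ℂ).div_const _)).div_const _)

theorem ct_deriv : ∃ C : ℝ, 0 ≤ C ∧ ∀ s : ℝ, 0 < s → ∀ ρ : ℝ, 0 ≤ ρ → |deriv (ct s) ρ| * ρ ≤ C := by
  have hg : ContDiff ℝ 1 Real.smoothTransition := Real.smoothTransition.contDiff
  obtain ⟨G, hG⟩ := (isCompact_Icc (a := (0 : ℝ)) (b := 2)).exists_bound_of_continuousOn
    hg.continuous_deriv_one.continuousOn
  have hG0 : 0 ≤ G := (norm_nonneg _).trans (hG 0 (by simp))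
  refine ⟨3 * G, by positivity, fun s hs ρ hρ => ?_⟩
  rcases lt_or_ge (2 * s) ρ with h | h
  · have : ct s =ᶠ[nhds ρ] fun _ => 0 := by
      filter_upwards [Ioi_mem_nhds h] with t ht using ct_eq_zero hs (le_of_lt ht)
    rw [this.deriv_eq]
    simpa using hG0
  · have h1 : HasDerivAt (fun ρ : ℝ => (4 - ρ ^ 2 / s ^ 2) / 3) (-(2 * ρ / s ^ 2) / 3) ρ := by
      simpa using ((((hasDerivAt_id ρ).pow 2).div_const (s ^ 2)).const_sub 4).div_const 3
    have h2 : HasDerivAt (ct s) _ ρ := (hg.differentiable one_ne_zero _).hasDerivAt.comp ρ h1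
    have h3 : ρ ^ 2 / s ^ 2 ≤ 4 := by
      rw [div_le_iff₀ (by positivity)]
      nlinarith
    have h4 : 0 ≤ ρ ^ 2 / s ^ 2 := by positivity
    have h5 := hG ((4 - ρ ^ 2 / s ^ 2) / 3) ⟨by linarith, by linarith⟩
    rw [h2.deriv, abs_mul, neg_div, abs_neg, abs_of_nonneg (by positivity : 0 ≤ 2 * ρ / s ^ 2 / 3),
      mul_assoc, mul_comm 3]
    refine mul_le_mul h5 ?_ (by positivity) hG0
    calc 2 * ρ / s ^ 2 / 3 * ρ = 2 / 3 * (ρ ^ 2 / s ^ 2) := by ring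
      _ ≤ 3 := by linarith

/-- The scale-invariant derivative bound of the cutoff. -/
theorem ct_der : ∃ C : ℝ, 0 ≤ C ∧ ∀ s : ℝ, 0 < s → ∀ x : E β,
    ‖fderiv ℝ (fun x : E β => ct s ‖x‖) x‖ * ‖x‖ ≤ C := by
  obtain ⟨C, hC, h⟩ := ct_deriv
  refine ⟨C, hC, fun s hs x => ?_⟩
  rcases eq_or_ne x 0 with rfl | hx
  · simpa using hC
  · have := ((DB.of_hasDerivAt
      ((ct_contDiff s).differentiable one_ne_zero ‖x‖).hasDerivAt).comp (DB.norm hx)).2
    rw [mul_one] at this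
    exact (mul_le_mul_of_nonneg_right this (norm_nonneg _)).trans (h s hs _ (norm_nonneg _))

theorem ct_DB : ∃ C : ℝ, 0 ≤ C ∧ ∀ s : ℝ, 0 < s → ∀ x : E β, x ≠ 0 →
    DB (fun x : E β => ct s ‖x‖) x (C / ‖x‖) := by
  obtain ⟨C, hC, h⟩ := ct_der (β := β)
  exact ⟨C, hC, fun s hs x hx => ⟨(ct_norm_contDiff s).differentiable one_ne_zero x,
    (le_div_iff₀ (norm_pos_iff.2 hx)).2 (h s hs x)⟩⟩

end Crest.Agent.R123
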