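import Crest.Agent.R123.Defs

open scoped BigOperators

noncomputable section

namespace Crest.Agent.R123

theorem exists_dbl : Nonempty Dbl := by
  let ψ : ℂ → ℝ := fun z => ‖z‖ ^ 2 + Real.smoothTransition (2 - 2 * ‖z‖ ^ 2)
  have ψge : ∀ z, ‖z‖ ^ 2 ≤ ψ z := fun z => le_add_of_nonneg_right (Real.smoothTransition.nonneg _)
  have ψpos : ∀ z, 0 < ψ z := fun z => by
    rcases eq_or_ne z 0 with rfl | hz
    · simp [ψ, Real.smoothTransition.one_of_one_le]
    · exact (by positivity : 0 < ‖z‖ ^ 2).trans_le (ψge z)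
  have ψeq : ∀ z, 1 ≤ ‖z‖ → √(ψ z) = ‖z‖ := fun z hz => by
    simp only [ψ]
    rw [Real.smoothTransition.zero_of_nonpos (by nlinarith), add_zero,
      Real.sqrt_sq (norm_nonneg z)]
  have ψsm : ContDiff ℝ 1 ψ := (contDiff_norm_sq ℝ).add
    (Real.smoothTransition.contDiff.comp (contDiff_const.sub
      (contDiff_const.mul (contDiff_norm_sq ℝ))))
  let d : ℂ → ℂ := fun z => (√(ψ z))⁻¹ • z ^ 2
  have dsm : ContDiff ℝ 1 d :=
    ((ψsm.sqrt fun z => (ψpos z).ne').inv fun z => (Real.sqrt_pos.2 (ψpos z)).ne').smul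
      (contDiff_id.pow 2)
  have dn : ∀ z, ‖d z‖ = (√(ψ z))⁻¹ * ‖z‖ ^ 2 := fun z => by
    simp only [d]
    rw [norm_smul, norm_pow, Real.norm_eq_abs, abs_of_nonneg (by positivity)]
  obtain ⟨C, hC⟩ := (isCompact_closedBall (0 : ℂ) 2).exists_bound_of_continuousOn
    (dsm.continuous_fderiv one_ne_zero).continuousOn
  refine ⟨⟨d, max 1 C, le_max_left _ _, dsm, fun z => le_max_of_le_right ?_,
    fun z => ⟨(√(ψ z))⁻¹, by positivity, Complex.real_smul⟩, fun z => ?_, fun z hz => ?_⟩⟩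
  · rcases le_or_gt ‖z‖ 2 with hz | hz
    · exact hC z (by simpa using hz)
    set t : ℝ := ‖z‖ / 2 with ht
    have t1 : 1 < t := by rw [ht]; linarith
    have t0 : t ≠ 0 := by positivity
    have hw : ‖t⁻¹ • z‖ = 2 := by
      rw [norm_smul, Real.norm_eq_abs, abs_of_pos (by positivity), ht]
      field_simp
    have h1 := (dsm.differentiable one_ne_zero (t⁻¹ • z)).hasFDerivAt
    have h2 := (h1.comp z ((hasFDerivAt_id z).const_smul t⁻¹)).const_smul t
    have h3 : d =ᶠ[nhds z] fun y => t • d (t⁻¹ • y) := by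
      have : ∀ᶠ y in nhds z, t < ‖y‖ :=
        ContinuousAt.eventually_lt continuousAt_const continuous_norm.continuousAt (by
          rw [ht]; linarith)
      filter_upwards [this] with y hy
      have e : ‖t⁻¹ • y‖ = t⁻¹ * ‖y‖ := by
        rw [norm_smul, Real.norm_eq_abs, abs_of_pos (by positivity)]
      simp only [d]
      rw [ψeq y (by linarith), ψeq _ (by rw [e, le_inv_mul_iff₀ (by positivity)]; linarith), e,
        smul_pow, smul_smul, smul_smul]
      congr 1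
      have : ‖y‖ ≠ 0 := (by linarith : 0 < ‖y‖).ne'
      field_simp
    rw [(h2.congr_of_eventuallyEq h3).fderiv]
    have : t • (fderiv ℝ d (t⁻¹ • z)).comp (t⁻¹ • ContinuousLinearMap.id ℝ ℂ) =
        fderiv ℝ d (t⁻¹ • z) := by
      ext <;> simp [smul_smul, mul_inv_cancel₀ t0]
    rw [this]
    exact hC _ (by simpa using hw.le)
  · rw [dn, inv_mul_le_iff₀ (Real.sqrt_pos.2 (ψpos z)), sq]
    exact mul_le_mul_of_nonneg_right (Real.le_sqrt_of_sq_le (ψge z)) (norm_nonneg z)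
  · rw [dn, ψeq z hz]
    field_simp

namespace Dbl

variable (D : Dbl)

theorem iter_zero (j : ℕ) : D.d^[j] 0 = 0 := by
  refine Function.iterate_fixed ?_ j
  obtain ⟨g, -, h⟩ := D.d_form 0
  simpa using h

theorem iter_smooth (j : ℕ) : ContDiff ℝ 1 (D.d^[j]) := by
  induction j with
  | zero => exact contDiff_id
  | succ j ih => rw [Function.iterate_succ']; exact D.d_smooth.comp ih

theorem iter_der (j : ℕ) (z : ℂ) : ‖fderiv ℝ (D.d^[j]) z‖ ≤ D.L0 ^ j := by
  induction j with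
  | zero => simpa using ContinuousLinearMap.norm_id_le
  | succ j ih =>
    rw [Function.iterate_succ', fderiv_comp z (D.d_smooth.differentiable one_ne_zero _)
      ((D.iter_smooth j).differentiable one_ne_zero _), pow_succ']
    exact (ContinuousLinearMap.opNorm_comp_le _ _).trans
      (mul_le_mul (D.d_der _) ih (norm_nonneg _) (by linarith [D.one_le]))

theorem iter_norm_le (j : ℕ) (z : ℂ) : ‖D.d^[j] z‖ ≤ ‖z‖ := by
  induction j with
  | zero => exact le_rfl
  | succ j ih => rw [Function.iterate_succ_apply']; exact (D.d_norm_le _).trans ih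

theorem iter_form (j : ℕ) (A : ℝ) (hA : 0 ≤ A) (ν : ℂ) (hν : ‖ν‖ = 1) :
    ∃ B : ℝ, 0 ≤ B ∧ B ≤ A ∧ D.d^[j] ((A : ℂ) * ν) = (B : ℂ) * ν ^ (2 ^ j) ∧ (1 ≤ A → B = A) := by
  induction j with
  | zero => exact ⟨A, hA, le_rfl, by simp, fun _ => rfl⟩
  | succ j ih =>
    obtain ⟨B, h0, h1, h2, h3⟩ := ih
    obtain ⟨g, hg, h⟩ := D.d_form ((B : ℂ) * ν ^ (2 ^ j))
    have e : D.d ((B : ℂ) * ν ^ (2 ^ j)) = ((g * B ^ 2 : ℝ) : ℂ) * ν ^ (2 ^ (j + 1)) := by
      rw [h, pow_succ 2 j, pow_mul]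
      push_cast
      ring
    have n1 : ‖(B : ℂ) * ν ^ (2 ^ j)‖ = B := by simp [hν, abs_of_nonneg h0]
    have n2 : ‖D.d ((B : ℂ) * ν ^ (2 ^ j))‖ = g * B ^ 2 := by
      rw [e, norm_mul, norm_pow, hν, one_pow, mul_one, Complex.norm_real, Real.norm_eq_abs,
        abs_of_nonneg (by positivity)]
    refine ⟨g * B ^ 2, by positivity, ?_, by rw [Function.iterate_succ_apply', h2, e], fun hA1 => ?_⟩
    · have := D.d_norm_le ((B : ℂ) * ν ^ (2 ^ j))
      rw [n1, n2] at this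
      exact this.trans h1
    · have := D.d_norm_eq ((B : ℂ) * ν ^ (2 ^ j)) (by rw [n1, h3 hA1]; exact hA1)
      rw [n1, n2] at this
      rw [this, h3 hA1]

end Dbl

end Crest.Agent.R123
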