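import Mathlib

/-!
# Row 123: definitions

Counterexample to the entropy conjecture for `C¹` maps on `S¹ × S² × S^d`.
Base: rotation `u ↦ u * a` of the unit circle.  Fibre chart `E = ℂ^(β × Fin 2)` ("channels").
See `R123/README` in the subtask specs for the plan.
-/

open scoped BigOperators

noncomputable section

namespace Crest.Agent.R123

/-- Level data: marker bumps on the circle for the rotation by `a`. -/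
structure Lev (β : Type) where
  a : ℂ
  ha : ‖a‖ = 1
  b0 : β
  Q : ℕ → ℕ
  h : ℕ → ℂ → ℝ
  w : ℕ → β → ℂ → ℝ
  rd : ℕ → β → ℂ → ℝ
  Q0 : Q 0 = 1
  Qmono : Monotone Q
  Qpow : ∀ k, 2 ^ k ≤ Q k
  h_smooth : ∀ k, ContDiff ℝ 1 (h k)
  w_smooth : ∀ k b, ContDiff ℝ 1 (w k b)
  rd_smooth : ∀ k b, ContDiff ℝ 1 (rd k b)
  h_nonneg : ∀ k u, 0 ≤ h k u
  h_le : ∀ k u, h k u ≤ 1
  w_nonneg : ∀ k b u, 0 ≤ w k b u
  w_le : ∀ k b u, w k b u ≤ 1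
  rd_nonneg : ∀ k b u, 0 ≤ rd k b u
  rd_le : ∀ k b u, rd k b u ≤ 1
  h_der : ∀ k, ∃ D : ℝ, ∀ u, ‖fderiv ℝ (h k) u‖ ≤ D
  w_der : ∀ k b, ∃ D : ℝ, ∀ u, ‖fderiv ℝ (w k b) u‖ ≤ D
  rd_der : ∀ k b, ∃ D : ℝ, ∀ u, ‖fderiv ℝ (rd k b) u‖ ≤ D
  h0 : ∀ u, h 0 u = 1
  w0 : ∀ u, w 0 b0 u = 1
  w0' : ∀ b, b ≠ b0 → ∀ u, w 0 b u = 0
  nest : ∀ k u, h (k + 1) u ≠ 0 → h k u = 1
  visit : ∀ k u, ‖u‖ = 1 → ∃ j < Q k, h k (u * a ^ j) = 1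
  cover : ∀ k u, ‖u‖ = 1 → h k u ≠ 0 → ∃ b, w k b u = 1
  rd_w : ∀ k b u, w k b u ≠ 0 → rd k b u = 1
  rd_sep : ∀ k b u i, ‖u‖ = 1 → 1 ≤ i → i < Q k → rd k b u ≠ 0 → rd k b (u * a ^ i) = 0
  w_sep : ∀ k b u j, ‖u‖ = 1 → 1 ≤ j → j ≤ Q k → w k b u ≠ 0 → w k b (u * a ^ j) ≠ 0 →
    h k (u * a ^ j) = 1

/-- A smooth angle-doubling map of `ℂ`, norm preserving outside the unit disc. -/
structure Dbl where
  d : ℂ → ℂ
  L0 : ℝ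
  one_le : 1 ≤ L0
  d_smooth : ContDiff ℝ 1 d
  d_der : ∀ z, ‖fderiv ℝ d z‖ ≤ L0
  d_form : ∀ z, ∃ g : ℝ, 0 ≤ g ∧ d z = (g : ℂ) * z ^ 2
  d_norm_le : ∀ z, ‖d z‖ ≤ ‖z‖
  d_norm_eq : ∀ z, 1 ≤ ‖z‖ → ‖d z‖ = ‖z‖

/-- Level data together with a doubling map. -/
structure Pre (β : Type) extends Lev β, Dbl

/-- parity class of a level -/
def cls (k : ℕ) : Fin 2 := ⟨k % 2, Nat.mod_lt _ (by norm_num)⟩

/-- the fibre chart -/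
abbrev E (β : Type) := EuclideanSpace ℂ (β × Fin 2)

/-- cutoff: `1` for `ρ ≤ s`, `0` for `2 s ≤ ρ` (when `0 < s`, `0 ≤ ρ`). -/
def ct (s ρ : ℝ) : ℝ := Real.smoothTransition ((4 - ρ ^ 2 / s ^ 2) / 3)

namespace Pre

variable {β : Type} [Fintype β] (P : Pre β)

def K (_P : Pre β) : ℕ := Fintype.card β
def L : ℝ := 2 * P.L0
def Lam : ℝ := 4 * P.L * 4 ^ P.K
def Z : ℝ := 32 * P.Lam * (P.K : ℝ) ^ 2
def eta (k : ℕ) : ℝ := P.Lam / 2 ^ k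
def r1 (k : ℕ) : ℝ := (P.Z ^ (P.Q (k + 2) + 1))⁻¹
def gam (k : ℕ) : ℝ := (P.Z ^ (P.K * (k + 1) + k + 2 * P.Q (k + 2) + 1))⁻¹
def lam (k : ℕ) (u : ℂ) : ℝ := P.Lam * ∏ i ∈ Finset.range k, (1 - P.h i u / 2)
def kap (k : ℕ) (u : ℂ) : ℝ := P.lam k u * (1 - P.h k u)
def dk (k : ℕ) (u : ℂ) : ℝ := P.kap k u - if k < 2 then 0 else P.kap (k - 2) u
def c0 : β × Fin 2 := (P.b0, 0)

end Pre

/-- All the data, with the scale sequence `S`. -/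
structure Par (β : Type) [Fintype β] extends Pre β where
  S : ℕ → ℝ
  S_pos : ∀ k, 0 < S k
  S0 : S 0 ≤ 1 / 2
  S_step : ∀ k, 2 * S (k + 1) ≤
    toPre.gam k * (toPre.gam k ^ 2 * (S k / toPre.Z ^ (Q k + 1)) / toPre.Z ^ (2 * Q k + 2))
  S_dk : ∀ k u, 2 * S k * ‖fderiv ℝ (toPre.dk k) u‖ ≤ toPre.eta k
  S_w : ∀ k b u, 2 * S k * ‖fderiv ℝ (w k b) u‖ ≤ 1
  S_rd : ∀ k b u, 2 * S k * ‖fderiv ℝ (rd k b) u‖ ≤ 1

namespace Par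

variable {β : Type} [Fintype β] [DecidableEq β] (P : Par β)

/-- top of the write zone of level `k` -/
def hi (k : ℕ) : ℝ := P.S k / P.Z ^ (P.Q k + 1)
/-- `l (k+1)` is the bottom of the write zone of level `k`; `l 0` is the bottom of the pure
level-`0` zone -/
def l (k : ℕ) : ℝ := P.gam k ^ 2 * P.hi k / P.Z ^ (2 * P.Q k + 2)
def tau (k : ℕ) (ρ : ℝ) : ℝ := ct (P.S k) ρ - ct (P.S (k + 2)) ρ
def sig (k : ℕ) (ρ : ℝ) : ℝ := ct (P.hi k) ρ - ct (P.l (k + 1)) ρ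
def psi (r : ℝ) (j : ℕ) (z : ℂ) (ρ : ℝ) : ℂ := ((ρ * r : ℝ) : ℂ) * P.d^[j] (z / ((ρ * r : ℝ) : ℂ))
/-- reading of the level-`k` channels -/
def R (k : ℕ) (u : ℂ) (x : E β) : ℂ :=
  (P.tau k ‖x‖ : ℂ) * ∑ b : β, ∑ j ∈ Finset.Icc 1 (P.Q k),
    ((P.rd k b (u * P.a⁻¹ ^ j) * (P.L⁻¹) ^ j : ℝ) : ℂ) * P.psi (P.gam k) j (x (b, cls k)) ‖x‖
def Nk (k : ℕ) (u : ℂ) (x : E β) : ℂ := ∑ k' ∈ Finset.range (k + 2), P.R k' u x
def N (u : ℂ) (x : E β) : ℂ := ∑' k, P.R k u x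
def keepT (k : ℕ) (u : ℂ) (x : E β) : E β :=
  WithLp.toLp 2 fun c => if c.2 = cls k then ((ct (P.S k) ‖x‖ * P.dk k u : ℝ) : ℂ) * x c else 0
def wrT (k : ℕ) (u : ℂ) (x : E β) : E β :=
  WithLp.toLp 2 fun c =>
    if c.2 = cls k then ((P.sig k ‖x‖ * P.eta k * P.w k c.1 u : ℝ) : ℂ) * P.Nk k u x else 0
def ctop : ℝ := 4 / P.hi 0 ^ 2
def topT (x : E β) : E β := EuclideanSpace.single P.c0 ((P.ctop : ℂ) * x P.c0 ^ 2)
def Dm (u : ℂ) (x : E β) : E β :=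
  (∑' k, (P.keepT k u x + P.wrT k u x)) - ct (P.hi 0) ‖x‖ • P.topT x
def Hm (u : ℂ) (x : E β) : E β := P.Dm u x + P.topT x
def keep (u : ℂ) (ρ : ℝ) (π : Fin 2) : ℝ :=
  ∑' k, if π = cls k then ct (P.S k) ρ * P.dk k u else 0
def wf (u : ℂ) (ρ : ℝ) (c : β × Fin 2) : ℝ :=
  ∑' k, if c.2 = cls k then P.sig k ρ * P.eta k * P.w k c.1 u else 0
def A (k : ℕ) : ℝ := 2 * P.l (k + 1) / P.gam k
def B (k : ℕ) : ℝ := P.hi k / P.Z ^ P.Q k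

/-- channel `(b, cls k)` of `x` holds a level-`k` mode of age `j` whose `2^j`-th power phase
is `ω` -/
def Src (u ω : ℂ) (x : E β) (b : β) (k j : ℕ) : Prop :=
  1 ≤ j ∧ j ≤ P.Q k ∧ 2 * P.S (k + 2) ≤ ‖x‖ ∧ ‖x‖ ≤ P.S k ∧ P.w k b (u * P.a⁻¹ ^ j) ≠ 0 ∧
    ∃ (A : ℝ) (ν : ℂ), 0 ≤ A ∧ ‖ν‖ = 1 ∧ ν ^ (2 ^ j) = ω ∧ x (b, cls k) = (A : ℂ) * ν

end Par

/-- A bounded pseudo-orbit of `Hm` (each channel is multiplied by a factor in `[1/2, 2]`). -/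
structure Orb {β : Type} [Fintype β] [DecidableEq β] (P : Par β) where
  u0 : ℂ
  hu0 : ‖u0‖ = 1
  x : ℕ → E β
  φ : ℕ → β × Fin 2 → ℝ
  φ_ge : ∀ t c, 1 / 2 ≤ φ t c
  φ_le : ∀ t c, φ t c ≤ 2
  step : ∀ t c, x (t + 1) c = (φ t c : ℂ) * P.Hm (u0 * P.a ^ t) (x t) c
  bdd : ∀ t, ‖x t‖ < 2 * P.hi 0

namespace Orb

variable {β : Type} [Fintype β] [DecidableEq β] {P : Par β} (o : Orb P)

def u (t : ℕ) : ℂ := o.u0 * P.a ^ t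
def ρ (t : ℕ) : ℝ := ‖o.x t‖

/-- channel `(b, cls k)` at time `t` was written `j` steps ago by level `k` -/
def Wit (s : ℕ) (ω : ℂ) (t : ℕ) (b : β) (k j : ℕ) : Prop :=
  1 ≤ j ∧ j ≤ P.Q k ∧ s + j ≤ t ∧ P.sig k (o.ρ (t - j)) ≠ 0 ∧ P.w k b (o.u (t - j)) ≠ 0 ∧
    (∃ A : ℝ, 0 ≤ A ∧ o.x t (b, cls k) = (A : ℂ) * ω ^ (2 ^ (t - j - s))) ∧
    ∀ i, t - j < i → i < t → P.h k (o.u i) ≠ 1

def Valid (s : ℕ) (ω : ℂ) (t : ℕ) : Prop :=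
  ∀ b π, o.x t (b, π) = 0 ∨ ∃ k j, cls k = π ∧ o.Wit s ω t b k j

/-- channel `(b, π)` is either annihilated at time `t` or has a witness at the right scale -/
def Ok (s : ℕ) (ω : ℂ) (t : ℕ) (b : β) (π : Fin 2) : Prop :=
  (P.keep (o.u t) (o.ρ t) π : ℂ) * o.x t (b, π) = 0 ∨
    ∃ k j, cls k = π ∧ o.Wit s ω t b k j ∧ 2 * P.S (k + 2) ≤ o.ρ t ∧ o.ρ t ≤ P.S k

def Start (k s : ℕ) : Prop :=
  P.h (k + 1) (o.u s) = 1 ∧ P.A k ≤ o.ρ s ∧ o.ρ s ≤ P.B k ∧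
    P.r1 k * o.ρ s ≤ ‖P.N (o.u s) (o.x s)‖

/-- the potential of stage `k` started at time `s` (argument: time since `s`) -/
def th (k s : ℕ) : ℕ → ℝ
  | 0 => 0
  | m + 1 =>
    if P.h k (o.u (s + m)) = 0 then P.lam k (o.u (s + m)) / (2 * P.L) * th k s m
    else P.eta k / (2 * P.L) * max (th k s m) (P.r1 k * o.ρ (s + m))

end Orb

/-! ## The compact model -/

abbrev V3 := WithLp 2 (ℂ × ℝ)
abbrev S2 := Metric.sphere (0 : V3) 1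
abbrev VW (β : Type) := WithLp 2 (E β × ℝ)
abbrev SW (β : Type) [Fintype β] := Metric.sphere (0 : VW β) 1

open Classical in
/-- normalisation onto the unit sphere (junk value `e` at `0`) -/
def nrm {V : Type} [NormedAddCommGroup V] [NormedSpace ℝ V] (e : Metric.sphere (0 : V) 1)
    (v : V) : Metric.sphere (0 : V) 1 :=
  if h : v = 0 then e else
    ⟨‖v‖⁻¹ • v, by simp [norm_smul, inv_mul_cancel₀ (norm_ne_zero_iff.mpr h)]⟩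

def mk3 (z : ℂ) (t : ℝ) : V3 := WithLp.toLp 2 (z, t)
def mkW {β : Type} (x : E β) (t : ℝ) : VW β := WithLp.toLp 2 (x, t)

def nP : S2 := ⟨mk3 0 1, by simp [mk3, WithLp.prod_norm_eq_of_L2]⟩
def sP : S2 := ⟨mk3 0 (-1), by simp [mk3, WithLp.prod_norm_eq_of_L2]⟩
def pW (β : Type) [Fintype β] : SW β := ⟨mkW 0 1, by simp [mkW, WithLp.prod_norm_eq_of_L2]⟩

/-- angle doubling `z ↦ z² / |z|` -/
def sqz (z : ℂ) : ℂ := z ^ 2 / (‖z‖ : ℂ)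

/-- the suspension of angle doubling, as a function -/
def g0f (p : S2) : S2 := nrm nP (mk3 (sqz p.1.fst) p.1.snd)

/-- `r * exp (2 π i a / r)` -/
def tw (r a : ℝ) : ℂ := (r : ℂ) * Complex.exp (2 * Real.pi * Complex.I * ((a / r : ℝ) : ℂ))

/-- singular `n`-simplices -/
abbrev Sx (X : Type) [TopologicalSpace X] (n : ℕ) := C(stdSimplex ℝ (Fin (n + 1)), X)

/-- the `i`-th face of a singular simplex -/
def face {X : Type} [TopologicalSpace X] {n : ℕ} (i : Fin (n + 2)) (σ : Sx X (n + 1)) : Sx X n :=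
  σ.comp ⟨stdSimplex.map i.succAbove, stdSimplex.continuous_map _⟩

/-- cone over the equator loop, towards the pole `ε = ± 1` -/
def sgf (ε : ℝ) (x : stdSimplex ℝ (Fin 3)) : S2 :=
  nrm nP (mk3 (tw (1 - x 0) (x 2)) (ε * x 0))

def btf (ε : ℝ) (x : stdSimplex ℝ (Fin 4)) : S2 :=
  nrm nP (mk3 (tw (1 - x 0) (x 2 + 2 * x 3)) (ε * x 0))

/-- cutoff in the height: `0` for `t ≤ 1/4`, `1` for `1/2 ≤ t` -/
def bt (t : ℝ) : ℝ := Real.smoothTransition (4 * t - 1)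

namespace Par

variable {β : Type} [Fintype β] [DecidableEq β] (P : Par β)

def aC : Circle := ⟨P.a, by simp [Submonoid.unitSphere, P.ha]⟩

/-- chart coordinate: channel `c0` from the `2`-sphere, the others from the big sphere -/
def xOf (p : V3) (y : VW β) : E β :=
  WithLp.toLp 2 (Function.update (WithLp.ofLp y.fst) P.c0 p.fst)

def Aamb (u : ℂ) (p : V3) (y : VW β) : V3 :=
  mk3 ((bt p.snd * P.ctop : ℝ) * p.fst ^ 2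
      + (bt p.snd * bt y.snd : ℝ) * P.Dm u (P.xOf p y) P.c0) (2 * p.snd - 1)

def Wamb (u : ℂ) (p : V3) (y : VW β) : VW β :=
  mkW ((bt p.snd * bt y.snd) •
    (WithLp.toLp 2 (Function.update (WithLp.ofLp (P.Dm u (P.xOf p y))) P.c0 0) : E β)) 1

/-- the counterexample -/
def F (q : Circle × S2 × SW β) : Circle × S2 × SW β :=
  (q.1 * P.aC, nrm nP (P.Aamb q.1 q.2.1 q.2.2), nrm (pW β) (P.Wamb q.1 q.2.1 q.2.2))

end Par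

end Crest.Agent.R123
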