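import Crest.Agent.R123.Read

open scoped BigOperators

noncomputable section

namespace Crest.Agent.R123

theorem norm_le_sum_apply {ι : Type} [Fintype ι] [DecidableEq ι] (y : EuclideanSpace ℂ ι) :
    ‖y‖ ≤ ∑ c, ‖y c‖ := by
  have h4 : y = ∑ c, EuclideanSpace.single c (y c) := by
    ext c
    simp [Finset.sum_apply, Pi.single_apply]
  calc ‖y‖ = ‖∑ c, EuclideanSpace.single c (y c)‖ := by rw [← h4]
    _ ≤ ∑ c, ‖EuclideanSpace.single c (y c)‖ := norm_sum_le _ _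
    _ = _ := by simp

theorem norm_le_of_apply {ι : Type} [Fintype ι] (y z : EuclideanSpace ℂ ι) {a : ℝ} (ha : 0 ≤ a)
    (h : ∀ c, ‖y c‖ ≤ a * ‖z c‖) : ‖y‖ ≤ a * ‖z‖ := by
  have h2 : ‖y‖ ≤ ‖a • z‖ := by
    rw [EuclideanSpace.norm_eq, EuclideanSpace.norm_eq]
    apply Real.sqrt_le_sqrt
    refine Finset.sum_le_sum fun c _ => pow_le_pow_left₀ (norm_nonneg _) ?_ 2
    rw [PiLp.smul_apply, norm_smul, Real.norm_of_nonneg ha]
    exact h c
  rwa [norm_smul, Real.norm_of_nonneg ha] at h2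

theorem sum_geom_bound (n : ℕ) :
    ∑ k ∈ Finset.range n, ((k : ℝ) + 2) / 2 ^ k ≤ 6 - (2 * n + 6) / 2 ^ n := by
  induction n with
  | zero => simp
  | succ n ih =>
    rw [Finset.sum_range_succ]
    have : 6 - (2 * ((n + 1 : ℕ) : ℝ) + 6) / 2 ^ (n + 1) =
        6 - (2 * n + 6) / 2 ^ n + ((n : ℝ) + 2) / 2 ^ n := by
      push_cast
      field_simp
      ring
    linarith

namespace Par

variable {β : Type} [Fintype β] [DecidableEq β] (P : Par β)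

omit [DecidableEq β] in
theorem norm_psi_le (r : ℝ) (j : ℕ) (z : ℂ) (ρ : ℝ) : ‖P.psi r j z ρ‖ ≤ ‖z‖ := by
  by_cases h : ρ * r = 0
  · simp [psi, h]
  have h1 : ((ρ * r : ℝ) : ℂ) ≠ 0 := by exact_mod_cast h
  calc ‖P.psi r j z ρ‖ ≤ ‖((ρ * r : ℝ) : ℂ)‖ * ‖z / ((ρ * r : ℝ) : ℂ)‖ := by
        rw [psi, norm_mul]
        gcongr
        exact P.toDbl.iter_norm_le j _
    _ = ‖z‖ := by rw [← norm_mul, mul_div_cancel₀ _ h1]

omit [DecidableEq β] in
theorem sum_L_le (n : ℕ) : ∑ j ∈ Finset.Icc 1 n, (P.L⁻¹) ^ j ≤ 1 := by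
  have hL := P.toPre.two_le_L
  have h1 : ∀ n : ℕ, ∑ j ∈ Finset.Icc 1 n, ((2 : ℝ)⁻¹) ^ j ≤ 1 - (2 : ℝ)⁻¹ ^ n := by
    intro n
    induction n with
    | zero => simp
    | succ n ih =>
      rw [Finset.sum_Icc_succ_top (by omega), pow_succ]
      linarith
  refine le_trans (Finset.sum_le_sum fun j _ => ?_) ((h1 n).trans (by
    have : (0 : ℝ) ≤ 2⁻¹ ^ n := by positivity
    linarith))
  gcongr

theorem norm_R_le (k : ℕ) (u : ℂ) (x : E β) : ‖P.R k u x‖ ≤ P.K * ‖x‖ := by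
  have hL : 0 < P.L := by linarith [P.toPre.two_le_L]
  rw [R, norm_mul, Complex.norm_real, Real.norm_of_nonneg (P.tau_nonneg k (norm_nonneg _))]
  have h1 : ‖∑ b : β, ∑ j ∈ Finset.Icc 1 (P.Q k),
      ((P.rd k b (u * P.a⁻¹ ^ j) * (P.L⁻¹) ^ j : ℝ) : ℂ) * P.psi (P.gam k) j (x (b, cls k)) ‖x‖‖
      ≤ P.K * ‖x‖ := by
    refine (norm_sum_le _ _).trans ((Finset.sum_le_sum (g := fun _ => ‖x‖) fun b _ => ?_).trans
      (by simp [Pre.K]))
    refine (norm_sum_le _ _).trans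
      ((Finset.sum_le_sum (g := fun j => (P.L⁻¹) ^ j * ‖x‖) fun j _ => ?_).trans ?_)
    · have h2 := P.rd_nonneg k b (u * P.a⁻¹ ^ j)
      have h3 := P.rd_le k b (u * P.a⁻¹ ^ j)
      rw [norm_mul, Complex.norm_real, Real.norm_of_nonneg (by positivity)]
      have h4 : ‖P.psi (P.gam k) j (x (b, cls k)) ‖x‖‖ ≤ ‖x‖ :=
        (P.norm_psi_le _ _ _ _).trans (PiLp.norm_apply_le x _)
      calc _ ≤ (1 * (P.L⁻¹) ^ j) * ‖x‖ := by gcongr
        _ = _ := by ring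
    · rw [← Finset.sum_mul]
      exact mul_le_of_le_one_left (norm_nonneg _) (P.sum_L_le _)
  calc _ ≤ 1 * (P.K * ‖x‖) := by
        gcongr
        exact P.tau_le_one k _
    _ = _ := one_mul _

theorem norm_keepT_le (k : ℕ) (u : ℂ) (x : E β) : ‖P.keepT k u x‖ ≤ 4 * P.eta k * ‖x‖ := by
  have h0 := P.toPre.eta_pos k
  refine norm_le_of_apply _ _ (by positivity) fun c => ?_
  simp only [keepT]
  split_ifs
  · rw [norm_mul, Complex.norm_real, Real.norm_eq_abs, abs_mul, abs_of_nonneg (ct_nonneg _ _)]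
    have h1 := P.toPre.abs_dk_le k u
    have h2 := ct_le_one (P.S k) ‖x‖
    have h3 := ct_nonneg (P.S k) ‖x‖
    calc _ ≤ (1 * (4 * P.eta k)) * ‖x c‖ := by gcongr
      _ = _ := by ring
  · simp only [norm_zero]
    positivity

theorem norm_Nk_le (k : ℕ) (u : ℂ) (x : E β) : ‖P.Nk k u x‖ ≤ (k + 2) * (P.K * ‖x‖) := by
  refine (norm_sum_le _ _).trans ((Finset.sum_le_sum fun k' _ => P.norm_R_le k' u x).trans ?_)
  simp

theorem norm_wrT_le (k : ℕ) (u : ℂ) (x : E β) :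
    ‖P.wrT k u x‖ ≤ P.eta k * (k + 2) * (P.K : ℝ) ^ 2 * ‖x‖ := by
  have h0 := P.toPre.eta_pos k
  refine (norm_le_sum_apply _).trans ?_
  rw [Fintype.sum_prod_type]
  refine (Finset.sum_le_sum (g := fun _ => P.eta k * ((k + 2) * (P.K * ‖x‖))) fun b _ => ?_).trans
    (le_of_eq (by simp [Pre.K]; ring))
  rw [Finset.sum_eq_single (cls k)]
  · simp only [wrT, if_true]
    have h1 := P.sig_nonneg k (norm_nonneg x)
    have h2 := P.sig_le_one k ‖x‖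
    have h3 := P.w_nonneg k b u
    have h4 := P.w_le k b u
    have h5 := P.norm_Nk_le k u x
    rw [norm_mul, Complex.norm_real, Real.norm_of_nonneg (by positivity)]
    calc _ ≤ (1 * P.eta k * 1) * ((k + 2) * (P.K * ‖x‖)) := by gcongr
      _ = _ := by ring
  · intro π _ hπ
    simp [wrT, hπ]
  · simp

theorem sig_eq_zero {k : ℕ} {ρ : ℝ} (h0 : 0 ≤ ρ) (h : 2 * P.S k ≤ ρ) : P.sig k ρ = 0 := by
  by_contra hs
  have h1 := (P.sig_ne_zero h0 hs).2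
  have h2 := P.two_hi_le k
  have h3 := P.S_pos k
  linarith

theorem term_eq_zero {k : ℕ} (u : ℂ) {x : E β} (h : 2 * P.S k ≤ ‖x‖) :
    P.keepT k u x + P.wrT k u x = 0 := by
  ext c
  simp [keepT, wrT, ct_eq_zero (P.S_pos k) h, P.sig_eq_zero (norm_nonneg x) h]

theorem tsum_term_eq (u : ℂ) {x : E β} {n : ℕ} (hn : ∀ k, n ≤ k → 2 * P.S k ≤ ‖x‖) :
    ∑' k, (P.keepT k u x + P.wrT k u x) = ∑ k ∈ Finset.range n, (P.keepT k u x + P.wrT k u x) :=
  tsum_eq_sum fun k hk => P.term_eq_zero u (hn k (by simpa using hk))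

theorem Hm_eq (u : ℂ) (x : E β) (hx : ‖x‖ ≤ P.hi 0) :
    P.Hm u x = ∑' k, (P.keepT k u x + P.wrT k u x) := by
  rw [Hm, Dm, ct_eq_one (P.hi_pos 0) (norm_nonneg _) hx, one_smul, sub_add_cancel]

theorem norm_Hm_le (u : ℂ) (x : E β) (hx : ‖x‖ ≤ P.hi 0) : 2 * ‖P.Hm u x‖ ≤ P.Z * ‖x‖ := by
  have hK : (1 : ℝ) ≤ P.K := by exact_mod_cast P.toPre.one_le_K
  have hL := P.toPre.Lam_pos
  have h1 : ‖P.Hm u x‖ ≤ 14 * P.Lam * (P.K : ℝ) ^ 2 * ‖x‖ := by
    rw [P.Hm_eq u x hx]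
    by_cases hs : Summable fun k => P.keepT k u x + P.wrT k u x
    swap
    · rw [tsum_eq_zero_of_not_summable hs, norm_zero]; positivity
    refine le_of_tendsto' hs.hasSum.tendsto_sum_nat.norm fun n => ?_
    refine (norm_sum_le _ _).trans ((Finset.sum_le_sum
      (g := fun k : ℕ => (P.Lam * (P.K : ℝ) ^ 2 * ‖x‖) * (((k : ℝ) + 2) / 2 ^ k) +
        4 * P.Lam * ‖x‖ * (1 / 2) ^ k) fun k _ => ?_).trans ?_)
    · refine (norm_add_le _ _).trans ?_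
      refine (add_le_add (P.norm_keepT_le k u x) (P.norm_wrT_le k u x)).trans (le_of_eq ?_)
      unfold Pre.eta
      rw [one_div, inv_pow]
      field_simp
      ring
    · rw [Finset.sum_add_distrib, ← Finset.mul_sum, ← Finset.mul_sum]
      have h1 := sum_geom_bound n
      have h2 : (0 : ℝ) ≤ (2 * n + 6) / 2 ^ n := by positivity
      have h3 : ∑ k ∈ Finset.range n, ((1 : ℝ) / 2) ^ k ≤ 2 := sum_geometric_two_le n
      have h4 : (1 : ℝ) ≤ (P.K : ℝ) ^ 2 := one_le_pow₀ hK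
      have h5 : 0 ≤ P.Lam * ‖x‖ := by positivity
      calc _ ≤ (P.Lam * (P.K : ℝ) ^ 2 * ‖x‖) * 6 + 4 * P.Lam * ‖x‖ * 2 := by
            gcongr
            linarith
        _ ≤ _ := by nlinarith
  have h2 : P.Z = 32 * P.Lam * (P.K : ℝ) ^ 2 := rfl
  have h3 : 0 ≤ P.Lam * (P.K : ℝ) ^ 2 * ‖x‖ := by positivity
  rw [h2]
  nlinarith

theorem keep_eq_sum (u : ℂ) {ρ : ℝ} {n : ℕ} (hn : ∀ k, n ≤ k → 2 * P.S k ≤ ρ) (π : Fin 2) :
    P.keep u ρ π = ∑ k ∈ Finset.range n, if π = cls k then ct (P.S k) ρ * P.dk k u else 0 :=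
  tsum_eq_sum fun k hk => by simp [ct_eq_zero (P.S_pos k) (hn k (by simpa using hk))]

theorem wf_eq_sum (u : ℂ) {ρ : ℝ} (h0 : 0 ≤ ρ) {n : ℕ} (hn : ∀ k, n ≤ k → 2 * P.S k ≤ ρ)
    (c : β × Fin 2) : P.wf u ρ c =
      ∑ k ∈ Finset.range n, if c.2 = cls k then P.sig k ρ * P.eta k * P.w k c.1 u else 0 :=
  tsum_eq_sum fun k hk => by simp [P.sig_eq_zero h0 (hn k (by simpa using hk))]

theorem R_eq_zero {k : ℕ} (u : ℂ) {x : E β} (h : 2 * P.S k ≤ ‖x‖) : P.R k u x = 0 := by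
  have h1 : P.tau k ‖x‖ = 0 := by
    by_contra h1
    have := (P.tau_ne_zero (norm_nonneg x) h1).2
    linarith
  rw [R, h1]; simp

theorem Nk_eq {k : ℕ} (u : ℂ) {x : E β} (h : P.sig k ‖x‖ ≠ 0) : P.Nk k u x = P.N u x := by
  refine (tsum_eq_sum fun k' hk' => P.R_eq_zero u ?_).symm
  have h1 := (P.sig_ne_zero (norm_nonneg x) h).1
  have h2 := P.two_S_le (k + 1)
  have h3 : P.S k' ≤ P.S (k + 1 + 1) := P.S_anti (by simp at hk'; omega)
  linarith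

theorem Hm_apply (u : ℂ) (x : E β) (hx0 : x ≠ 0) (hx : ‖x‖ ≤ P.hi 0) (c : β × Fin 2) :
    P.Hm u x c = (P.keep u ‖x‖ c.2 : ℂ) * x c + (P.wf u ‖x‖ c : ℂ) * P.N u x := by
  obtain ⟨n, hn⟩ := P.exists_small (norm_pos_iff.mpr hx0)
  rw [P.Hm_eq u x hx, P.tsum_term_eq u hn, P.keep_eq_sum u hn, P.wf_eq_sum u (norm_nonneg _) hn,
    Complex.ofReal_sum, Complex.ofReal_sum, Finset.sum_mul, Finset.sum_mul,
    ← Finset.sum_add_distrib]
  simp only [WithLp.ofLp_sum, Finset.sum_apply, PiLp.add_apply]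
  refine Finset.sum_congr rfl fun k _ => ?_
  simp only [keepT, wrT]
  split_ifs
  · by_cases hs : P.sig k ‖x‖ = 0
    · simp [hs]
    · rw [P.Nk_eq u hs]
  · simp

omit [DecidableEq β] in
theorem sum_dk (u : ℂ) (k : ℕ) :
    (∑ k' ∈ Finset.range (k + 2), if cls k = cls k' then (if k' ≤ k then P.dk k' u else 0) else 0)
      = P.kap k u := by
  have key : ∀ k : ℕ, (∑ k' ∈ Finset.range (k + 1), if cls k = cls k' then P.dk k' u else 0)
      = P.kap k u := by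
    intro k
    induction k using Nat.twoStepInduction with
    | zero => simp [Pre.dk]
    | one =>
      have : cls 1 ≠ cls 0 := by decide
      simp [Finset.sum_range_succ, Pre.dk, this]
    | more k ih _ =>
      have h1 : cls k ≠ cls (k + 1) := by
        intro h
        have := congrArg Fin.val h
        simp only [cls] at this
        omega
      rw [Finset.sum_range_succ, Finset.sum_range_succ, cls_add_two, ih, if_neg h1, if_pos rfl]
      simp [Pre.dk]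
  rw [Finset.sum_range_succ, ← key k]
  simp only [Nat.succ_le_iff, lt_irrefl, if_false, ite_self, add_zero]
  refine Finset.sum_congr rfl fun k' hk' => ?_
  rw [if_pos (show k' ≤ k by simpa [Nat.lt_succ_iff] using hk')]

theorem keep_eq {k : ℕ} (u : ℂ) {ρ : ℝ} (h1 : 2 * P.S (k + 2) ≤ ρ) (h2 : ρ ≤ P.S k) :
    P.keep u ρ (cls k) = P.kap k u := by
  have h0 : 0 ≤ ρ := by linarith [P.S_pos (k + 2)]
  rw [P.keep_eq_sum u (n := k + 2) (fun k' hk' => by linarith [P.S_anti hk']), ← P.sum_dk u k]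
  refine Finset.sum_congr rfl fun k' hk' => ?_
  split_ifs with h3 h4
  · rw [ct_eq_one (P.S_pos k') h0 (h2.trans (P.S_anti h4)), one_mul]
  · exfalso
    have := congrArg Fin.val h3
    simp only [cls] at this
    rw [Finset.mem_range] at hk'
    omega
  · rfl

theorem keep_eq_zero {k : ℕ} {u : ℂ} {ρ : ℝ} (h1 : 2 * P.S (k + 2) ≤ ρ)
    (hu : P.h (k + 1) u = 1) (π : Fin 2) : P.keep u ρ π = 0 := by
  have hk : ∀ k', k' ≤ k + 1 → P.kap k' u = 0 := fun k' hk' => by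
    have : P.h k' u = 1 := by
      rcases hk'.lt_or_eq with h | rfl
      · exact P.toPre.h_eq_one_of_lt h (by rw [hu]; exact one_ne_zero)
      · exact hu
    simp [Pre.kap, this]
  rw [P.keep_eq_sum u (n := k + 2) (fun k' hk' => by linarith [P.S_anti hk'])]
  refine Finset.sum_eq_zero fun k' hk' => ?_
  rw [Finset.mem_range] at hk'
  simp [Pre.dk, hk k' (by omega), hk (k' - 2) (by omega)]

theorem wf_nonneg (u : ℂ) {ρ : ℝ} (h : 0 < ρ) (c : β × Fin 2) : 0 ≤ P.wf u ρ c := by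
  refine tsum_nonneg fun k => ?_
  have := P.sig_nonneg k h.le
  have := P.toPre.eta_pos k
  have := P.w_nonneg k c.1 u
  split_ifs
  · positivity
  · exact le_rfl

theorem wf_ne_zero {u : ℂ} {ρ : ℝ} (h : 0 < ρ) {c : β × Fin 2} (hw : P.wf u ρ c ≠ 0) :
    ∃ k, cls k = c.2 ∧ P.sig k ρ ≠ 0 ∧ P.w k c.1 u ≠ 0 := by
  by_contra hc
  push Not at hc
  apply hw
  have : ∀ k, (if c.2 = cls k then P.sig k ρ * P.eta k * P.w k c.1 u else 0) = 0 := fun k => by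
    split_ifs with h1
    · by_cases h2 : P.sig k ρ = 0
      · simp [h2]
      · simp [hc k h1.symm h2]
    · rfl
  simp [wf, this]

theorem wf_eq {k : ℕ} (u : ℂ) {ρ : ℝ} (h : 0 < ρ) (hs : P.sig k ρ ≠ 0) (b : β) :
    P.wf u ρ (b, cls k) = P.sig k ρ * P.eta k * P.w k b u := by
  rw [wf, tsum_eq_single k]
  · simp
  intro k' hk'
  split_ifs with h1
  · have h2 : P.sig k' ρ = 0 := by
      by_contra h2
      obtain ⟨h3, h4⟩ := P.sig_ne_zero h.le hs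
      obtain ⟨h5, h6⟩ := P.sig_ne_zero h.le h2
      refine hk' (P.level_unique (ρ := ρ) h1 ?_ ?_ ?_ ?_).symm
      · linarith [P.two_S_le (k + 1)]
      · linarith [P.two_hi_le k]
      · linarith [P.two_S_le (k' + 1), P.S_pos (k' + 2)]
      · linarith [P.two_hi_le k', P.S_pos k']
    simp [h2]
  · rfl

theorem wf_le (u : ℂ) {ρ : ℝ} (h : 0 < ρ) (c : β × Fin 2) : P.wf u ρ c ≤ P.Lam := by
  have hL := P.toPre.Lam_pos
  by_cases hw : P.wf u ρ c = 0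
  · rw [hw]; exact hL.le
  obtain ⟨k, hc, hs, -⟩ := P.wf_ne_zero h hw
  obtain ⟨b, π⟩ := c
  simp only at hc
  subst hc
  rw [P.wf_eq u h hs]
  have h1 := P.sig_le_one k ρ
  have h2 := P.w_le k b u
  have h3 := P.w_nonneg k b u
  have h4 := P.toPre.eta_pos k
  have h5 : P.eta k ≤ P.Lam := div_le_self hL.le (one_le_pow₀ (by norm_num))
  calc _ ≤ 1 * P.Lam * 1 := by gcongr
    _ = _ := by ring

omit [DecidableEq β] in
theorem dk_zero (u : ℂ) : P.dk 0 u = 0 := by simp [Pre.dk, Pre.kap, P.h0]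

theorem tsum_top (u : ℂ) {x : E β} (hx : P.l 0 ≤ ‖x‖) :
    ∑' k, (P.keepT k u x + P.wrT k u x) = P.wrT 0 u x := by
  rw [P.tsum_term_eq u (n := 1) (fun k hk => by linarith [P.two_S_le 0, P.S_anti hk])]
  have : P.keepT 0 u x = 0 := by
    ext c
    simp [keepT, P.dk_zero]
  simp [this]

theorem sig_zero_eq {ρ : ℝ} (hx : P.l 0 ≤ ρ) : P.sig 0 ρ = ct (P.hi 0) ρ := by
  rw [sig, ct_eq_zero (P.l_pos _), sub_zero]
  linarith [P.two_S_le 0, P.two_hi_le 1, P.two_l_le 1, P.l_pos 1]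

theorem Dm_eq_zero (u : ℂ) (x : E β) (hx : 2 * P.hi 0 ≤ ‖x‖) : P.Dm u x = 0 := by
  have h1 : P.l 0 ≤ ‖x‖ := by linarith [P.two_l_le 0, P.l_pos 0]
  rw [Dm, P.tsum_top u h1, ct_eq_zero (P.hi_pos 0) hx]
  ext c
  simp [wrT, P.sig_zero_eq h1, ct_eq_zero (P.hi_pos 0) hx]

theorem Hm_axis (u : ℂ) (x : E β) (hx : P.l 0 ≤ ‖x‖) (c : β × Fin 2) (hc : c ≠ P.c0) :
    P.Hm u x c = 0 := by
  rw [Hm, Dm, P.tsum_top u hx]
  obtain ⟨b, π⟩ := c
  have h1 : P.topT x (b, π) = 0 := by simp [topT, hc]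
  have h2 : P.wrT 0 u x (b, π) = 0 := by
    simp only [wrT]
    split_ifs with h
    · have hb : b ≠ P.b0 := by
        rintro rfl
        apply hc
        rw [cls_zero] at h
        exact Prod.ext rfl h
      simp [P.w0' b hb]
    · rfl
  simp [h1, h2]

theorem Hm_axis_grow (u : ℂ) (x : E β) (hx : P.l 0 ≤ ‖x‖) (hx' : ‖x‖ < 2 * P.hi 0)
    (hax : ∀ c, c ≠ P.c0 → x c = 0) : 4 * ‖x‖ ≤ ‖P.Hm u x P.c0‖ := by
  have hρ : 0 < ‖x‖ := (P.l_pos 0).trans_le hx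
  have hL : 0 < P.L := by linarith [P.toPre.two_le_L]
  have hz : ‖x P.c0‖ = ‖x‖ := by
    refine le_antisymm (PiLp.norm_apply_le x _) ((norm_le_sum_apply x).trans (le_of_eq ?_))
    rw [Finset.sum_eq_single P.c0]
    · intro c _ hc; rw [hax c hc, norm_zero]
    · simp
  set ν : ℂ := x P.c0 / (‖x‖ : ℂ) with hν
  have hρ' : (‖x‖ : ℂ) ≠ 0 := by exact_mod_cast hρ.ne'
  have hν1 : ‖ν‖ = 1 := by rw [hν, norm_div, hz, Complex.norm_real, norm_norm, div_self hρ.ne']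
  have hxν : x P.c0 = (‖x‖ : ℂ) * ν := by rw [hν, mul_div_cancel₀ _ hρ']
  have hg1 : P.gam 0 ≤ 1 :=
    (P.toPre.gam_le 0).trans (inv_le_one_of_one_le₀ (by linarith [P.toPre.two_le_Z]))
  obtain ⟨B, -, hB, hBA⟩ := P.psi_form (P.toPre.gam_pos 0) hρ 1 ‖x‖ hρ.le ν hν1
  rw [hBA (by nlinarith), ← hxν] at hB
  have hS1 : 2 * P.S 1 ≤ ‖x‖ := by linarith [P.two_S_le 0]
  have hc0 : (P.b0, cls 0) = P.c0 := by rw [cls_zero]; rfl
  have hN : P.Nk 0 u x = (P.L⁻¹ * ‖x‖ : ℝ) * ν ^ 2 := by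
    rw [Nk, Finset.sum_range_succ, Finset.sum_range_one, P.R_eq_zero u hS1, add_zero, R,
      P.tau_eq_one (by linarith [P.S_anti (show 1 ≤ 0 + 2 by omega)])
        (by linarith [P.two_hi_le 0]), P.Q0, Finset.sum_eq_single P.b0]
    · rw [Finset.Icc_self, Finset.sum_singleton, P.rd_w 0 _ _ (by rw [P.w0]; exact one_ne_zero),
        hc0, hB]
      push_cast; ring
    · intro b _ hb
      rw [hax (b, cls 0) (fun h => hb (congrArg Prod.fst h))]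
      simp [P.psi_zero]
    · simp
  have hH : P.Hm u x P.c0 = ((ct (P.hi 0) ‖x‖ * (P.Lam * P.L⁻¹) * ‖x‖ +
      (1 - ct (P.hi 0) ‖x‖) * (P.ctop * ‖x‖) * ‖x‖ : ℝ) : ℂ) * ν ^ 2 := by
    have h1 : P.wrT 0 u x P.c0 =
        ((ct (P.hi 0) ‖x‖ * P.Lam : ℝ) : ℂ) * ((P.L⁻¹ * ‖x‖ : ℝ) * ν ^ 2) := by
      have : P.c0.2 = cls 0 := by rw [cls_zero]; rfl
      have h2 : P.w 0 P.c0.1 u = 1 := P.w0 u
      simp only [wrT, this, if_true, hN, P.sig_zero_eq hx, Pre.eta, pow_zero, div_one, h2,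
        mul_one]
    have h2 : P.topT x P.c0 = (P.ctop : ℂ) * ((‖x‖ : ℂ) * ν) ^ 2 := by
      simp [topT, ← hxν]
    rw [Hm, Dm, P.tsum_top u hx]
    simp only [PiLp.add_apply, PiLp.sub_apply, PiLp.smul_apply, h1, h2, Complex.real_smul]
    push_cast; ring
  have h3 := ct_nonneg (P.hi 0) ‖x‖
  have h4 := ct_le_one (P.hi 0) ‖x‖
  have h5 : 4 ≤ P.Lam * P.L⁻¹ := by
    rw [← div_eq_mul_inv, le_div_iff₀ hL]; exact P.toPre.Lam_ge
  have hhi := P.hi_pos 0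
  have h6 : (1 - ct (P.hi 0) ‖x‖) * 4 ≤ (1 - ct (P.hi 0) ‖x‖) * (P.ctop * ‖x‖) := by
    rcases le_total ‖x‖ (P.hi 0) with h | h
    · simp [ct_eq_one hhi hρ.le h]
    · refine mul_le_mul_of_nonneg_left ?_ (by linarith)
      have h7 : P.hi 0 ≤ 1 := by linarith [P.two_hi_le 0, P.S0]
      rw [ctop, div_mul_eq_mul_div, le_div_iff₀ (by positivity)]
      nlinarith
  have h7 : 4 * ‖x‖ ≤ ct (P.hi 0) ‖x‖ * (P.Lam * P.L⁻¹) * ‖x‖ +
      (1 - ct (P.hi 0) ‖x‖) * (P.ctop * ‖x‖) * ‖x‖ := by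
    have h8 : ct (P.hi 0) ‖x‖ * 4 ≤ ct (P.hi 0) ‖x‖ * (P.Lam * P.L⁻¹) := by gcongr
    nlinarith
  rw [hH, norm_mul, norm_pow, hν1, one_pow, mul_one, Complex.norm_real,
    Real.norm_of_nonneg (by linarith)]
  exact h7

end Par

end Crest.Agent.R123
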