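import Crest.Agent.R123.Defs

open scoped BigOperators

noncomputable section

namespace Crest.Agent.R123

section EntAux

open Filter Topology Metric Finset

theorem exists_lab (Z : Type) [PseudoMetricSpace Z] [CompactSpace Z] {ε : ℝ} (hε : 0 < ε) :
    ∃ (ι : Type) (_ : Fintype ι) (lab : Z → ι), ∀ z z', lab z = lab z' → dist z z' < ε := by
  obtain ⟨t, -, ht, hc⟩ := finite_cover_balls_of_compact (isCompact_univ (X := Z)) (half_pos hε)
  have h : ∀ z : Z, ∃ c : t, dist z c < ε / 2 := fun z => by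
    obtain ⟨c, hc, hz⟩ := Set.mem_iUnion₂.1 (hc (Set.mem_univ z))
    exact ⟨⟨c, hc⟩, hz⟩
  choose lab hlab using h
  refine ⟨t, ht.fintype, lab, fun z z' e => ?_⟩
  have h1 := hlab z
  have h2 := hlab z'
  rw [e] at h1
  linarith [dist_triangle_right z z' (lab z')]

theorem exists_lab₂ {Y : Type} [MetricSpace Y] [CompactSpace Y] (y₁ y₂ : Y) {ε : ℝ} (hε : 0 < ε) :
    ∃ (ι : Type) (_ : Fintype ι) (lab : Y → ι) (r : ℝ), 0 < r ∧
      (∀ z z', lab z = lab z' → dist z z' < ε) ∧
      (∀ z ∈ ball y₁ r, ∀ z' ∈ ball y₁ r, lab z = lab z') ∧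
      ∀ z ∈ ball y₂ r, ∀ z' ∈ ball y₂ r, lab z = lab z' := by
  classical
  obtain ⟨ι, _, lab, hlab⟩ := exists_lab Y hε
  obtain ⟨r, hr, hrε, hd⟩ : ∃ r : ℝ, 0 < r ∧ r ≤ ε / 2 ∧
      ∀ z ∈ ball y₂ r, z ∈ ball y₁ r → y₁ = y₂ := by
    by_cases h : y₁ = y₂
    · exact ⟨ε / 2, half_pos hε, le_rfl, fun _ _ _ => h⟩
    · have := dist_pos.2 h
      refine ⟨min (ε / 2) (dist y₁ y₂ / 2), by positivity, min_le_left _ _, fun z h2 h1 => ?_⟩
      have h3 := (mem_ball.1 h1).trans_le (min_le_right _ _)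
      have h4 := (mem_ball.1 h2).trans_le (min_le_right _ _)
      linarith [dist_triangle_left y₁ y₂ z]
  refine ⟨Bool ⊕ ι, inferInstance, fun z => if z ∈ ball y₁ r then .inl false
    else if z ∈ ball y₂ r then .inl true else .inr (lab z), r, hr, fun z z' h => ?_,
    fun z hz z' hz' => by simp only [hz, hz', if_true], fun z hz z' hz' => ?_⟩
  · beta_reduce at h
    split_ifs at h with h1 h2 h3 h4 h5 h6 h7 h8 <;> try simp at h
    · linarith [dist_triangle_right z z' y₁, mem_ball.1 h1, mem_ball.1 h2]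
    · linarith [dist_triangle_right z z' y₂, mem_ball.1 h4, mem_ball.1 h6]
    · exact hlab _ _ h
  · by_cases h : y₁ = y₂
    · subst h
      simp only [hz, hz', if_true]
    · have h1 : z ∉ ball y₁ r := fun h' => h (hd z hz h')
      have h2 : z' ∉ ball y₁ r := fun h' => h (hd z' hz' h')
      simp only [hz, hz', h1, h2, if_true, if_false]

open Classical in
/-- number of times before `n` outside `G` -/
def badN {X : Type} (f : X → X) (G : Set X) (q : X) (n : ℕ) : ℕ :=
  ∑ t ∈ range n, if f^[t] q ∈ G then 0 else 1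

theorem badN_le {X : Type} (f : X → X) (G : Set X) (q : X) (n : ℕ) : badN f G q n ≤ n := by
  unfold badN
  refine (sum_le_card_nsmul _ _ 1 fun t _ => ?_).trans (by simp)
  split_ifs <;> simp

theorem badN_add {X : Type} (f : X → X) (G : Set X) (q : X) (m n : ℕ) :
    badN f G q (m + n) = badN f G q m + badN f G (f^[m] q) n := by
  unfold badN
  rw [sum_range_add]
  congr 1
  refine sum_congr rfl fun t _ => ?_
  rw [add_comm, Function.iterate_add_apply]

theorem badN_unif {X : Type} [TopologicalSpace X] [CompactSpace X] {f : X → X} (hf : Continuous f)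
    {G : Set X} (hG : IsOpen G) (h : ∀ q, ∀ᶠ t in atTop, f^[t] q ∈ G) {η : ℝ} (hη : 0 < η) :
    ∃ N₀ : ℕ, ∀ n q, (badN f G q n : ℝ) ≤ η * n + N₀ := by
  have h1 : ∀ q, ∃ N : ℕ, 0 < N ∧ ∀ᶠ q' in 𝓝 q, (badN f G q' N : ℝ) ≤ η * N := by
    intro q
    obtain ⟨T, hT⟩ := eventually_atTop.1 (h q)
    obtain ⟨M, hM⟩ := exists_nat_gt ((T : ℝ) / η)
    refine ⟨T + (M + 1), by omega, ?_⟩
    have h2 : ∀ᶠ q' in 𝓝 q, ∀ t ∈ range (M + 1), f^[t + T] q' ∈ G :=
      (eventually_all_finset _).2 fun t _ =>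
        (hf.iterate _).continuousAt.eventually (hG.mem_nhds (hT _ (by omega)))
    refine h2.mono fun q' hq' => ?_
    have h3 : badN f G (f^[T] q') (M + 1) = 0 :=
      sum_eq_zero fun t ht => if_pos (by rw [← Function.iterate_add_apply]; exact hq' t ht)
    have h4 : (badN f G q' T : ℝ) ≤ T := by exact_mod_cast badN_le f G q' T
    rw [badN_add, h3, add_zero]
    rw [div_lt_iff₀ hη] at hM
    have : (0 : ℝ) ≤ T := Nat.cast_nonneg T
    push_cast
    nlinarith
  choose N hN hW using h1
  obtain ⟨s, -, hs⟩ := (isCompact_univ (X := X)).elim_nhds_subcover _ fun q _ => hW q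
  refine ⟨s.sup N, fun n => ?_⟩
  induction n using Nat.strong_induction_on with
  | _ n ih =>
    intro q
    obtain ⟨p, hp, hq⟩ := Set.mem_iUnion₂.1 (hs (Set.mem_univ q))
    have h2 : N p ≤ s.sup N := le_sup hp
    rcases le_or_gt n (s.sup N) with hn | hn
    · have h3 : (badN f G q n : ℝ) ≤ (s.sup N : ℕ) := by exact_mod_cast (badN_le f G q n).trans hn
      have : 0 ≤ η * n := by positivity
      linarith
    · obtain ⟨m, rfl⟩ : ∃ m, n = N p + m := ⟨n - N p, by omega⟩
      have h3 := ih m (by have := hN p; omega) (f^[N p] q)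
      have h4 : (badN f G q (N p) : ℝ) ≤ η * N p := hq
      rw [badN_add]
      push_cast
      linarith

theorem card_codes {ι : Type} [Fintype ι] (n : ℕ) {lam k : ℝ} (hl : 0 ≤ lam)
    (s : Finset (Fin n → Option ι)) (hs : ∀ g ∈ s, (∑ t, if g t = none then 0 else 1 : ℝ) ≤ k) :
    (s.card : ℝ) ≤ Real.exp (lam * k + Fintype.card ι * Real.exp (-lam) * n) := by
  classical
  have h1 : ∑ g : Fin n → Option ι, ∏ t, Real.exp (-lam * if g t = none then 0 else 1) =
      (1 + Fintype.card ι * Real.exp (-lam)) ^ n := by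
    rw [← Fintype.piFinset_univ, ← prod_univ_sum (fun _ : Fin n => (univ : Finset (Option ι)))
      fun _ o => Real.exp (-lam * if o = none then 0 else 1)]
    simp [Fintype.sum_option]
  have h2 : (s.card : ℝ) * Real.exp (-lam * k) ≤ (1 + Fintype.card ι * Real.exp (-lam)) ^ n := by
    rw [← h1, ← nsmul_eq_mul, ← sum_const]
    refine (sum_le_sum fun g hg => ?_).trans
      (sum_le_sum_of_subset_of_nonneg (subset_univ s) fun _ _ _ => by positivity)
    rw [← Real.exp_sum, ← mul_sum, Real.exp_le_exp]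
    nlinarith [hs g hg]
  have h3 : (1 + Fintype.card ι * Real.exp (-lam)) ^ n ≤
      Real.exp (Fintype.card ι * Real.exp (-lam) * n) := by
    rw [mul_comm _ (n : ℝ), Real.exp_nat_mul]
    gcongr
    rw [add_comm]
    exact Real.add_one_le_exp _
  have h4 : (s.card : ℝ) = s.card * Real.exp (-lam * k) * Real.exp (lam * k) := by
    rw [mul_assoc, ← Real.exp_add]; simp
  rw [h4, Real.exp_add, mul_comm (Real.exp _)]
  gcongr
  exact h2.trans h3

theorem exists_cover {Y : Type} [MetricSpace Y] [CompactSpace Y] (a : Circle)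
    (f : Circle × Y → Circle × Y) (hf : Continuous f) (h1 : ∀ q, (f q).1 = q.1 * a) (y₁ y₂ : Y)
    (h2 : ∀ q, Tendsto (fun n => (f^[n] q).2) atTop (𝓝 y₁) ∨
      Tendsto (fun n => (f^[n] q).2) atTop (𝓝 y₂)) {ε δ : ℝ} (hε : 0 < ε) (hδ : 0 < δ) :
    ∃ C : ℝ, ∀ n, ∃ s : Finset (Circle × Y),
      Dynamics.IsDynCoverOf f Set.univ {p | dist p.1 p.2 < ε} n s ∧
        (s.card : ℝ) ≤ C * Real.exp (δ * n) := by
  classical
  obtain ⟨κ, _, lc, hlc⟩ := exists_lab Circle hε
  obtain ⟨ι, _, lab, r, hr, hlab, hb₁, hb₂⟩ := exists_lab₂ y₁ y₂ hε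
  set G : Set (Circle × Y) := {q | (q.2 ∈ ball y₁ r ∧ (f q).2 ∈ ball y₁ r) ∨
    (q.2 ∈ ball y₂ r ∧ (f q).2 ∈ ball y₂ r)} with hGdef
  have hG : IsOpen G :=
    ((isOpen_ball.preimage continuous_snd).inter (isOpen_ball.preimage hf.snd)).union
      ((isOpen_ball.preimage continuous_snd).inter (isOpen_ball.preimage hf.snd))
  have hGl : ∀ q ∈ G, lab (f q).2 = lab q.2 := by
    rintro q (h | h)
    · exact hb₁ _ h.2 _ h.1
    · exact hb₂ _ h.2 _ h.1
  have hev : ∀ q, ∀ᶠ t in atTop, f^[t] q ∈ G := by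
    intro q
    have key : ∀ y, Tendsto (fun n => (f^[n] q).2) atTop (𝓝 y) →
        ∀ᶠ t in atTop, (f^[t] q).2 ∈ ball y r ∧ (f (f^[t] q)).2 ∈ ball y r := fun y hy => by
      have h3 := hy.eventually (ball_mem_nhds y hr)
      refine h3.and (((tendsto_add_atTop_nat 1).eventually h3).mono fun t ht => ?_)
      rwa [Function.iterate_succ_apply'] at ht
    rcases h2 q with h | h
    · exact (key _ h).mono fun t ht => Or.inl ht
    · exact (key _ h).mono fun t ht => Or.inr ht
  set lam : ℝ := 2 * Fintype.card ι / δ + 1 with hlam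
  have hl : 0 < lam := by positivity
  have hl2 : Fintype.card ι * Real.exp (-lam) ≤ δ / 2 := by
    rw [Real.exp_neg, ← div_eq_mul_inv, div_le_iff₀ (Real.exp_pos _)]
    have h3 := Real.add_one_le_exp lam
    have h4 : δ / 2 * (2 * Fintype.card ι / δ) = Fintype.card ι := by field_simp
    nlinarith
  obtain ⟨N₀, hN₀⟩ := badN_unif hf hG hev (η := δ / (2 * lam)) (by positivity)
  refine ⟨Fintype.card κ * Fintype.card ι * Real.exp (lam * N₀), fun n => ?_⟩
  let code : Circle × Y → Fin n → Option ι := fun q t =>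
    if f^[t] q ∈ G then none else some (lab (f^[t + 1] q).2)
  let cd : Circle × Y → κ × ι × (Fin n → Option ι) := fun q => (lc q.1, lab q.2, code q)
  let S : Finset (Fin n → Option ι) := univ.filter fun g => ∃ q, code q = g
  have hne : Nonempty (Circle × Y) := ⟨(1, y₁)⟩
  refine ⟨(univ ×ˢ univ ×ˢ S).image (Function.invFun cd), fun q _ => ?_, ?_⟩
  · refine ⟨Function.invFun cd (cd q), mem_coe.2 (mem_image_of_mem _ (by simp [cd, S])), ?_⟩
    have h3 : cd (Function.invFun cd (cd q)) = cd q := Function.invFun_eq ⟨q, rfl⟩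
    generalize Function.invFun cd (cd q) = q' at h3
    simp only [cd, Prod.mk.injEq] at h3
    obtain ⟨e1, e2, e3⟩ := h3
    have h4 : ∀ t, dist (f^[t] q).1 (f^[t] q').1 = dist q.1 q'.1 := by
      intro t
      induction t with
      | zero => rfl
      | succ t ih =>
        rw [Function.iterate_succ_apply', Function.iterate_succ_apply', h1, h1, ← ih]
        change dist (((f^[t] q).1 * a : Circle) : ℂ) (((f^[t] q').1 * a : Circle) : ℂ) =
          dist (((f^[t] q).1 : Circle) : ℂ) (((f^[t] q').1 : Circle) : ℂ)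
        rw [Circle.coe_mul, Circle.coe_mul, dist_eq_norm, dist_eq_norm, ← sub_mul, norm_mul,
          Circle.norm_coe, mul_one]
    have h5 : ∀ t ≤ n, lab (f^[t] q).2 = lab (f^[t] q').2 := by
      intro t
      induction t with
      | zero => exact fun _ => e2.symm
      | succ t ih =>
        intro ht
        have h6 := congrFun e3 ⟨t, ht⟩
        simp only [code] at h6
        split_ifs at h6 with h7 h8
        · rw [Function.iterate_succ_apply', Function.iterate_succ_apply', hGl _ h7, hGl _ h8,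
            ih (by omega)]
        · exact (Option.some.inj h6).symm
    refine Dynamics.mem_dynEntourage.2 fun t ht => ?_
    change dist (f^[t] q) (f^[t] q') < ε
    rw [Prod.dist_eq, max_lt_iff, h4]
    exact ⟨hlc _ _ e1.symm, hlab _ _ (h5 t ht.le)⟩
  · have h3 := card_codes n hl.le (k := δ / (2 * lam) * n + N₀) S fun g hg => by
      obtain ⟨q, rfl⟩ := (mem_filter.1 hg).2
      refine le_trans (le_of_eq ?_) (hN₀ n q)
      rw [badN, sum_range]
      push_cast
      refine sum_congr rfl fun t _ => ?_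
      simp only [code]
      split_ifs <;> simp_all
    have h4 : lam * (δ / (2 * lam) * n + N₀) + Fintype.card ι * Real.exp (-lam) * n ≤
        lam * N₀ + δ * n := by
      have h5 : lam * (δ / (2 * lam) * n) = δ / 2 * n := by field_simp
      have h6 := mul_le_mul_of_nonneg_right hl2 (Nat.cast_nonneg (α := ℝ) n)
      rw [mul_add, h5]
      linarith
    have h5 := h3.trans (Real.exp_le_exp.2 h4)
    have h6 : ((((univ : Finset κ) ×ˢ (univ : Finset ι) ×ˢ S).image (Function.invFun cd)).card : ℝ) ≤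
        Fintype.card κ * (Fintype.card ι * S.card) := by
      exact_mod_cast card_image_le.trans_eq (by simp)
    refine h6.trans ?_
    rw [Real.exp_add] at h5
    calc (Fintype.card κ : ℝ) * (Fintype.card ι * S.card)
        ≤ Fintype.card κ * (Fintype.card ι * (Real.exp (lam * N₀) * Real.exp (δ * n))) := by gcongr
      _ = _ := by ring

end EntAux

open Filter Topology in
/-- a skew product over a rotation all of whose fibre orbits converge to one of two points has
zero entropy -/
theorem coverEntropy_eq_zero {Y : Type} [MetricSpace Y] [CompactSpace Y] (a : Circle)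
    (f : Circle × Y → Circle × Y) (hf : Continuous f) (h1 : ∀ q, (f q).1 = q.1 * a) (y₁ y₂ : Y)
    (h2 : ∀ q, Tendsto (fun n => (f^[n] q).2) atTop (𝓝 y₁) ∨
      Tendsto (fun n => (f^[n] q).2) atTop (𝓝 y₂)) :
    Dynamics.coverEntropy f Set.univ = 0 := by
  refine le_antisymm ?_ (Dynamics.coverEntropy_nonneg f ⟨(1, y₁), Set.mem_univ _⟩)
  refine (Dynamics.coverEntropy_eq_iSup_basis
    (Metric.uniformity_basis_dist (α := Circle × Y)) f Set.univ).le.trans
    (iSup₂_le fun ε hε => ?_)
  refine EReal.le_of_forall_lt_iff_le.1 fun δ hδ => ?_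
  have hδ' : 0 < δ := by exact_mod_cast hδ
  obtain ⟨C, hC⟩ := exists_cover a f hf h1 y₁ y₂ h2 hε hδ'
  rw [← ExpGrowth.expGrowthSup_exp (a := (δ : EReal))]
  refine ExpGrowth.expGrowthSup_le_of_eventually_le (b := ENNReal.ofReal C) ENNReal.ofReal_ne_top
    (Eventually.of_forall fun n => ?_)
  obtain ⟨s, hs, hc⟩ := hC n
  refine (ENat.toENNReal_mono hs.coverMincard_le_card).trans ?_
  have h3 : EReal.exp ((δ : EReal) * n) = ENNReal.ofReal (Real.exp (δ * n)) := by
    rw [← EReal.exp_coe]; norm_cast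
  rw [h3, ← ENNReal.ofReal_mul' (Real.exp_pos _).le]
  simpa using ENNReal.ofReal_le_ofReal hc

end Crest.Agent.R123
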