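import Crest.Agent.R123.HomSimp

open scoped BigOperators

noncomputable section

namespace Crest.Agent.R123

open ComplexConjugate

/-- the (unnormalised) projector onto the tautological line -/
def Pr (p : S2) (w : ℂ × ℂ) : ℂ × ℂ :=
  ((1 + p.1.snd) * w.1 + conj p.1.fst * w.2, p.1.fst * w.1 + (1 - p.1.snd) * w.2)

/-- `w` is a nonzero vector of the line over `p` -/
def InL (p : S2) (w : ℂ × ℂ) : Prop :=
  w ≠ 0 ∧ (1 + p.1.snd) * w.2 = p.1.fst * w.1 ∧ (1 - p.1.snd) * w.1 = conj p.1.fst * w.2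

theorem S2_rel (p : S2) : p.1.fst * conj p.1.fst + (p.1.snd : ℂ) ^ 2 = 1 := by
  have h := p.2
  rw [mem_sphere_zero_iff_norm] at h
  have h2 := WithLp.prod_norm_sq_eq_of_L2 p.1
  rw [h] at h2
  rw [Complex.mul_conj, Complex.normSq_eq_norm_sq]
  have : ‖p.1.fst‖ ^ 2 + p.1.snd ^ 2 = 1 := by
    rw [Real.norm_eq_abs, sq_abs] at h2; linarith
  exact_mod_cast this

theorem continuous_Pr {X : Type} [TopologicalSpace X] {p : X → S2} {w : X → ℂ × ℂ}
    (hp : Continuous p) (hw : Continuous w) : Continuous fun x => Pr (p x) (w x) := by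
  have h1 : Continuous fun x => (p x).1.fst :=
    (WithLp.continuous_fst 2 ℂ ℝ).comp (continuous_subtype_val.comp hp)
  have h2 : Continuous fun x => (p x).1.snd :=
    (WithLp.continuous_snd 2 ℂ ℝ).comp (continuous_subtype_val.comp hp)
  unfold Pr
  fun_prop

theorem InL_Pr {p q : S2} {w : ℂ × ℂ} (hw : InL q w) (hd : dist p q < 1) : InL p (Pr p w) := by
  obtain ⟨h0, h1, h2⟩ := hw
  have hp := S2_rel p
  refine ⟨fun h => h0 ?_, ?_, ?_⟩
  · simp only [Pr, Prod.ext_iff, Prod.fst_zero, Prod.snd_zero] at h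
    obtain ⟨e1, e2⟩ := h
    have hn : ‖p.1 - q.1‖ < 1 := by rwa [← dist_eq_norm]
    have hsq := WithLp.prod_norm_sq_eq_of_L2 (p.1 - q.1)
    have hlt : ‖p.1.fst - q.1.fst‖ ^ 2 + (p.1.snd - q.1.snd) ^ 2 < 1 := by
      have : ‖p.1 - q.1‖ ^ 2 < 1 := by nlinarith [norm_nonneg (p.1 - q.1)]
      rw [hsq, Real.norm_eq_abs, sq_abs] at this
      simpa using this
    have hdet : ((4 - (p.1.snd - q.1.snd) ^ 2 - ‖p.1.fst - q.1.fst‖ ^ 2 : ℝ) : ℂ) ≠ 0 := by
      have : (4 - (p.1.snd - q.1.snd) ^ 2 - ‖p.1.fst - q.1.fst‖ ^ 2 : ℝ) ≠ 0 := by linarith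
      exact_mod_cast this
    have hc : ((‖p.1.fst - q.1.fst‖ : ℝ) : ℂ) ^ 2 =
        (p.1.fst - q.1.fst) * (conj p.1.fst - conj q.1.fst) := by
      rw [← map_sub, Complex.mul_conj, Complex.normSq_eq_norm_sq]; push_cast; ring
    push_cast at hdet
    rw [hc] at hdet
    refine Prod.ext (mul_left_cancel₀ hdet ?_) (mul_left_cancel₀ hdet ?_)
    · simp only [Prod.fst_zero, mul_zero]
      linear_combination (2 - (p.1.snd : ℂ) + q.1.snd) * (e1 + h2) -
        (conj p.1.fst - conj q.1.fst) * (e2 + h1)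
    · simp only [Prod.snd_zero, mul_zero]
      linear_combination (2 + (p.1.snd : ℂ) - q.1.snd) * (e2 + h1) -
        (p.1.fst - q.1.fst) * (e1 + h2)
  · simp only [Pr]
    linear_combination (-w.2) * hp
  · simp only [Pr]
    linear_combination (-w.1) * hp

theorem exists_InL (p : S2) : ∃ w, InL p w := by
  have hp := S2_rel p
  by_cases h : (1 + p.1.snd : ℂ) = 0
  · refine ⟨(conj p.1.fst, 1 - p.1.snd), fun h' => ?_, ?_, ?_⟩
    · simp only [Prod.ext_iff, Prod.snd_zero] at h'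
      have : (2 : ℂ) = 0 := by linear_combination h + h'.2
      norm_num at this
    · simp only; linear_combination -hp
    · simp only; ring
  · refine ⟨(1 + p.1.snd, p.1.fst), fun h' => ?_, ?_, ?_⟩
    · simp only [Prod.ext_iff, Prod.fst_zero] at h'
      exact h h'.1
    · simp only; ring
    · simp only; linear_combination -hp

/-- `V` is a nowhere vanishing section over `σ` -/
def IsSec {X : Type} [TopologicalSpace X] (σ : C(X, S2)) (V : C(X, ℂ × ℂ)) : Prop :=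
  ∀ x, InL (σ x) (V x)

theorem exists_sec_of_dist {X : Type} [TopologicalSpace X] [CompactSpace X] {f g : C(X, S2)}
    (hd : dist f g < 1) (hg : ∃ V, IsSec g V) : ∃ V, IsSec f V := by
  obtain ⟨V, hV⟩ := hg
  exact ⟨⟨fun x => Pr (f x) (V x), continuous_Pr f.continuous V.continuous⟩,
    fun x => InL_Pr (hV x) ((ContinuousMap.dist_apply_le_dist x).trans_lt hd)⟩

theorem exists_sec {X : Type} [TopologicalSpace X] [CompactSpace X] [ContractibleSpace X]
    (σ : C(X, S2)) : ∃ V, IsSec σ V := by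
  obtain ⟨y, ⟨H⟩⟩ := (id_nullhomotopic X).comp_right σ
  have hcl : IsClopen {f : C(X, S2) | ∃ V, IsSec f V} := by
    constructor
    · rw [← isOpen_compl_iff, Metric.isOpen_iff]
      exact fun f hf => ⟨1, one_pos, fun g hg hg' => hf (exists_sec_of_dist
        (by rw [dist_comm]; exact hg) hg')⟩
    · rw [Metric.isOpen_iff]
      exact fun f hf => ⟨1, one_pos, fun g hg => exists_sec_of_dist hg hf⟩
  have h1 := (hcl.preimage H.curry.continuous).eq_univ ⟨1, by
    obtain ⟨w, hw⟩ := exists_InL y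
    simp only [Set.mem_preimage, ContinuousMap.Homotopy.curry_one, Set.mem_setOf_eq]
    exact ⟨ContinuousMap.const _ w, fun _ => hw⟩⟩
  have h0 : (0 : unitInterval) ∈ (H.curry) ⁻¹' {f : C(X, S2) | ∃ V, IsSec f V} := by
    rw [h1]; trivial
  simpa using h0

instance simplexContractible (n : ℕ) : ContractibleSpace (stdSimplex ℝ (Fin (n + 1))) :=
  (convex_stdSimplex ℝ _).contractibleSpace ⟨_, single_mem_stdSimplex ℝ 0⟩

instance simplexLocPath (n : ℕ) : LocallyPathConnectedSpace (stdSimplex ℝ (Fin (n + 1))) :=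
  (convex_stdSimplex ℝ _).locallyPathConnectedSpace

theorem InL_ratio {p : S2} {v w : ℂ × ℂ} (hv : InL p v) (hw : InL p w) :
    (conj v.1 * v.1 + conj v.2 * v.2) ≠ 0 ∧
      w = ((conj v.1 * w.1 + conj v.2 * w.2) / (conj v.1 * v.1 + conj v.2 * v.2)) • v := by
  obtain ⟨v0, v1, v2⟩ := hv
  obtain ⟨w0, w1, w2⟩ := hw
  have hp := S2_rel p
  have hne : (conj v.1 * v.1 + conj v.2 * v.2) ≠ 0 := by
    rw [Complex.conj_mul', Complex.conj_mul']
    intro h
    have h' : ‖v.1‖ ^ 2 + ‖v.2‖ ^ 2 = 0 := by exact_mod_cast h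
    have a1 : ‖v.1‖ = 0 := by nlinarith [sq_nonneg ‖v.1‖, sq_nonneg ‖v.2‖]
    have a2 : ‖v.2‖ = 0 := by nlinarith [sq_nonneg ‖v.1‖, sq_nonneg ‖v.2‖]
    exact v0 (Prod.ext (norm_eq_zero.1 a1) (norm_eq_zero.1 a2))
  have hdet : v.1 * w.2 = v.2 * w.1 := by
    linear_combination (v.1 * w1 - w.1 * v1 + w.2 * v2 - v.2 * w2) / 2
  refine ⟨hne, Prod.ext ?_ ?_⟩
  · simp only [Prod.smul_fst, smul_eq_mul]
    field_simp
    linear_combination (-conj v.2) * hdet
  · simp only [Prod.smul_snd, smul_eq_mul]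
    field_simp
    linear_combination (conj v.1) * hdet

/-- `V = exp m • v` -/
def Rel {X : Type} [TopologicalSpace X] (v V : C(X, ℂ × ℂ)) (m : C(X, ℂ)) : Prop :=
  ∀ x, V x = Complex.exp (m x) • v x

theorem exists_rel {n : ℕ} {σ : Sx S2 n} {v V : Sx (ℂ × ℂ) n} (hv : IsSec σ v) (hV : IsSec σ V) :
    ∃ m, Rel v V m := by
  let lam : C(stdSimplex ℝ (Fin (n + 1)), ℂ) :=
    ⟨fun x => (conj (v x).1 * (V x).1 + conj (v x).2 * (V x).2) /
      (conj (v x).1 * (v x).1 + conj (v x).2 * (v x).2),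
      Continuous.div (by fun_prop) (by fun_prop) fun x => (InL_ratio (hv x) (hV x)).1⟩
  have hl : ∀ x, V x = lam x • v x := fun x => (InL_ratio (hv x) (hV x)).2
  have hne : ∀ x, lam x ≠ 0 := fun x h => (hV x).1 (by rw [hl x, h, zero_smul])
  obtain ⟨F, ⟨-, hF⟩, -⟩ := Complex.isCoveringMapOn_exp.existsUnique_continuousMap_lifts lam
    (Complex.exp_log (hne (stdSimplex.vertex 0))) hne
  exact ⟨F, fun x => by rw [hl x, ← hF]; rfl⟩

theorem rel_unique {n : ℕ} {v V : Sx (ℂ × ℂ) n} (hv : ∀ x, v x ≠ 0) {m m' : Sx ℂ n}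
    (h : Rel v V m) (h' : Rel v V m') (x y : stdSimplex ℝ (Fin (n + 1))) :
    m x - m y = m' x - m' y := by
  have he : ∀ x, Complex.exp (m x - m' x) = 1 := fun x => by
    have := (h x).symm.trans (h' x)
    rw [Complex.exp_sub, smul_left_injective ℂ (hv x) this, div_self (Complex.exp_ne_zero _)]
  have := Complex.isCoveringMap_exp.const_of_comp (g := fun x => m x - m' x) (by fun_prop)
    (fun a a' => Subtype.ext ((he a).trans (he a').symm)) x y
  linear_combination this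

open Classical in
/-- variation of the logarithm of the ratio of two sections along an edge -/
def Dv (v V : Sx (ℂ × ℂ) 1) : ℂ :=
  if h : ∃ m, Rel v V m then h.choose (stdSimplex.vertex 1) - h.choose (stdSimplex.vertex 0)
  else 0

theorem Dv_eq {v V : Sx (ℂ × ℂ) 1} (hv : ∀ x, v x ≠ 0) {m : Sx ℂ 1} (h : Rel v V m) :
    Dv v V = m (stdSimplex.vertex 1) - m (stdSimplex.vertex 0) := by
  have hex : ∃ m, Rel v V m := ⟨m, h⟩
  rw [Dv, dif_pos hex]
  exact rel_unique hv hex.choose_spec h _ _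

theorem Dv_rel {τ : Sx S2 1} {v V W : Sx (ℂ × ℂ) 1} (hv : IsSec τ v) (hV : IsSec τ V)
    {m : Sx ℂ 1} (h : Rel V W m) :
    Dv v W = Dv v V + (m (stdSimplex.vertex 1) - m (stdSimplex.vertex 0)) := by
  obtain ⟨k, hk⟩ := exists_rel hv hV
  have hW : Rel v W (m + k) := fun x => by
    rw [h x, hk x, smul_smul, ContinuousMap.add_apply, Complex.exp_add]
  rw [Dv_eq (fun x => (hv x).1) hk, Dv_eq (fun x => (hv x).1) hW]
  simp only [ContinuousMap.add_apply]
  ring

/-- a chosen section over each simplex -/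
def sec {n : ℕ} (σ : Sx S2 n) : Sx (ℂ × ℂ) n := (exists_sec σ).choose

theorem sec_spec {n : ℕ} (σ : Sx S2 n) : IsSec σ (sec σ) := (exists_sec σ).choose_spec

theorem IsSec.face {n : ℕ} {σ : Sx S2 (n + 1)} {V : Sx (ℂ × ℂ) (n + 1)} (h : IsSec σ V)
    (i : Fin (n + 2)) : IsSec (face i σ) (face i V) := fun _ => h _

theorem Rel.face {n : ℕ} {V W : Sx (ℂ × ℂ) (n + 1)} {m : Sx ℂ (n + 1)} (h : Rel V W m)
    (i : Fin (n + 2)) : Rel (face i V) (face i W) (face i m) := fun _ => h _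

def cc (σ : Sx S2 2) (V : Sx (ℂ × ℂ) 2) : ℂ :=
  Dv (sec (face 0 σ)) (face 0 V) - Dv (sec (face 1 σ)) (face 1 V) + Dv (sec (face 2 σ)) (face 2 V)

theorem face_vertex {X : Type} [TopologicalSpace X] {n : ℕ} (i : Fin (n + 2)) (σ : Sx X (n + 1))
    (j : Fin (n + 1)) (k : Fin (n + 2)) (h : i.succAbove j = k) :
    face i σ (stdSimplex.vertex j) = σ (stdSimplex.vertex k) := by
  rw [face_apply, stdSimplex.map_vertex, h]

theorem cc_indep {σ : Sx S2 2} {V W : Sx (ℂ × ℂ) 2} (hV : IsSec σ V) (hW : IsSec σ W) :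
    cc σ W = cc σ V := by
  obtain ⟨m, hm⟩ := exists_rel hV hW
  rw [cc, cc, Dv_rel (sec_spec _) (hV.face 0) (hm.face 0),
    Dv_rel (sec_spec _) (hV.face 1) (hm.face 1), Dv_rel (sec_spec _) (hV.face 2) (hm.face 2),
    face_vertex (n := 1) 0 m 0 1 (by decide), face_vertex (n := 1) 0 m 1 2 (by decide),
    face_vertex (n := 1) 1 m 0 0 (by decide), face_vertex (n := 1) 1 m 1 2 (by decide),
    face_vertex (n := 1) 2 m 0 0 (by decide), face_vertex (n := 1) 2 m 1 1 (by decide)]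
  ring

theorem face_face {X : Type} [TopologicalSpace X] {n : ℕ} (σ : Sx X (n + 2))
    (i i' : Fin (n + 2)) (j j' : Fin (n + 3))
    (h : ∀ k, j.succAbove (i.succAbove k) = j'.succAbove (i'.succAbove k)) :
    face i (face j σ) = face i' (face j' σ) := by
  ext1 x
  simp only [face_apply, stdSimplex.map_comp_apply]
  congr 2
  exact funext h

theorem sgf_snd (ε : ℝ) (hε : ε ≠ 0) (x : stdSimplex ℝ (Fin 3)) :
    ∃ c : ℝ, 0 ≤ c ∧ (sgf ε x).1.snd = ε * c := by
  refine ⟨‖mk3 (tw (1 - x 0) (x 2)) (ε * x 0)‖⁻¹ * x 0,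
    mul_nonneg (inv_nonneg.2 (norm_nonneg _)) (stdSimplex.zero_le x 0), ?_⟩
  rw [sgf, nrm_coe nP (tw_ne hε _ _), mk3_smul, mk3_snd]
  ring

theorem sgf_face0_coe (ε : ℝ) (y : stdSimplex ℝ (Fin 2)) :
    (sgf ε (stdSimplex.map (0 : Fin 3).succAbove y)).1 = mk3 (tw 1 (y 1)) 0 := by
  have hn : ‖mk3 (tw 1 (y 1)) 0‖ = 1 := by
    simp [mk3, WithLp.prod_norm_eq_of_L2, norm_tw]
  rw [sgf_face0, nrm_coe nP (norm_ne_zero_iff.1 (by rw [hn]; exact one_ne_zero)), hn, inv_one,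
    one_smul]

def secP : C(S2, ℂ × ℂ) := ⟨fun p => (1 + p.1.snd, p.1.fst), by
  have h1 : Continuous fun p : S2 => p.1.fst :=
    (WithLp.continuous_fst 2 ℂ ℝ).comp continuous_subtype_val
  have h2 : Continuous fun p : S2 => p.1.snd :=
    (WithLp.continuous_snd 2 ℂ ℝ).comp continuous_subtype_val
  fun_prop⟩

def secM : C(S2, ℂ × ℂ) := ⟨fun p => (conj p.1.fst, 1 - p.1.snd), by
  have h1 : Continuous fun p : S2 => p.1.fst :=
    (WithLp.continuous_fst 2 ℂ ℝ).comp continuous_subtype_val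
  have h2 : Continuous fun p : S2 => p.1.snd :=
    (WithLp.continuous_snd 2 ℂ ℝ).comp continuous_subtype_val
  fun_prop⟩

theorem secP_spec : IsSec sgP (secP.comp sgP) := fun x => by
  have hp := S2_rel (sgP x)
  obtain ⟨c, hc, hs⟩ := sgf_snd 1 one_ne_zero x
  refine ⟨fun h => ?_, ?_, ?_⟩
  · have h1 : (1 + ((sgf 1 x).1.snd : ℝ) : ℂ) = 0 := congrArg Prod.fst h
    have h2 : 1 + (sgf 1 x).1.snd = 0 := by exact_mod_cast h1
    linarith
  · change _ * (sgP x).1.fst = _ * (1 + ((sgP x).1.snd : ℂ))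
    ring
  · change _ * (1 + ((sgP x).1.snd : ℂ)) = _ * (sgP x).1.fst
    linear_combination -hp

theorem secM_spec : IsSec sgM (secM.comp sgM) := fun x => by
  have hp := S2_rel (sgM x)
  obtain ⟨c, hc, hs⟩ := sgf_snd (-1) (by norm_num) x
  refine ⟨fun h => ?_, ?_, ?_⟩
  · have h1 : (1 - ((sgf (-1) x).1.snd : ℝ) : ℂ) = 0 := congrArg Prod.snd h
    have h2 : 1 - (sgf (-1) x).1.snd = 0 := by exact_mod_cast h1
    linarith
  · change _ * (1 - ((sgM x).1.snd : ℂ)) = _ * conj (sgM x).1.fst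
    linear_combination -hp
  · change _ * conj (sgM x).1.fst = _ * (1 - ((sgM x).1.snd : ℂ))
    ring

theorem face_comp {X Y : Type} [TopologicalSpace X] [TopologicalSpace Y] {n : ℕ}
    (i : Fin (n + 2)) (g : C(X, Y)) (σ : Sx X (n + 1)) :
    face i (g.comp σ) = g.comp (face i σ) := rfl

def eqLog : Sx ℂ 1 := ⟨fun y => -(2 * Real.pi * Complex.I * ((y 1 : ℝ) : ℂ)),
  (continuous_const.mul (Complex.continuous_ofReal.comp (continuous_coord (n := 2) 1))).neg⟩

theorem eqLog_apply (y : stdSimplex ℝ (Fin 2)) :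
    eqLog y = -(2 * Real.pi * Complex.I * ((y 1 : ℝ) : ℂ)) := rfl

theorem rel_equator : Rel (face 0 (secP.comp sgP)) (face 0 (secM.comp sgM)) eqLog := fun y => by
  have hP := sgf_face0_coe 1 y
  have hM := sgf_face0_coe (-1) y
  change (conj (sgf (-1) (stdSimplex.map (0 : Fin 3).succAbove y)).1.fst,
      1 - ((sgf (-1) (stdSimplex.map (0 : Fin 3).succAbove y)).1.snd : ℂ)) =
    Complex.exp (-(2 * Real.pi * Complex.I * ((y 1 : ℝ) : ℂ))) •
      (1 + ((sgf 1 (stdSimplex.map (0 : Fin 3).succAbove y)).1.snd : ℂ),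
        (sgf 1 (stdSimplex.map (0 : Fin 3).succAbove y)).1.fst)
  rw [hP, hM]
  simp only [mk3_fst, mk3_snd, tw, div_one, Complex.ofReal_one, one_mul, Complex.ofReal_zero,
    sub_zero, add_zero, Prod.smul_mk, smul_eq_mul, mul_one]
  refine Prod.ext ?_ ?_
  · simp only
    rw [← Complex.exp_conj]
    congr 1
    simp [Complex.conj_ofReal, map_ofNat]
  · simp only
    rw [← Complex.exp_add, neg_add_cancel, Complex.exp_zero]

/-- the Euler cocycle of the Hopf line bundle -/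
theorem exists_cocycle : ∃ c : Sx S2 2 → ℝ,
    (∀ τ : Sx S2 3, c (face 0 τ) - c (face 1 τ) + c (face 2 τ) - c (face 3 τ) = 0) ∧
      c sgP ≠ c sgM := by
  refine ⟨fun σ => (cc σ (sec σ)).im, fun τ => ?_, ?_⟩
  · have hW := sec_spec τ
    simp only
    rw [cc_indep (hW.face 0) (sec_spec _), cc_indep (hW.face 1) (sec_spec _),
      cc_indep (hW.face 2) (sec_spec _), cc_indep (hW.face 3) (sec_spec _),
      ← Complex.sub_im, ← Complex.add_im, ← Complex.sub_im]
    have e : ∀ {X : Type} [TopologicalSpace X] (σ : Sx X 3),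
        face 0 (face 1 σ) = face 0 (face 0 σ) ∧ face 0 (face 2 σ) = face 1 (face 0 σ) ∧
        face 0 (face 3 σ) = face 2 (face 0 σ) ∧ face 1 (face 2 σ) = face 1 (face 1 σ) ∧
        face 1 (face 3 σ) = face 2 (face 1 σ) ∧ face 2 (face 3 σ) = face 2 (face 2 σ) :=
      fun σ => ⟨face_face (n := 1) σ _ _ _ _ (by decide), face_face (n := 1) σ _ _ _ _ (by decide),
        face_face (n := 1) σ _ _ _ _ (by decide), face_face (n := 1) σ _ _ _ _ (by decide),
        face_face (n := 1) σ _ _ _ _ (by decide), face_face (n := 1) σ _ _ _ _ (by decide)⟩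
    obtain ⟨a1, a2, a3, a4, a5, a6⟩ := e τ
    obtain ⟨b1, b2, b3, b4, b5, b6⟩ := e (sec τ)
    rw [cc, cc, cc, cc, a1, a2, a3, a4, a5, a6, b1, b2, b3, b4, b5, b6]
    rw [← Complex.zero_im]
    congr 1
    ring
  · simp only
    rw [cc_indep secP_spec (sec_spec _), cc_indep secM_spec (sec_spec _), cc, cc,
      face_comp 1, face_comp 1, face_comp 2, face_comp 2, sgP_face, sgM_face, ← sg_face0,
      Dv_rel (sec_spec _) (secP_spec.face 0) rel_equator]
    simp [eqLog_apply, Real.pi_ne_zero]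

end Crest.Agent.R123
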