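import Crest.Agent.R123.Defs

open scoped BigOperators

noncomputable section

namespace Crest.Agent.R123

open CategoryTheory Simplicial in
theorem abs_crit {K : ChainComplex (ModuleCat.{0} ℝ) ℕ} (G : K ⟶ K) {R : ModuleCat.{0} ℝ}
    (z : R ⟶ K.X 2) (hz : z ≫ K.d 2 1 = 0) (φ : K.X 2 ⟶ R) (hφ : K.d 3 2 ≫ φ = 0)
    (hne : z ≫ φ ≠ 0) (β : R ⟶ K.X 3) (hβ : z ≫ G.f 2 - (z + z) = β ≫ K.d 3 2) :
    ∃ a : R ⟶ K.homology 2, a ≠ 0 ∧ a ≫ HomologicalComplex.homologyMap G 2 = a + a := by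
  have hn : (ComplexShape.down ℕ).next 2 = 1 := ChainComplex.next_nat_succ 1
  have hp : (ComplexShape.down ℕ).prev 2 = 3 := ChainComplex.prev ℕ 2
  refine ⟨K.liftCycles z 1 hn hz ≫ K.homologyπ 2, fun h => hne ?_, ?_⟩
  · have := congrArg (· ≫ K.homologyι 2 ≫ K.descOpcycles φ 3 hp hφ) h
    simpa using this
  · have h1 := K.liftCycles_homologyπ_eq_zero_of_boundary _ 1 hn β hβ
    rw [Category.assoc, HomologicalComplex.homologyπ_naturality, ← Category.assoc,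
      ← Preadditive.add_comp, ← sub_eq_zero, ← Preadditive.sub_comp, ← h1]
    congr 1
    rw [← cancel_mono (K.iCycles 2)]
    simp

open CategoryTheory Simplicial in
/-- the chain of a singular simplex -/
def chn {Y : Type} [TopologicalSpace Y] {n : ℕ} (σ : Sx Y n) :
    ModuleCat.of ℝ ℝ ⟶ ((TopCat.toSSet.obj (TopCat.of Y)).chainComplex (ModuleCat.of ℝ ℝ)).X n :=
  (TopCat.toSSet.obj (TopCat.of Y)).ιChainComplex
    (((TopCat.of Y).toSSetObjEquiv (Opposite.op ⦋n⦌)).symm σ)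

open CategoryTheory Simplicial in
theorem chn_d {Y : Type} [TopologicalSpace Y] {n : ℕ} (σ : Sx Y (n + 1)) :
    chn σ ≫ ((TopCat.toSSet.obj (TopCat.of Y)).chainComplex (ModuleCat.of ℝ ℝ)).d (n + 1) n =
      ∑ i : Fin (n + 2), (-1) ^ i.val • chn (face i σ) :=
  SSet.ιChainComplex_d _ _ _

open CategoryTheory Simplicial in
theorem chn_d3 {Y : Type} [TopologicalSpace Y] (τ : Sx Y 3) :
    chn τ ≫ ((TopCat.toSSet.obj (TopCat.of Y)).chainComplex (ModuleCat.of ℝ ℝ)).d 3 2 =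
      chn (face 0 τ) - chn (face 1 τ) + chn (face 2 τ) - chn (face 3 τ) := by
  refine (chn_d (n := 2) τ).trans ((Fin.sum_univ_four _).trans ?_)
  have e1 : ((-1 : ℤ) ^ ((1 : Fin 4) : ℕ)) = -1 := by decide
  have e0 : ((-1 : ℤ) ^ ((0 : Fin 4) : ℕ)) = 1 := by decide
  have e2 : ((-1 : ℤ) ^ ((2 : Fin 4) : ℕ)) = 1 := by decide
  have e3 : ((-1 : ℤ) ^ ((3 : Fin 4) : ℕ)) = -1 := by decide
  rw [e0, e1, e2, e3]
  simp only [one_smul, neg_smul]
  abel

open CategoryTheory Simplicial in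
theorem chn_map {Y : Type} [TopologicalSpace Y] {n : ℕ} (g : C(Y, Y)) (σ : Sx Y n) :
    chn σ ≫ (SSet.chainComplexMap (TopCat.toSSet.map (TopCat.ofHom g)) (ModuleCat.of ℝ ℝ)).f n =
      chn (g.comp σ) :=
  SSet.ι_chainComplexMap_f _ _ _ _ _

open CategoryTheory Simplicial in
theorem exists_eig_class {Y : Type} [TopologicalSpace Y] (g : C(Y, Y))
    (σp σm : Sx Y 2) (βp βm : Sx Y 3) (c : Sx Y 2 → ℝ)
    (h0 : face 0 σp = face 0 σm) (hp : face 1 σp = face 2 σp) (hm : face 1 σm = face 2 σm)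
    (b0 : face 0 βp = face 0 βm) (bp1 : face 1 βp = σp) (bp2 : face 2 βp = g.comp σp)
    (bp3 : face 3 βp = σp) (bm1 : face 1 βm = σm) (bm2 : face 2 βm = g.comp σm)
    (bm3 : face 3 βm = σm)
    (hc : ∀ τ : Sx Y 3, c (face 0 τ) - c (face 1 τ) + c (face 2 τ) - c (face 3 τ) = 0)
    (hne : c σp ≠ c σm) :
    ∃ a : ModuleCat.of ℝ ℝ ⟶ ((AlgebraicTopology.singularHomologyFunctor (ModuleCat.{0} ℝ) 2).obj
        (ModuleCat.of ℝ ℝ)).obj (TopCat.of Y), a ≠ 0 ∧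
      a ≫ ((AlgebraicTopology.singularHomologyFunctor (ModuleCat.{0} ℝ) 2).obj
        (ModuleCat.of ℝ ℝ)).map (TopCat.ofHom g) = a + a := by
  let φ : ((TopCat.toSSet.obj (TopCat.of Y)).chainComplex (ModuleCat.of ℝ ℝ)).X 2 ⟶
      ModuleCat.of ℝ ℝ :=
    ((TopCat.toSSet.obj (TopCat.of Y)).isColimitChainComplexXCofan (ModuleCat.of ℝ ℝ) 2).desc
      (Limits.Cofan.mk _ fun x =>
        c ((TopCat.of Y).toSSetObjEquiv (Opposite.op ⦋2⦌) x) • 𝟙 (ModuleCat.of ℝ ℝ))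
  have hφ : ∀ σ : Sx Y 2, chn σ ≫ φ = c σ • 𝟙 (ModuleCat.of ℝ ℝ) := fun σ =>
    ((TopCat.toSSet.obj (TopCat.of Y)).isColimitChainComplexXCofan (ModuleCat.of ℝ ℝ) 2).fac _
      ⟨((TopCat.of Y).toSSetObjEquiv (Opposite.op ⦋2⦌)).symm σ⟩
  refine abs_crit (K := (TopCat.toSSet.obj (TopCat.of Y)).chainComplex (ModuleCat.of ℝ ℝ))
    (SSet.chainComplexMap (TopCat.toSSet.map (TopCat.ofHom g)) (ModuleCat.of ℝ ℝ))
    (chn σp - chn σm) ?_ φ ?_ ?_ (chn βp - chn βm) ?_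
  · rw [Preadditive.sub_comp, chn_d, chn_d]
    simp [Fin.sum_univ_three, h0, hp, hm]
  · refine SSet.chainComplex_hom_ext fun x => ?_
    obtain ⟨τ, rfl⟩ : ∃ τ : Sx Y 3,
        ((TopCat.of Y).toSSetObjEquiv (Opposite.op ⦋3⦌)).symm τ = x :=
      ((TopCat.of Y).toSSetObjEquiv (Opposite.op ⦋3⦌)).symm.surjective x
    rw [Limits.comp_zero]
    change chn τ ≫ _ ≫ φ = 0
    rw [← Category.assoc, chn_d3, Preadditive.sub_comp, Preadditive.add_comp,
      Preadditive.sub_comp, hφ, hφ, hφ, hφ, ← sub_smul, ← add_smul, ← sub_smul, hc, zero_smul]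
  · rw [Preadditive.sub_comp, hφ, hφ, ← sub_smul]
    intro h
    have := congrArg (fun t : ModuleCat.of ℝ ℝ ⟶ ModuleCat.of ℝ ℝ => t.hom 1) h
    simp only [ModuleCat.hom_smul, ModuleCat.hom_id, LinearMap.smul_apply, LinearMap.id_apply,
      smul_eq_mul, mul_one, ModuleCat.hom_zero, LinearMap.zero_apply] at this
    exact hne (sub_eq_zero.1 this)
  · rw [Preadditive.sub_comp, Preadditive.sub_comp, chn_map, chn_map, chn_d3, chn_d3,
      b0, bp1, bp2, bp3, bm1, bm2, bm3]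
    abel

open CategoryTheory in
/-- chain-level criterion for an eigenvalue `2` on `H₂`, transported along a retraction and a
homotopy -/
theorem eigen_crit {Y X : Type} [TopologicalSpace Y] [TopologicalSpace X] (g : C(Y, Y))
    (σp σm : Sx Y 2) (βp βm : Sx Y 3) (c : Sx Y 2 → ℝ)
    (h0 : face 0 σp = face 0 σm) (hp : face 1 σp = face 2 σp) (hm : face 1 σm = face 2 σm)
    (b0 : face 0 βp = face 0 βm) (bp1 : face 1 βp = σp) (bp2 : face 2 βp = g.comp σp)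
    (bp3 : face 3 βp = σp) (bm1 : face 1 βm = σm) (bm2 : face 2 βm = g.comp σm)
    (bm3 : face 3 βm = σm)
    (hc : ∀ τ : Sx Y 3, c (face 0 τ) - c (face 1 τ) + c (face 2 τ) - c (face 3 τ) = 0)
    (hne : c σp ≠ c σm)
    (i : C(Y, X)) (π : C(X, Y)) (hπ : π.comp i = ContinuousMap.id Y) (f : C(X, X))
    (hf : (f.comp i).Homotopic (i.comp g)) :
    Module.End.HasEigenvalue
      (((AlgebraicTopology.singularHomologyFunctor (ModuleCat.{0} ℝ) 2).obj
        (ModuleCat.of ℝ ℝ)).map (TopCat.ofHom f)).hom (2 : ℝ) := by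
  have hex := exists_eig_class g σp σm βp βm c h0 hp hm b0 bp1 bp2 bp3 bm1 bm2 bm3 hc hne
  set H := (AlgebraicTopology.singularHomologyFunctor (ModuleCat.{0} ℝ) 2).obj (ModuleCat.of ℝ ℝ)
    with hH
  obtain ⟨a, ha0, ha⟩ := hex
  obtain ⟨Hm⟩ := hf
  have h1 : H.map (TopCat.ofHom i ≫ TopCat.ofHom f) = H.map (TopCat.ofHom g ≫ TopCat.ofHom i) :=
    TopCat.Homotopy.congr_homologyMap_singularChainComplexFunctor
      (f := TopCat.ofHom i ≫ TopCat.ofHom f) (g := TopCat.ofHom g ≫ TopCat.ofHom i) Hm _ 2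
  have h2 : TopCat.ofHom i ≫ TopCat.ofHom π = 𝟙 _ := by
    rw [← TopCat.ofHom_comp, hπ, TopCat.ofHom_id]
  have h3 : (a ≫ H.map (TopCat.ofHom i)) ≫ H.map (TopCat.ofHom f) =
      a ≫ H.map (TopCat.ofHom i) + a ≫ H.map (TopCat.ofHom i) := by
    rw [Category.assoc, ← H.map_comp, h1, H.map_comp, ← Category.assoc, ha, Preadditive.add_comp]
  have h4 : a ≫ H.map (TopCat.ofHom i) ≠ 0 := fun h => ha0 (by
    have := congrArg (· ≫ H.map (TopCat.ofHom π)) h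
    simpa only [Category.assoc, ← H.map_comp, h2, H.map_id, Category.comp_id,
      Limits.zero_comp] using this)
  refine Module.End.hasEigenvalue_of_hasEigenvector
    (x := (a ≫ H.map (TopCat.ofHom i)).hom 1) ⟨?_, fun h => h4 ?_⟩
  · rw [Module.End.mem_eigenspace_iff, two_smul]
    exact congrArg (fun t => t.hom 1) h3
  · ext
    exact h

end Crest.Agent.R123
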