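import Crest.Agent.R123.Defs

open scoped BigOperators

noncomputable section

namespace Crest.Agent.R123

open scoped Manifold ContDiff in
/-- recharting on the model vector space -/
theorem rechart_aux {V H M : Type} [NormedAddCommGroup V] [NormedSpace ℝ V]
    [TopologicalSpace H] (I : ModelWithCorners ℝ V H) [I.Boundaryless] [TopologicalSpace M]
    [cs : ChartedSpace H M] [hM : IsManifold I ∞ M] (f : M → M) (hf : ContMDiff I I 1 f) :
    ∃ (_ : ChartedSpace V M) (_ : IsManifold (modelWithCornersSelf ℝ V) ∞ M),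
      ContMDiff (modelWithCornersSelf ℝ V) (modelWithCornersSelf ℝ V) 1 f := by
  have h1 : ∀ e e' : OpenPartialHomeomorph M H, e ∈ atlas H M → e' ∈ atlas H M →
      ContDiffOn ℝ ∞ (I ∘ e.symm ≫ₕ e' ∘ I.symm) (I.symm ⁻¹' (e.symm ≫ₕ e').source) := by
    intro e e' he he'
    have := ((contDiffGroupoid ∞ I).compatible he he').1
    simpa only [contDiffPregroupoid, I.range_eq_univ, Set.inter_univ] using this
  have h2 : ∀ x, ContinuousAt f x ∧ ContDiffWithinAt ℝ 1
      (I ∘ chartAt H (f x) ∘ f ∘ (chartAt H x).symm ∘ I.symm) Set.univ (I (chartAt H x x)) := by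
    intro x
    have := contMDiffAt_iff.1 (hf x)
    rw [I.range_eq_univ] at this
    exact this
  let cs' : ChartedSpace V M :=
    { atlas := (fun c => c.transHomeomorph I.toHomeomorph) '' cs.atlas
      chartAt := fun x => (cs.chartAt x).transHomeomorph I.toHomeomorph
      mem_chart_source := fun x => cs.mem_chart_source x
      chart_mem_atlas := fun x => ⟨_, cs.chart_mem_atlas x, rfl⟩ }
  refine ⟨cs', @isManifold_of_contDiffOn ℝ _ V _ _ V _ (modelWithCornersSelf ℝ V) ∞ M _ cs' ?_, ?_⟩
  · rintro _ _ ⟨e, he, rfl⟩ ⟨e', he', rfl⟩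
    exact (h1 e e' he he').mono fun y hy => hy.1
  · intro x
    refine (@contMDiffAt_iff ℝ _ V _ _ V _ (modelWithCornersSelf ℝ V) M _ cs' V _ _ V _
      (modelWithCornersSelf ℝ V) M _ cs' 1 f x).2 ⟨(h2 x).1, ?_⟩
    exact (h2 x).2.mono (Set.subset_univ _)

open scoped Manifold ContDiff in
/-- a boundaryless finite-dimensional manifold can be recharted on a Euclidean space -/
theorem rechart {V H M : Type} [NormedAddCommGroup V] [NormedSpace ℝ V] [FiniteDimensional ℝ V]
    [TopologicalSpace H] (I : ModelWithCorners ℝ V H) [I.Boundaryless] [TopologicalSpace M]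
    [ChartedSpace H M] [IsManifold I ∞ M] (f : M → M) (hf : ContMDiff I I 1 f) :
    ∃ (n : ℕ) (_ : ChartedSpace (EuclideanSpace ℝ (Fin n)) M)
      (_ : IsManifold (modelWithCornersSelf ℝ (EuclideanSpace ℝ (Fin n))) ∞ M),
      ContMDiff (modelWithCornersSelf ℝ (EuclideanSpace ℝ (Fin n)))
        (modelWithCornersSelf ℝ (EuclideanSpace ℝ (Fin n))) 1 f := by
  let L : V ≃L[ℝ] EuclideanSpace ℝ (Fin (Module.finrank ℝ V)) := toEuclidean
  have : (I.transContinuousLinearEquiv L).Boundaryless :=
    ⟨by rw [I.transContinuousLinearEquiv_range, I.range_eq_univ, Set.image_univ,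
      L.surjective.range_eq]⟩
  exact ⟨_, rechart_aux (I.transContinuousLinearEquiv L) f (by
    rwa [ContinuousLinearEquiv.contMDiff_transContinuousLinearEquiv_right,
      ContinuousLinearEquiv.contMDiff_transContinuousLinearEquiv_left])⟩

end Crest.Agent.R123
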