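import Crest.Agent.R123.Top1

open scoped BigOperators

noncomputable section

namespace Crest.Agent.R123

namespace Par

variable {β : Type} [Fintype β] [DecidableEq β] (P : Par β)

def FC : C(Circle × S2 × SW β, Circle × S2 × SW β) := ⟨P.F, P.F_contMDiff.continuous⟩

def inc (β : Type) [Fintype β] : C(S2, Circle × S2 × SW β) :=
  ⟨fun p => (1, p, pW β), by fun_prop⟩

/-- the ambient straight-line homotopy in the `S²` factor -/
def top2_A (τ : ℝ) (p : V3) : V3 :=
  mk3 (((1 - τ : ℝ) : ℂ) * sqz p.fst + (τ : ℂ) * (P.Aamb 1 p (pW β)).fst)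
    ((1 - τ) * p.snd + τ * (2 * p.snd - 1))

/-- the ambient homotopy in the big sphere -/
def top2_W (τ : ℝ) (p : V3) : VW β := mkW (τ • (P.Wamb 1 p (pW β)).fst) 1

theorem top2_A_ne {τ : ℝ} (h0 : 0 ≤ τ) (h1 : τ ≤ 1) (p : S2) : P.top2_A τ p ≠ 0 := by
  intro h
  rw [top2_A, mk3_eq_zero] at h
  obtain ⟨ha, hb⟩ := h
  have hn := top_S2_norm p
  set t := (p : V3).snd with ht
  have hb' : t * (1 + τ) = τ := by linarith
  have ht0 : 0 ≤ t := by
    by_contra hc
    push Not at hc
    nlinarith
  have ht1 : t ≤ 1 / 2 := by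
    by_contra hc
    push Not at hc
    nlinarith
  have hz : 1 / 2 ≤ ‖(p : V3).fst‖ := by
    by_contra hc
    push Not at hc
    have := norm_nonneg (p : V3).fst
    nlinarith
  have hzpos : 0 < ‖(p : V3).fst‖ := by linarith
  rw [Aamb, mk3_fst, P.top_Dm_big 1 p _ hz, ← ht] at ha
  have hfac : ((p : V3).fst) ^ 2 *
      (((1 - τ) / ‖(p : V3).fst‖ + τ * (bt t * P.ctop) : ℝ) : ℂ) = 0 := by
    rw [← ha, sqz]
    simp only [PiLp.zero_apply, mul_zero, add_zero]
    push_cast
    ring
  rcases mul_eq_zero.1 hfac with h2 | h2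
  · rw [pow_eq_zero_iff two_ne_zero] at h2
    rw [h2, norm_zero] at hzpos
    exact lt_irrefl _ hzpos
  · rw [Complex.ofReal_eq_zero] at h2
    have h3 : 0 ≤ (1 - τ) / ‖(p : V3).fst‖ := div_nonneg (by linarith) hzpos.le
    have h4 : 0 ≤ τ * (bt t * P.ctop) :=
      mul_nonneg h0 (mul_nonneg (top_bt_nonneg t) P.top_ctop_pos.le)
    have h5 : (1 - τ) / ‖(p : V3).fst‖ = 0 := by linarith
    have h6 : τ * (bt t * P.ctop) = 0 := by linarith
    have h7 : τ = 1 := by
      rcases div_eq_zero_iff.1 h5 with h | h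
      · linarith
      · exact absurd h hzpos.ne'
    have h8 : t = 1 / 2 := by rw [h7] at hb'; linarith
    rw [h7, top_bt_half h8.ge] at h6
    have := P.top_ctop_pos
    linarith

theorem top2_W_ne (τ : ℝ) (p : V3) : P.top2_W τ p ≠ 0 := by
  intro h
  rw [top2_W, top_mkW_eq_zero] at h
  exact one_ne_zero h.2

omit [DecidableEq β] in
theorem top2_cont_aux :
    Continuous fun q : unitInterval × S2 => ((1 : ℂ), (q.2 : V3), ((pW β : SW β) : VW β)) := by
  fun_prop

theorem top2_A_cont : Continuous fun q : unitInterval × S2 => P.top2_A q.1 q.2 := by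
  have h1 := P.top_A_contDiff.continuous.comp (top2_cont_aux (β := β))
  simp only [Function.comp_def] at h1
  have h2 := (WithLp.continuous_fst 2 ℂ ℝ).comp h1
  simp only [Function.comp_def] at h2
  have h3 : Continuous fun q : unitInterval × S2 => (q.2 : V3).fst :=
    (WithLp.continuous_fst 2 ℂ ℝ).comp (continuous_subtype_val.comp continuous_snd)
  have h4 : Continuous fun q : unitInterval × S2 => (q.2 : V3).snd :=
    (WithLp.continuous_snd 2 ℂ ℝ).comp (continuous_subtype_val.comp continuous_snd)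
  have h5 : Continuous fun q : unitInterval × S2 => (q.1 : ℝ) :=
    continuous_subtype_val.comp continuous_fst
  unfold top2_A
  refine continuous_mk3 ?_ ?_
  · exact ((Complex.continuous_ofReal.comp (continuous_const.sub h5)).mul
      (continuous_sqz.comp h3)).add ((Complex.continuous_ofReal.comp h5).mul h2)
  · exact ((continuous_const.sub h5).mul h4).add
      (h5.mul ((continuous_const.mul h4).sub continuous_const))

theorem top2_W_cont : Continuous fun q : unitInterval × S2 => P.top2_W q.1 q.2 := by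
  have h1 := P.top_W_contDiff.continuous.comp (top2_cont_aux (β := β))
  simp only [Function.comp_def] at h1
  have h2 := (WithLp.continuous_fst 2 (E β) ℝ).comp h1
  simp only [Function.comp_def] at h2
  have h5 : Continuous fun q : unitInterval × S2 => (q.1 : ℝ) :=
    continuous_subtype_val.comp continuous_fst
  unfold top2_W mkW
  exact (WithLp.prod_continuous_toLp 2 (E β) ℝ).comp ((h5.smul h2).prodMk continuous_const)

theorem F_homotopic : (P.FC.comp (inc β)).Homotopic ((inc β).comp g0) := by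
  obtain ⟨θ, hθ⟩ := Circle.exp_surjective P.aC
  refine ContinuousMap.Homotopic.symm ⟨⟨⟨fun q : unitInterval × S2 =>
    (Circle.exp ((q.1 : ℝ) * θ), nrm nP (P.top2_A q.1 q.2), nrm (pW β) (P.top2_W q.1 q.2)),
    ?_⟩, ?_, ?_⟩⟩
  · refine Continuous.prodMk ?_ (Continuous.prodMk ?_ ?_)
    · fun_prop
    · exact continuous_nrm nP P.top2_A_cont fun q => P.top2_A_ne q.1.2.1 q.1.2.2 q.2
    · exact continuous_nrm (pW β) P.top2_W_cont fun q => P.top2_W_ne _ _
  · intro p
    refine Prod.ext ?_ (Prod.ext ?_ ?_)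
    · simp [inc]
    · simp [inc, g0, g0f, top2_A]
    · apply Subtype.ext
      have h1 : P.top2_W 0 p = (pW β : SW β) := by simp [top2_W, pW]
      have h2 : ‖((pW β : SW β) : VW β)‖ = 1 := by simp
      have h3 : ((pW β : SW β) : VW β) ≠ 0 := by
        rw [← norm_ne_zero_iff, h2]; exact one_ne_zero
      change (nrm (pW β) (P.top2_W 0 p) : VW β) = (pW β : SW β)
      rw [h1, nrm_coe _ h3, h2, inv_one, one_smul]
  · intro p
    refine Prod.ext ?_ (Prod.ext ?_ ?_)
    · change Circle.exp (1 * θ) = 1 * P.aC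
      rw [one_mul, one_mul, hθ]
    · change nrm nP (P.top2_A 1 p) = nrm nP (P.Aamb 1 p (pW β))
      congr 1
      rw [top2_A, ← mk3_eta (P.Aamb 1 p (pW β))]
      congr 1
      · simp
      · simp [Aamb]
    · change nrm (pW β) (P.top2_W 1 p) = nrm (pW β) (P.Wamb 1 p (pW β))
      congr 1
      rw [top2_W, one_smul]
      rfl

end Par

end Crest.Agent.R123
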