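import Crest.Agent.R123.Defs

open scoped BigOperators

noncomputable section

namespace Crest.Agent.R123

theorem norm_sqz (z : ℂ) : ‖sqz z‖ = ‖z‖ := by
  by_cases hz : z = 0
  · simp [sqz, hz]
  · have : ‖z‖ ≠ 0 := norm_ne_zero_iff.2 hz
    simp only [sqz, norm_div, norm_pow, Complex.norm_real, norm_norm]
    field_simp

theorem norm_tw (r a : ℝ) : ‖tw r a‖ = |r| := by
  have : (2 * Real.pi * Complex.I * ((a / r : ℝ) : ℂ)) =
      ((2 * Real.pi * (a / r) : ℝ) : ℂ) * Complex.I := by push_cast; ring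
  rw [tw, norm_mul, this, Complex.norm_exp_ofReal_mul_I, mul_one, Complex.norm_real,
    Real.norm_eq_abs]

theorem continuous_sqz : Continuous sqz := by
  rw [continuous_iff_continuousAt]
  intro z
  by_cases hz : z = 0
  · subst hz
    have h0 : sqz 0 = 0 := by simp [sqz]
    rw [ContinuousAt, h0, tendsto_zero_iff_norm_tendsto_zero]
    simp only [norm_sqz]
    simpa using (continuous_norm (E := ℂ)).tendsto 0
  · refine ContinuousAt.div (by fun_prop) (by fun_prop) ?_
    exact_mod_cast norm_ne_zero_iff.2 hz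

theorem continuous_tw : Continuous (fun p : ℝ × ℝ => tw p.1 p.2) := by
  rw [continuous_iff_continuousAt]
  intro p
  by_cases hp : p.1 = 0
  · have h0 : tw p.1 p.2 = 0 := by simp [tw, hp]
    rw [ContinuousAt, h0, tendsto_zero_iff_norm_tendsto_zero]
    simp only [norm_tw]
    have : Continuous fun q : ℝ × ℝ => |q.1| := by fun_prop
    simpa [hp] using this.tendsto p
  · unfold tw
    have h1 : ContinuousAt (fun q : ℝ × ℝ => q.2 / q.1) p :=
      ContinuousAt.div (by fun_prop) (by fun_prop) hp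
    have h2 : ContinuousAt (fun q : ℝ × ℝ => ((q.2 / q.1 : ℝ) : ℂ)) p :=
      Complex.continuous_ofReal.continuousAt.comp h1
    exact ContinuousAt.mul (by fun_prop)
      (Complex.continuous_exp.continuousAt.comp (continuousAt_const.mul h2))

theorem nrm_coe {V : Type} [NormedAddCommGroup V] [NormedSpace ℝ V]
    (e : Metric.sphere (0 : V) 1) {v : V} (h : v ≠ 0) : (nrm e v : V) = ‖v‖⁻¹ • v := by
  simp [nrm, h]

theorem nrm_smul {V : Type} [NormedAddCommGroup V] [NormedSpace ℝ V]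
    (e : Metric.sphere (0 : V) 1) {v : V} {c : ℝ} (hc : 0 < c) : nrm e (c • v) = nrm e v := by
  by_cases h : v = 0
  · simp [h]
  · apply Subtype.ext
    rw [nrm_coe e h, nrm_coe e (smul_ne_zero hc.ne' h), norm_smul, Real.norm_of_nonneg hc.le,
      smul_smul]
    congr 1
    have : ‖v‖ ≠ 0 := norm_ne_zero_iff.2 h
    field_simp

/-- normalisation of a nowhere vanishing continuous map is continuous -/
theorem continuous_nrm {V X : Type} [NormedAddCommGroup V] [NormedSpace ℝ V] [TopologicalSpace X]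
    (e : Metric.sphere (0 : V) 1) {v : X → V} (hv : Continuous v) (h0 : ∀ x, v x ≠ 0) :
    Continuous (fun x => nrm e (v x)) := by
  refine continuous_induced_rng.2 ?_
  have : (Subtype.val ∘ fun x => nrm e (v x)) = fun x => ‖v x‖⁻¹ • v x := by
    funext x
    exact nrm_coe e (h0 x)
  rw [this]
  exact (hv.norm.inv₀ fun x => norm_ne_zero_iff.2 (h0 x)).smul hv

theorem continuous_mk3 {X : Type} [TopologicalSpace X] {z : X → ℂ} {t : X → ℝ}
    (hz : Continuous z) (ht : Continuous t) : Continuous fun x => mk3 (z x) (t x) := by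
  unfold mk3
  fun_prop

theorem mk3_eq_zero {z : ℂ} {t : ℝ} : mk3 z t = 0 ↔ z = 0 ∧ t = 0 := by
  simp [mk3, Prod.ext_iff]

@[simp] theorem mk3_fst (z : ℂ) (t : ℝ) : (mk3 z t).fst = z := rfl
@[simp] theorem mk3_snd (z : ℂ) (t : ℝ) : (mk3 z t).snd = t := rfl

theorem mk3_smul (c : ℝ) (z : ℂ) (t : ℝ) : c • mk3 z t = mk3 ((c : ℂ) * z) (c * t) := by
  simp only [mk3]
  rw [← WithLp.toLp_smul]
  simp

theorem mk3_eta (p : V3) : mk3 p.fst p.snd = p := rfl

theorem sqz_eq_zero {z : ℂ} : sqz z = 0 ↔ z = 0 := by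
  rw [← norm_eq_zero, norm_sqz, norm_eq_zero]

theorem continuous_g0f : Continuous g0f := by
  refine continuous_nrm nP (continuous_mk3 (continuous_sqz.comp ?_) ?_) fun p h => ?_
  · exact (WithLp.continuous_fst 2 ℂ ℝ).comp continuous_subtype_val
  · exact (WithLp.continuous_snd 2 ℂ ℝ).comp continuous_subtype_val
  · rw [mk3_eq_zero, sqz_eq_zero, ← mk3_eq_zero, mk3_eta] at h
    have := p.2
    rw [h] at this
    simp at this

theorem continuous_coord {n : ℕ} (i : Fin n) :
    Continuous fun x : stdSimplex ℝ (Fin n) => x i :=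
  (continuous_apply i).comp continuous_subtype_val

theorem tw_ne {ε : ℝ} (hε : ε ≠ 0) (s a : ℝ) : mk3 (tw (1 - s) a) (ε * s) ≠ 0 := by
  intro h
  rw [mk3_eq_zero, ← norm_eq_zero, norm_tw, abs_eq_zero, mul_eq_zero] at h
  rcases h with ⟨h1, h2 | h2⟩
  · exact hε h2
  · linarith

theorem continuous_sgf {ε : ℝ} (hε : ε ≠ 0) : Continuous (sgf ε) := by
  refine continuous_nrm nP (continuous_mk3 ?_ (continuous_const.mul (continuous_coord 0)))
    fun x => tw_ne hε _ _
  exact continuous_tw.comp ((continuous_const.sub (continuous_coord 0)).prodMk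
    (continuous_coord 2))

theorem continuous_btf {ε : ℝ} (hε : ε ≠ 0) : Continuous (btf ε) := by
  refine continuous_nrm nP (continuous_mk3 ?_ (continuous_const.mul (continuous_coord 0)))
    fun x => tw_ne hε _ _
  exact continuous_tw.comp ((continuous_const.sub (continuous_coord 0)).prodMk
    ((continuous_coord 2).add (continuous_const.mul (continuous_coord 3))))

def g0 : C(S2, S2) := ⟨g0f, continuous_g0f⟩
def sgP : Sx S2 2 := ⟨sgf 1, continuous_sgf one_ne_zero⟩
def sgM : Sx S2 2 := ⟨sgf (-1), continuous_sgf (by norm_num)⟩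
def btP : Sx S2 3 := ⟨btf 1, continuous_btf one_ne_zero⟩
def btM : Sx S2 3 := ⟨btf (-1), continuous_btf (by norm_num)⟩

theorem map_sA_self {n : ℕ} (i : Fin (n + 2)) (x : stdSimplex ℝ (Fin (n + 1))) :
    stdSimplex.map i.succAbove x i = 0 := by
  rw [stdSimplex.map_coe, FunOnFinite.linearMap_apply_apply]
  refine Finset.sum_eq_zero fun j hj => ?_
  simp at hj

theorem map_sA {n : ℕ} (i : Fin (n + 2)) (x : stdSimplex ℝ (Fin (n + 1))) (j : Fin (n + 1))
    (k : Fin (n + 2)) (h : i.succAbove j = k) :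
    stdSimplex.map i.succAbove x k = x j := by
  subst h
  rw [stdSimplex.map_coe, FunOnFinite.linearMap_apply_apply]
  refine Finset.sum_eq_single_of_mem j (by simp) fun b hb hbj => ?_
  simp only [Finset.mem_filter, Finset.mem_univ, true_and] at hb
  exact absurd (Fin.succAbove_right_injective hb) hbj

theorem face_apply {X : Type} [TopologicalSpace X] {n : ℕ} (i : Fin (n + 2)) (σ : Sx X (n + 1))
    (x : stdSimplex ℝ (Fin (n + 1))) : face i σ x = σ (stdSimplex.map i.succAbove x) := rfl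

theorem tw_add (r a : ℝ) : tw r (a + r) = tw r a := by
  by_cases hr : r = 0
  · simp [hr]
  · have : (2 * Real.pi * Complex.I * (((a + r) / r : ℝ) : ℂ)) =
        2 * Real.pi * Complex.I * ((a / r : ℝ) : ℂ) + 2 * Real.pi * Complex.I := by
      rw [add_div, div_self hr]; push_cast; ring
    rw [tw, tw, this, Complex.exp_add, Complex.exp_two_pi_mul_I, mul_one]

theorem sqz_tw {r : ℝ} (hr : 0 ≤ r) (a : ℝ) : sqz (tw r a) = tw r (2 * a) := by
  by_cases h0 : r = 0
  · simp [h0, tw, sqz]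
  · have h1 : (r : ℂ) ≠ 0 := by exact_mod_cast h0
    rw [sqz, norm_tw, abs_of_nonneg hr, tw, tw, mul_pow, ← Complex.exp_nat_mul]
    have : ((2 : ℕ) : ℂ) * (2 * Real.pi * Complex.I * ((a / r : ℝ) : ℂ)) =
        2 * Real.pi * Complex.I * ((2 * a / r : ℝ) : ℂ) := by push_cast; ring
    rw [this]
    field_simp

theorem sqz_smul {c : ℝ} (hc : 0 < c) (z : ℂ) : sqz ((c : ℂ) * z) = (c : ℂ) * sqz z := by
  have h1 : (c : ℂ) ≠ 0 := by exact_mod_cast hc.ne'
  simp only [sqz, norm_mul, Complex.norm_real, Real.norm_of_nonneg hc.le]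
  push_cast
  by_cases hz : z = 0
  · simp [hz]
  · have : ((‖z‖ : ℝ) : ℂ) ≠ 0 := by exact_mod_cast norm_ne_zero_iff.2 hz
    field_simp

theorem g0f_nrm {z : ℂ} {t : ℝ} (h : mk3 z t ≠ 0) :
    g0f (nrm nP (mk3 z t)) = nrm nP (mk3 (sqz z) t) := by
  have hc : 0 < ‖mk3 z t‖⁻¹ := inv_pos.2 (norm_pos_iff.2 h)
  rw [g0f, nrm_coe nP h, mk3_smul, mk3_fst, mk3_snd, sqz_smul hc, ← mk3_smul, nrm_smul nP hc]

theorem sgf_face0 (ε : ℝ) (y : stdSimplex ℝ (Fin 2)) :
    sgf ε (stdSimplex.map (0 : Fin 3).succAbove y) = nrm nP (mk3 (tw 1 (y 1)) 0) := by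
  rw [sgf, map_sA_self (n := 1) 0 y, map_sA (n := 1) 0 y 1 2 (by decide), sub_zero, mul_zero]

theorem sgf_face1 (ε : ℝ) (y : stdSimplex ℝ (Fin 2)) :
    sgf ε (stdSimplex.map (1 : Fin 3).succAbove y) =
      nrm nP (mk3 (tw (1 - y 0) 0) (ε * y 0)) := by
  rw [sgf, map_sA (n := 1) 1 y 0 0 (by decide), map_sA (n := 1) 1 y 1 2 (by decide)]
  have : y 1 = 0 + (1 - y 0) := by linarith [stdSimplex.add_eq_one y]
  rw [this, tw_add]

theorem sgf_face2 (ε : ℝ) (y : stdSimplex ℝ (Fin 2)) :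
    sgf ε (stdSimplex.map (2 : Fin 3).succAbove y) =
      nrm nP (mk3 (tw (1 - y 0) 0) (ε * y 0)) := by
  rw [sgf, map_sA (n := 1) 2 y 0 0 (by decide), map_sA_self (n := 1) 2 y]

theorem btf_face0 (ε : ℝ) (y : stdSimplex ℝ (Fin 3)) :
    btf ε (stdSimplex.map (0 : Fin 4).succAbove y) = nrm nP (mk3 (tw 1 (y 1 + 2 * y 2)) 0) := by
  rw [btf, map_sA_self (n := 2) 0 y, map_sA (n := 2) 0 y 1 2 (by decide),
    map_sA (n := 2) 0 y 2 3 (by decide), sub_zero, mul_zero]

theorem btf_face1 (ε : ℝ) (y : stdSimplex ℝ (Fin 3)) :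
    btf ε (stdSimplex.map (1 : Fin 4).succAbove y) = sgf ε y := by
  rw [btf, sgf, map_sA (n := 2) 1 y 0 0 (by decide), map_sA (n := 2) 1 y 1 2 (by decide),
    map_sA (n := 2) 1 y 2 3 (by decide)]
  have h := stdSimplex.sum_eq_one y
  rw [Fin.sum_univ_three] at h
  have : y 1 + 2 * y 2 = y 2 + (1 - y 0) := by linarith
  rw [this, tw_add]

theorem btf_face2 {ε : ℝ} (hε : ε ≠ 0) (y : stdSimplex ℝ (Fin 3)) :
    btf ε (stdSimplex.map (2 : Fin 4).succAbove y) = g0f (sgf ε y) := by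
  rw [btf, sgf, map_sA (n := 2) 2 y 0 0 (by decide), map_sA_self (n := 2) 2 y,
    map_sA (n := 2) 2 y 2 3 (by decide), g0f_nrm (tw_ne hε _ _),
    sqz_tw (sub_nonneg.2 (stdSimplex.le_one y 0)), zero_add]

theorem btf_face3 (ε : ℝ) (y : stdSimplex ℝ (Fin 3)) :
    btf ε (stdSimplex.map (3 : Fin 4).succAbove y) = sgf ε y := by
  rw [btf, sgf, map_sA (n := 2) 3 y 0 0 (by decide), map_sA_self (n := 2) 3 y,
    map_sA (n := 2) 3 y 2 2 (by decide), mul_zero, add_zero]

theorem sg_face0 : face 0 sgP = face 0 sgM := by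
  ext1 y
  exact (sgf_face0 1 y).trans (sgf_face0 (-1) y).symm

theorem sgP_face : face 1 sgP = face 2 sgP := by
  ext1 y
  exact (sgf_face1 1 y).trans (sgf_face2 1 y).symm

theorem sgM_face : face 1 sgM = face 2 sgM := by
  ext1 y
  exact (sgf_face1 (-1) y).trans (sgf_face2 (-1) y).symm

theorem bt_face0 : face 0 btP = face 0 btM := by
  ext1 y
  exact (btf_face0 1 y).trans (btf_face0 (-1) y).symm

theorem btP_face1 : face 1 btP = sgP := by
  ext1 y
  exact btf_face1 1 y

theorem btP_face2 : face 2 btP = g0.comp sgP := by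
  ext1 y
  exact btf_face2 one_ne_zero y

theorem btP_face3 : face 3 btP = sgP := by
  ext1 y
  exact btf_face3 1 y

theorem btM_face1 : face 1 btM = sgM := by
  ext1 y
  exact btf_face1 (-1) y

theorem btM_face2 : face 2 btM = g0.comp sgM := by
  ext1 y
  exact btf_face2 (by norm_num) y

theorem btM_face3 : face 3 btM = sgM := by
  ext1 y
  exact btf_face3 (-1) y

end Crest.Agent.R123
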