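import Crest.Agent.R123.Smooth
import Crest.Agent.R123.HomSimp

open scoped BigOperators

noncomputable section

namespace Crest.Agent.R123

instance fact_V3 : Fact (Module.finrank ℝ V3 = 2 + 1) := by
  refine ⟨?_⟩
  rw [(WithLp.linearEquiv 2 ℝ (ℂ × ℝ)).finrank_eq, Module.finrank_prod,
    Complex.finrank_real_complex, Module.finrank_self]

instance fact_VW (β : Type) [Fintype β] :
    Fact (Module.finrank ℝ (VW β) = 4 * Fintype.card β + 1) := by
  refine ⟨?_⟩
  rw [(WithLp.linearEquiv 2 ℝ (E β × ℝ)).finrank_eq, Module.finrank_prod, Module.finrank_self,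
    (WithLp.linearEquiv 2 ℝ (β × Fin 2 → ℂ)).finrank_eq, Module.finrank_pi_fintype]
  simp [Complex.finrank_real_complex]
  ring

theorem top_S2_norm (p : S2) : ‖(p : V3).fst‖ ^ 2 + (p : V3).snd ^ 2 = 1 := by
  have h := WithLp.prod_norm_sq_eq_of_L2 (p : V3)
  have h1 : ‖(p : V3)‖ = 1 := by simp
  rw [h1] at h
  simp only [Real.norm_eq_abs, sq_abs] at h
  linarith

theorem top_bt_half {t : ℝ} (ht : 1 / 2 ≤ t) : bt t = 1 :=
  Real.smoothTransition.one_of_one_le (by linarith)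

theorem top_bt_nonneg (t : ℝ) : 0 ≤ bt t := Real.smoothTransition.nonneg _

theorem top_bt_contDiff : ContDiff ℝ 1 bt := by
  unfold bt
  exact Real.smoothTransition.contDiff.comp (by fun_prop)

theorem top_mkW_eq_zero {β : Type} {x : E β} {t : ℝ} : mkW x t = 0 ↔ x = 0 ∧ t = 0 := by
  simp [mkW, Prod.ext_iff]

open scoped Manifold in
theorem top_contMDiff_nrm {V : Type} [NormedAddCommGroup V] [InnerProductSpace ℝ V] {n : ℕ}
    [Fact (Module.finrank ℝ V = n + 1)]
    {EM : Type} [NormedAddCommGroup EM] [NormedSpace ℝ EM] {H : Type} [TopologicalSpace H]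
    {I : ModelWithCorners ℝ EM H} {M : Type} [TopologicalSpace M] [ChartedSpace H M]
    [IsManifold I 1 M]
    (e : Metric.sphere (0 : V) 1) {v : M → V} (hv : ContMDiff I 𝓘(ℝ, V) 1 v)
    (h0 : ∀ x, v x ≠ 0) : ContMDiff I (𝓡 n) 1 (fun x => nrm e (v x)) := by
  have h1 : ContMDiff I 𝓘(ℝ, V) 1 (fun x => ‖v x‖⁻¹ • v x) := by
    intro x
    have h2 : ContDiffAt ℝ 1 (fun w : V => ‖w‖⁻¹ • w) (v x) :=
      ((contDiffAt_id.norm ℝ (h0 x)).inv (norm_ne_zero_iff.2 (h0 x))).smul contDiffAt_id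
    exact h2.comp_contMDiffAt (hv x)
  have h3 : ∀ x, ‖v x‖⁻¹ • v x ∈ Metric.sphere (0 : V) 1 := fun x => by
    rw [← nrm_coe e (h0 x)]
    exact (nrm e (v x)).2
  have h4 := h1.codRestrict_sphere (n := n) h3
  have h5 : (fun x => nrm e (v x)) = Set.codRestrict _ _ h3 := by
    funext x
    exact Subtype.ext (nrm_coe e (h0 x))
  rw [h5]
  exact h4

namespace Par

variable {β : Type} [Fintype β] [DecidableEq β] (P : Par β)

theorem top_ctop_pos : 0 < P.ctop := by
  have := P.hi_pos 0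
  unfold ctop
  positivity

theorem top_Dm_big (u : ℂ) (p : V3) (y : VW β) (hp : 1 / 2 ≤ ‖p.fst‖) :
    P.Dm u (P.xOf p y) = 0 := by
  apply P.Dm_eq_zero
  have h1 := PiLp.norm_apply_le (P.xOf p y) P.c0
  have h2 : P.xOf p y P.c0 = p.fst := by simp [xOf]
  rw [h2] at h1
  have := P.two_hi_le 0
  have := P.S0
  linarith

theorem Aamb_ne_zero (u : ℂ) (p : S2) (y : VW β) : P.Aamb u p y ≠ 0 := by
  intro h
  rw [Aamb, mk3_eq_zero] at h
  obtain ⟨h1, h2⟩ := h
  have ht : (p : V3).snd = 1 / 2 := by linarith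
  have hn := top_S2_norm p
  rw [ht] at hn
  have hz : 1 / 2 ≤ ‖(p : V3).fst‖ := by
    by_contra hc
    push Not at hc
    have := norm_nonneg (p : V3).fst
    nlinarith
  rw [P.top_Dm_big u p y hz, top_bt_half ht.ge] at h1
  simp only [one_mul, PiLp.zero_apply, mul_zero, add_zero, mul_eq_zero, Complex.ofReal_eq_zero,
    pow_eq_zero_iff two_ne_zero] at h1
  rcases h1 with h1 | h1
  · exact P.top_ctop_pos.ne' h1
  · rw [h1, norm_zero] at hz
    linarith

theorem Wamb_ne_zero (u : ℂ) (p : V3) (y : VW β) : P.Wamb u p y ≠ 0 := by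
  intro h
  rw [Wamb, top_mkW_eq_zero] at h
  exact one_ne_zero h.2

theorem top_upd_contDiff {X : Type} [NormedAddCommGroup X] [NormedSpace ℝ X] {f : X → E β}
    {g : X → ℂ} (hf : ContDiff ℝ 1 f) (hg : ContDiff ℝ 1 g) (c : β × Fin 2) :
    ContDiff ℝ 1 fun x => (WithLp.toLp 2 (Function.update (WithLp.ofLp (f x)) c (g x)) : E β) := by
  rw [contDiff_piLp]
  intro i
  by_cases hi : i = c
  · subst hi
    simpa using hg
  · have : ContDiff ℝ 1 fun x => f x i := (contDiff_piLp_apply 2 (i := i)).comp hf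
    simpa [Function.update_of_ne hi] using this

theorem top_fst3 : ContDiff ℝ 1 fun p : V3 => p.fst :=
  contDiff_fst.comp (WithLp.contDiff_ofLp (p := 2) (𝕜 := ℝ) (E := ℂ) (F := ℝ))

theorem top_snd3 : ContDiff ℝ 1 fun p : V3 => p.snd :=
  contDiff_snd.comp (WithLp.contDiff_ofLp (p := 2) (𝕜 := ℝ) (E := ℂ) (F := ℝ))

omit [DecidableEq β] in
theorem top_fstW : ContDiff ℝ 1 fun p : VW β => p.fst :=
  contDiff_fst.comp (WithLp.contDiff_ofLp (p := 2) (𝕜 := ℝ) (E := E β) (F := ℝ))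

omit [DecidableEq β] in
theorem top_sndW : ContDiff ℝ 1 fun p : VW β => p.snd :=
  contDiff_snd.comp (WithLp.contDiff_ofLp (p := 2) (𝕜 := ℝ) (E := E β) (F := ℝ))

theorem top_DX_contDiff :
    ContDiff ℝ 1 fun q : ℂ × V3 × VW β => P.Dm q.1 (P.xOf q.2.1 q.2.2) := by
  have h1 : ContDiff ℝ 1 fun q : ℂ × V3 × VW β => P.xOf q.2.1 q.2.2 :=
    top_upd_contDiff (top_fstW.comp contDiff_snd.snd) (top_fst3.comp contDiff_snd.fst) _
  have h2 := P.Dm_smooth.comp ((contDiff_fst (𝕜 := ℝ) (n := 1)).prodMk h1)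
  simpa only [Function.comp_def] using h2

omit [DecidableEq β] in
theorem top_bb_contDiff :
    ContDiff ℝ 1 fun q : ℂ × V3 × VW β => bt q.2.1.snd * bt q.2.2.snd :=
  (top_bt_contDiff.comp (top_snd3.comp contDiff_snd.fst)).mul
    (top_bt_contDiff.comp (top_sndW.comp contDiff_snd.snd))

theorem top_A_contDiff : ContDiff ℝ 1 fun q : ℂ × V3 × VW β => P.Aamb q.1 q.2.1 q.2.2 := by
  unfold Aamb mk3
  refine (WithLp.contDiff_toLp (p := 2) (𝕜 := ℝ) (E := ℂ) (F := ℝ)).comp (ContDiff.prodMk ?_ ?_)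
  · refine ContDiff.add (ContDiff.mul ?_ ?_) (ContDiff.mul ?_ ?_)
    · exact Complex.ofRealCLM.contDiff.comp
        ((top_bt_contDiff.comp (top_snd3.comp contDiff_snd.fst)).mul contDiff_const)
    · exact (top_fst3.comp contDiff_snd.fst).pow 2
    · exact Complex.ofRealCLM.contDiff.comp top_bb_contDiff
    · exact (contDiff_piLp_apply 2 (i := P.c0)).comp P.top_DX_contDiff
  · exact (contDiff_const.mul (top_snd3.comp contDiff_snd.fst)).sub contDiff_const

theorem top_W_contDiff : ContDiff ℝ 1 fun q : ℂ × V3 × VW β => P.Wamb q.1 q.2.1 q.2.2 := by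
  unfold Wamb mkW
  refine (WithLp.contDiff_toLp (p := 2) (𝕜 := ℝ) (E := E β) (F := ℝ)).comp
    (ContDiff.prodMk ?_ contDiff_const)
  exact top_bb_contDiff.smul (top_upd_contDiff P.top_DX_contDiff contDiff_const _)

open scoped Manifold in
theorem F_contMDiff :
    ContMDiff ((𝓡 1).prod ((𝓡 2).prod (𝓡 (4 * Fintype.card β))))
      ((𝓡 1).prod ((𝓡 2).prod (𝓡 (4 * Fintype.card β)))) 1 P.F := by
  have : Fact (Module.finrank ℝ ℂ = 1 + 1) := ⟨Complex.finrank_real_complex⟩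
  have hc : ContMDiff ((𝓡 1).prod ((𝓡 2).prod (𝓡 (4 * Fintype.card β))))
      𝓘(ℝ, ℂ × V3 × VW β) 1
      (fun q : Circle × S2 × SW β => ((q.1 : ℂ), (q.2.1 : V3), (q.2.2 : VW β))) := by
    refine ContMDiff.prodMk_space ?_ (ContMDiff.prodMk_space ?_ ?_)
    · exact (contMDiff_coe_sphere (E := ℂ) (n := 1)).comp contMDiff_fst
    · exact (contMDiff_coe_sphere (E := V3) (n := 2)).comp (contMDiff_fst.comp contMDiff_snd)
    · exact (contMDiff_coe_sphere (E := VW β) (n := 4 * Fintype.card β)).comp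
        (contMDiff_snd.comp contMDiff_snd)
  have hA := P.top_A_contDiff.comp_contMDiff hc
  have hW := P.top_W_contDiff.comp_contMDiff hc
  simp only [Function.comp_def] at hA hW
  unfold F
  refine ContMDiff.prodMk ?_ (ContMDiff.prodMk ?_ ?_)
  · exact (contMDiff_mul_right (I := 𝓡 1) (a := P.aC)).comp contMDiff_fst
  · exact top_contMDiff_nrm nP hA fun q => P.Aamb_ne_zero _ _ _
  · exact top_contMDiff_nrm (pW β) hW fun q => P.Wamb_ne_zero _ _ _

end Par

end Crest.Agent.R123
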