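import Crest.Agent.R123.Core
import Crest.Agent.R123.Top1

open scoped BigOperators

noncomputable section

namespace Crest.Agent.R123

namespace Top3

theorem coe_nrm {V : Type} [NormedAddCommGroup V] [NormedSpace ℝ V] (e : Metric.sphere (0 : V) 1)
    {v : V} (hv : v ≠ 0) : (nrm e v : V) = ‖v‖⁻¹ • v := by
  rw [nrm, dif_neg hv]

theorem sq_sphere {V : Type} [NormedAddCommGroup V] (p : Metric.sphere (0 : WithLp 2 (V × ℝ)) 1) :
    ‖p.1.fst‖ ^ 2 + p.1.snd ^ 2 = 1 := by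
  have h := WithLp.prod_norm_sq_eq_of_L2 p.1
  rw [norm_eq_of_mem_sphere p, Real.norm_eq_abs, sq_abs] at h
  linarith

theorem snd_le_norm {V : Type} [NormedAddCommGroup V] (v : WithLp 2 (V × ℝ)) : v.snd ≤ ‖v‖ :=
  (le_abs_self _).trans (WithLp.norm_snd_le V v)

theorem bt_zero {t : ℝ} (h : t ≤ 1 / 4) : bt t = 0 :=
  Real.smoothTransition.zero_of_nonpos (by linarith)

theorem bt_one {t : ℝ} (h : 1 / 2 ≤ t) : bt t = 1 :=
  Real.smoothTransition.one_of_one_le (by linarith)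

theorem norm_le_of_le {β : Type} [Fintype β] {x y : E β} {c : ℝ} (hc : 0 ≤ c)
    (h : ∀ i, ‖x i‖ ≤ c * ‖y i‖) : ‖x‖ ≤ c * ‖y‖ := by
  refine (pow_le_pow_iff_left₀ (norm_nonneg _) (by positivity) two_ne_zero).1 ?_
  rw [mul_pow, EuclideanSpace.norm_sq_eq, EuclideanSpace.norm_sq_eq, Finset.mul_sum]
  refine Finset.sum_le_sum fun i _ => ?_
  rw [← mul_pow]
  exact pow_le_pow_left₀ (norm_nonneg _) (h i) 2

theorem tendsto_pole {V : Type} [NormedAddCommGroup V]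
    (p : ℕ → Metric.sphere (0 : WithLp 2 (V × ℝ)) 1) (e : Metric.sphere (0 : WithLp 2 (V × ℝ)) 1)
    (he : e.1 = WithLp.toLp 2 (0, 1)) (h0 : ∀ n, 0 ≤ (p n).1.snd)
    (h : Filter.Tendsto (fun n => (p n).1.fst) Filter.atTop (nhds 0)) :
    Filter.Tendsto p Filter.atTop (nhds e) := by
  rw [tendsto_subtype_rng, he]
  have h1 : ∀ n, (p n).1 = WithLp.toLp 2 ((p n).1.fst, √(1 - ‖(p n).1.fst‖ ^ 2)) := fun n => by
    rw [show 1 - ‖(p n).1.fst‖ ^ 2 = (p n).1.snd ^ 2 by linarith [sq_sphere (p n)],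
      Real.sqrt_sq (h0 n)]
    rfl
  have h2 : Continuous fun v : V => WithLp.toLp 2 (v, √(1 - ‖v‖ ^ 2)) :=
    (WithLp.prod_continuous_toLp 2 V ℝ).comp (by fun_prop)
  have h3 := (h2.tendsto 0).comp h
  simp only [norm_zero, ne_eq, OfNat.ofNat_ne_zero, not_false_eq_true, zero_pow, sub_zero,
    Real.sqrt_one] at h3
  exact h3.congr fun n => (h1 n).symm

end Top3

open Top3

namespace Par

variable {β : Type} [Fintype β] [DecidableEq β] (P : Par β)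

/-- the chart coordinate of a state -/
def xq (q : Circle × S2 × SW β) : E β := P.xOf q.2.1 q.2.2

theorem xq_c0 (q : Circle × S2 × SW β) : P.xq q P.c0 = q.2.1.1.fst := by
  simp [xq, xOf]

theorem xq_ne (q : Circle × S2 × SW β) {c : β × Fin 2} (hc : c ≠ P.c0) :
    P.xq q c = q.2.2.1.fst c := by
  simp [xq, xOf, Function.update_of_ne hc]

theorem F_z (q : Circle × S2 × SW β) : (P.F q).2.1.1.fst = ‖P.Aamb q.1 q.2.1 q.2.2‖⁻¹ •
    ((bt q.2.1.1.snd * P.ctop : ℝ) * q.2.1.1.fst ^ 2 +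
      (bt q.2.1.1.snd * bt q.2.2.1.snd : ℝ) * P.Dm q.1 (P.xq q) P.c0) := by
  rw [F, coe_nrm _ (P.Aamb_ne_zero _ _ _)]; rfl

theorem F_t (q : Circle × S2 × SW β) :
    (P.F q).2.1.1.snd = ‖P.Aamb q.1 q.2.1 q.2.2‖⁻¹ * (2 * q.2.1.1.snd - 1) := by
  rw [F, coe_nrm _ (P.Aamb_ne_zero _ _ _)]; rfl

theorem F_w (q : Circle × S2 × SW β) : (P.F q).2.2.1.fst = ‖P.Wamb q.1 q.2.1 q.2.2‖⁻¹ •
    (bt q.2.1.1.snd * bt q.2.2.1.snd) •
      (WithLp.toLp 2 (Function.update (WithLp.ofLp (P.Dm q.1 (P.xq q))) P.c0 0) : E β) := by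
  rw [F, coe_nrm _ (P.Wamb_ne_zero _ _ _)]; rfl

theorem F_s (q : Circle × S2 × SW β) :
    (P.F q).2.2.1.snd = ‖P.Wamb q.1 q.2.1 q.2.2‖⁻¹ := by
  rw [F, coe_nrm _ (P.Wamb_ne_zero _ _ _)]; exact mul_one _

theorem F_w_c0 (q : Circle × S2 × SW β) : (P.F q).2.2.1.fst P.c0 = 0 := by
  rw [F_w]; simp

theorem F_w_ne (q : Circle × S2 × SW β) {c : β × Fin 2} (hc : c ≠ P.c0) :
    (P.F q).2.2.1.fst c = ‖P.Wamb q.1 q.2.1 q.2.2‖⁻¹ •
      (bt q.2.1.1.snd * bt q.2.2.1.snd) • P.Dm q.1 (P.xq q) c := by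
  rw [F_w]; simp [Function.update_of_ne hc]

theorem F_s_pos (q : Circle × S2 × SW β) : 0 < (P.F q).2.2.1.snd := by
  rw [F_s]; exact inv_pos.2 (norm_pos_iff.2 (P.Wamb_ne_zero _ _ _))

theorem F_low (q : Circle × S2 × SW β) (h : q.2.1.1.snd ≤ 1 / 4) : (P.F q).2 = (sP, pW β) := by
  have h1 : (P.F q).2.1.1.fst = 0 := by rw [F_z, bt_zero h]; simp
  have h2 : (P.F q).2.2.1.fst = 0 := by rw [F_w, bt_zero h]; simp
  have h3 := sq_sphere (P.F q).2.1
  have h4 := sq_sphere (P.F q).2.2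
  have h5 : (P.F q).2.1.1.snd ≤ 0 := by
    rw [F_t]; exact mul_nonpos_of_nonneg_of_nonpos (by positivity) (by linarith)
  have h6 := P.F_s_pos q
  rw [h1, norm_zero] at h3
  rw [h2, norm_zero] at h4
  have h7 : (P.F q).2.1.1.snd = -1 := by nlinarith
  have h8 : (P.F q).2.2.1.snd = 1 := by nlinarith
  refine Prod.ext (Subtype.ext ?_) (Subtype.ext ?_)
  · exact WithLp.ofLp_injective 2 (Prod.ext h1 h7)
  · exact WithLp.ofLp_injective 2 (Prod.ext h2 h8)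

/-- the orbit stays in the upper part -/
def Up (q : Circle × S2 × SW β) : Prop := ∀ n, 1 / 4 < (P.F^[n] q).2.1.1.snd

variable {P}

theorem Up.next {q : Circle × S2 × SW β} (h : P.Up q) : P.Up (P.F q) := fun n => h (n + 1)

theorem Up.half {q : Circle × S2 × SW β} (h : P.Up q) : 1 / 2 < q.2.1.1.snd := by
  by_contra h1
  have h2 : 1 / 4 < (P.F q).2.1.1.snd := h 1
  rw [F_t] at h2
  have : ‖P.Aamb q.1 q.2.1 q.2.2‖⁻¹ * (2 * q.2.1.1.snd - 1) ≤ 0 :=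
    mul_nonpos_of_nonneg_of_nonpos (by positivity) (by linarith)
  linarith

theorem Up.A_lt {q : Circle × S2 × SW β} (h : P.Up q) : ‖P.Aamb q.1 q.2.1 q.2.2‖ < 2 := by
  have h1 := h.next.half
  have h2 : 0 < ‖P.Aamb q.1 q.2.1 q.2.2‖ := norm_pos_iff.2 (P.Aamb_ne_zero _ _ _)
  have h3 := snd_le_norm q.2.1.1
  rw [norm_eq_of_mem_sphere] at h3
  rw [F_t, lt_inv_mul_iff₀ h2] at h1
  linarith

theorem Up.z_lt {q : Circle × S2 × SW β} (h : P.Up q) : ‖q.2.1.1.fst‖ < 2 * P.hi 0 := by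
  by_contra h1
  rw [not_lt] at h1
  have h2 : P.Dm q.1 (P.xq q) = 0 := by
    refine P.Dm_eq_zero _ _ (h1.trans ?_)
    rw [← xq_c0]
    exact PiLp.norm_apply_le _ _
  have h3 := WithLp.norm_fst_le ℂ (P.Aamb q.1 q.2.1 q.2.2)
  have h4 : (P.Aamb q.1 q.2.1 q.2.2).fst = (P.ctop : ℂ) * q.2.1.1.fst ^ 2 := by
    show ((bt q.2.1.1.snd * P.ctop : ℝ) * q.2.1.1.fst ^ 2 +
      (bt q.2.1.1.snd * bt q.2.2.1.snd : ℝ) * P.Dm q.1 (P.xq q) P.c0) = _
    rw [h2, bt_one h.half.le]; simp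
  have h5 := P.hi_pos 0
  rw [h4, norm_mul, norm_pow, Complex.norm_real, ctop, Real.norm_of_nonneg (by positivity),
    div_mul_eq_mul_div, div_le_iff₀ (by positivity)] at h3
  have h6 := h.A_lt
  have h7 : (2 * P.hi 0) ^ 2 ≤ ‖q.2.1.1.fst‖ ^ 2 := pow_le_pow_left₀ (by positivity) h1 2
  nlinarith [mul_pos (sub_pos.2 h6) (pow_pos h5 2)]

theorem xq_lt_of_axis {q : Circle × S2 × SW β} (h : P.Up q)
    (h0 : ∀ c, c ≠ P.c0 → q.2.2.1.fst c = 0) : ‖P.xq q‖ < 2 * P.hi 0 := by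
  have : P.xq q = EuclideanSpace.single P.c0 q.2.1.1.fst := by
    ext c
    by_cases hc : c = P.c0
    · rw [hc, xq_c0]; simp
    · rw [xq_ne _ _ hc, h0 c hc]; simp [hc]
  rw [this, PiLp.norm_single]
  exact h.z_lt

theorem two_hi : 2 * P.hi 0 ≤ 1 / 2 := (P.two_hi_le 0).trans P.S0

theorem wq_le {q : Circle × S2 × SW β} (h0 : q.2.2.1.fst P.c0 = 0) : ‖q.2.2.1.fst‖ ≤ ‖P.xq q‖ := by
  rw [← one_mul ‖P.xq q‖]
  refine norm_le_of_le zero_le_one fun c => ?_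
  by_cases hc : c = P.c0
  · rw [hc, h0, norm_zero]; positivity
  · rw [xq_ne _ _ hc, one_mul]

theorem s_half {q : Circle × S2 × SW β} (h0 : q.2.2.1.fst P.c0 = 0) (hs : 0 < q.2.2.1.snd)
    (hx : ‖P.xq q‖ < 2 * P.hi 0) : 1 / 2 ≤ q.2.2.1.snd := by
  have h1 := (wq_le h0).trans (hx.le.trans two_hi)
  have h2 := sq_sphere q.2.2
  have h3 := norm_nonneg q.2.2.1.fst
  nlinarith

theorem Hm_ne (u : ℂ) (x : E β) {c : β × Fin 2} (hc : c ≠ P.c0) : P.Hm u x c = P.Dm u x c := by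
  simp [Hm, topT, hc]

/-- the multipliers -/
def phi (P : Par β) (q : Circle × S2 × SW β) (c : β × Fin 2) : ℝ :=
  if c = P.c0 then ‖P.Aamb q.1 q.2.1 q.2.2‖⁻¹ else ‖P.Wamb q.1 q.2.1 q.2.2‖⁻¹

theorem xq_step {q : Circle × S2 × SW β} (h : P.Up q) (hs : 1 / 2 ≤ q.2.2.1.snd)
    (c : β × Fin 2) : P.xq (P.F q) c = (P.phi q c : ℂ) * P.Hm q.1 (P.xq q) c := by
  by_cases hc : c = P.c0
  · rw [hc, xq_c0, F_z, phi, if_pos rfl, bt_one h.half.le, bt_one hs]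
    simp [Hm, topT, xq_c0, add_comm, mul_add]
  · rw [xq_ne _ _ hc, F_w_ne _ _ hc, phi, if_neg hc, bt_one h.half.le, bt_one hs, Hm_ne _ _ hc]
    simp

theorem phi_pos (q : Circle × S2 × SW β) (c : β × Fin 2) : 0 ≤ P.phi q c := by
  unfold phi; split_ifs <;> positivity

theorem phi_le {q : Circle × S2 × SW β} (h : P.Up q) (c : β × Fin 2) : P.phi q c ≤ 2 := by
  unfold phi
  split_ifs
  · have h1 : 2 * q.2.1.1.snd - 1 ≤ ‖P.Aamb q.1 q.2.1 q.2.2‖ :=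
      snd_le_norm (P.Aamb q.1 q.2.1 q.2.2)
    have h2 := h.z_lt.le.trans two_hi
    have h3 := sq_sphere q.2.1
    have h4 := h.half
    have h5 := norm_nonneg q.2.1.1.fst
    have h6 : 3 / 4 ≤ q.2.1.1.snd := by nlinarith
    rw [inv_le_comm₀ (by linarith) two_pos]
    linarith
  · have h1 : 1 ≤ ‖P.Wamb q.1 q.2.1 q.2.2‖ := snd_le_norm (P.Wamb q.1 q.2.1 q.2.2)
    exact (inv_le_one_of_one_le₀ h1).trans one_le_two

theorem Zl_le : P.Z * P.l 0 ≤ P.hi 0 := by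
  have h1 := P.l_hi 0
  have h2 : P.Z ^ 1 ≤ P.Z ^ (2 * P.Q 0 + 2) :=
    pow_le_pow_right₀ (one_le_two.trans P.two_le_Z) (by omega)
  have h3 : P.gam 0 ^ 2 ≤ 1 := pow_le_one₀ (P.gam_pos 0).le (P.gam_le_one 0)
  have h4 := mul_le_mul_of_nonneg_right h2 (P.l_pos 0).le
  have h5 := mul_le_mul_of_nonneg_right h3 (P.hi_pos 0).le
  linarith

theorem xq_next {q : Circle × S2 × SW β} (h : P.Up q) (h0 : q.2.2.1.fst P.c0 = 0)
    (hs : 0 < q.2.2.1.snd) : ‖P.xq (P.F q)‖ < 2 * P.hi 0 := by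
  rcases le_or_gt (2 * P.hi 0) ‖P.xq q‖ with hx | hx
  · refine xq_lt_of_axis h.next fun c hc => ?_
    rw [F_w_ne _ _ hc, P.Dm_eq_zero _ _ hx]
    simp
  rcases le_or_gt (P.l 0) ‖P.xq q‖ with hl | hl
  · refine xq_lt_of_axis h.next fun c hc => ?_
    rw [F_w_ne _ _ hc, ← Hm_ne _ _ hc, P.Hm_axis _ _ hl c hc]
    simp
  have h1 : ‖P.xq (P.F q)‖ ≤ 2 * ‖P.Hm q.1 (P.xq q)‖ := by
    refine norm_le_of_le two_pos.le fun c => ?_
    rw [xq_step h (s_half h0 hs hx), norm_mul, Complex.norm_real,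
      Real.norm_of_nonneg (phi_pos q c)]
    exact mul_le_mul_of_nonneg_right (phi_le h c) (norm_nonneg _)
  have h2 := P.two_l_le 0
  have h3 := P.l_pos 0
  have h4 := P.norm_Hm_le q.1 (P.xq q) (by linarith)
  have h5 := mul_le_mul_of_nonneg_left hl.le (zero_le_two.trans P.two_le_Z)
  have h6 := Zl_le (P := P)
  linarith

/-- the invariant -/
def Inv (P : Par β) (q : Circle × S2 × SW β) : Prop :=
  P.Up q ∧ q.2.2.1.fst P.c0 = 0 ∧ 0 < q.2.2.1.snd ∧ ‖P.xq q‖ < 2 * P.hi 0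

theorem Inv.next {q : Circle × S2 × SW β} (h : P.Inv q) : P.Inv (P.F q) :=
  ⟨h.1.next, P.F_w_c0 q, P.F_s_pos q, xq_next h.1 h.2.1 h.2.2.1⟩

theorem Inv.iter {q : Circle × S2 × SW β} (h : P.Inv q) (n : ℕ) : P.Inv (P.F^[n] q) := by
  induction n with
  | zero => exact h
  | succ n ih => rw [Function.iterate_succ_apply']; exact ih.next

theorem Inv.le_phi {q : Circle × S2 × SW β} (h : P.Inv q) (c : β × Fin 2) : 1 / 2 ≤ P.phi q c := by
  unfold phi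
  split_ifs
  · rw [le_inv_comm₀ (by norm_num) (norm_pos_iff.2 (P.Aamb_ne_zero _ _ _))]
    linarith [h.1.A_lt]
  · rw [← F_s]
    exact s_half h.next.2.1 h.next.2.2.1 h.next.2.2.2

theorem iter_fst (q : Circle × S2 × SW β) (n : ℕ) : ((P.F^[n] q).1 : ℂ) = q.1 * P.a ^ n := by
  induction n with
  | zero => simp
  | succ n ih =>
    rw [Function.iterate_succ_apply', pow_succ, ← mul_assoc, ← ih]
    rfl

open Filter Topology in
theorem Inv.tendsto {q : Circle × S2 × SW β} (h : P.Inv q) :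
    Tendsto (fun n => (P.F^[n] q).2) atTop (𝓝 (nP, pW β)) := by
  let o : Orb P :=
    { u0 := q.1
      hu0 := q.1.norm_coe
      x := fun n => P.xq (P.F^[n] q)
      φ := fun n => P.phi (P.F^[n] q)
      φ_ge := fun n => (h.iter n).le_phi
      φ_le := fun n => phi_le (h.iter n).1
      step := fun n c => by
        have h1 := h.iter n
        rw [Function.iterate_succ_apply', xq_step h1.1 (s_half h1.2.1 h1.2.2.1 h1.2.2.2), iter_fst]
      bdd := fun n => (h.iter n).2.2.2 }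
  have h1 : Tendsto (fun n => ‖P.xq (P.F^[n] q)‖) atTop (𝓝 0) :=
    tendsto_zero_iff_norm_tendsto_zero.1 o.tendsto_zero
  refine Tendsto.prodMk_nhds (tendsto_pole (fun n => (P.F^[n] q).2.1) nP rfl
    (fun n => by linarith [(h.iter n).1.half]) ?_) (tendsto_pole (fun n => (P.F^[n] q).2.2) (pW β)
    rfl (fun n => (h.iter n).2.2.1.le) ?_)
  · refine squeeze_zero_norm (fun n => ?_) h1
    rw [← xq_c0]
    exact PiLp.norm_apply_le _ _
  · exact squeeze_zero_norm (fun n => wq_le (h.iter n).2.1) h1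

variable (P)

open Filter Topology in
theorem F_tendsto (q : Circle × S2 × SW β) :
    Tendsto (fun n => (P.F^[n] q).2) atTop (𝓝 (nP, pW β)) ∨
      Tendsto (fun n => (P.F^[n] q).2) atTop (𝓝 (sP, pW β)) := by
  by_cases h : P.Up q
  · left
    have h1 : P.Inv (P.F (P.F q)) :=
      ⟨h.next.next, P.F_w_c0 _, P.F_s_pos _, xq_next h.next (P.F_w_c0 q) (P.F_s_pos q)⟩
    exact (tendsto_add_atTop_iff_nat 2).1 h1.tendsto
  · right
    obtain ⟨n, hn⟩ := not_forall.1 h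
    have h1 : ∀ m, (P.F^[m + (n + 1)] q).2 = (sP, pW β) := fun m => by
      induction m with
      | zero => rw [zero_add, Function.iterate_succ_apply']; exact P.F_low _ (not_lt.1 hn)
      | succ m ih =>
        rw [add_right_comm, Function.iterate_succ_apply']
        refine P.F_low _ ?_
        rw [ih]
        show (-1 : ℝ) ≤ 1 / 4
        norm_num
    refine (tendsto_add_atTop_iff_nat (n + 1)).1 ?_
    simp only [h1]
    exact tendsto_const_nhds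

end Par

end Crest.Agent.R123
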