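import Crest.Agent.R123.LevEx
import Crest.Agent.R123.Ent
import Crest.Agent.R123.Mfd
import Crest.Agent.R123.HomCrit
import Crest.Agent.R123.HomCoc
import Crest.Agent.R123.Top2
import Crest.Agent.R123.Top3

open scoped Manifold ContDiff

noncomputable section

namespace Crest.Agent.R123

theorem main :
    ∃ (n : ℕ) (M : Type) (_ : MetricSpace M) (_ : CompactSpace M) (_ : Nonempty M)
      (_ : ChartedSpace (EuclideanSpace ℝ (Fin n)) M)
      (_ : IsManifold (modelWithCornersSelf ℝ (EuclideanSpace ℝ (Fin n))) ∞ M)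
      (f : C(M, M)),
      ContMDiff (modelWithCornersSelf ℝ (EuclideanSpace ℝ (Fin n)))
          (modelWithCornersSelf ℝ (EuclideanSpace ℝ (Fin n))) 1 ⇑f ∧
        Dynamics.coverEntropy ⇑f Set.univ = 0 ∧
        Module.End.HasEigenvalue
          (((AlgebraicTopology.singularHomologyFunctor (ModuleCat.{0} ℝ) 2).obj
              (ModuleCat.of ℝ ℝ)).map (TopCat.ofHom f)).hom (2 : ℝ) := by
  obtain ⟨β, _, _, ⟨Lv⟩⟩ := exists_lev
  obtain ⟨D⟩ := exists_dbl
  obtain ⟨P, -⟩ := Pre.exists_par (β := β) { Lv, D with }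
  obtain ⟨n, cs, im, hf⟩ := rechart
    ((𝓡 1).prod ((𝓡 2).prod (𝓡 (4 * Fintype.card β)))) P.F P.F_contMDiff
  obtain ⟨c, hc, hne⟩ := exists_cocycle
  refine ⟨n, Circle × S2 × SW β, inferInstance, inferInstance, ⟨(1, nP, pW β)⟩, cs, im, P.FC, hf,
    ?_, ?_⟩
  · exact coverEntropy_eq_zero P.aC P.F P.F_contMDiff.continuous (fun _ => rfl) _ _ P.F_tendsto
  · exact eigen_crit g0 sgP sgM btP btM c sg_face0 sgP_face sgM_face bt_face0 btP_face1 btP_face2
      btP_face3 btM_face1 btM_face2 btM_face3 hc hne (Par.inc β)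
      ⟨fun q => q.2.1, by fun_prop⟩ rfl P.FC P.F_homotopic

end Crest.Agent.R123
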