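import Crest.Agent.R123.Defs

open scoped BigOperators

noncomputable section

namespace Crest.Agent.R123

namespace LevEx

/-- `e(t) = exp (2 π i t)` -/
def ee (t : ℝ) : ℂ := Complex.exp (Complex.I * ((2 * Real.pi * t : ℝ) : ℂ))

lemma norm_ee (t : ℝ) : ‖ee t‖ = 1 := Complex.norm_exp_I_mul_ofReal _

lemma ee_add (s t : ℝ) : ee (s + t) = ee s * ee t := by
  simp only [ee, ← Complex.exp_add]
  congr 1
  push_cast
  ring

lemma ee_pow (t : ℝ) (j : ℕ) : ee t ^ j = ee (j * t) := by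
  simp only [ee, ← Complex.exp_nat_mul]
  congr 1
  push_cast
  ring

lemma ee_sub_int (t : ℝ) (m : ℤ) : ee (t - m) = ee t := by
  have : ee (-m) = 1 := by
    rw [ee, ← Complex.exp_int_mul_two_pi_mul_I (-m)]
    congr 1
    push_cast
    ring
  rw [sub_eq_add_neg, ee_add, this, mul_one]

lemma exists_ee {u : ℂ} (hu : ‖u‖ = 1) : ∃ s, u = ee s := by
  refine ⟨u.arg / (2 * Real.pi), ?_⟩
  have h := Complex.norm_mul_exp_arg_mul_I u
  rw [hu, Complex.ofReal_one, one_mul] at h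
  rw [ee, mul_div_cancel₀ _ (by positivity), mul_comm, h]

lemma ee_le (t : ℝ) : ‖ee t - 1‖ ≤ 2 * Real.pi * |t| := by
  refine Real.norm_exp_I_mul_ofReal_sub_one_le.trans_eq ?_
  rw [Real.norm_eq_abs, abs_mul, abs_of_pos (by positivity)]

lemma le_ee {t : ℝ} (ht : |t| ≤ 1 / 2) : 4 * |t| ≤ ‖ee t - 1‖ := by
  have hp := Real.pi_pos
  have h1 : |Real.pi * t| = Real.pi * |t| := by rw [abs_mul, abs_of_pos hp]
  have h := Real.mul_abs_le_abs_sin (x := Real.pi * t) (by rw [h1]; nlinarith)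
  rw [ee, Complex.norm_exp_I_mul_ofReal_sub_one, Real.norm_eq_abs, abs_mul,
    show 2 * Real.pi * t / 2 = Real.pi * t by ring, abs_two]
  rw [h1, show 2 / Real.pi * (Real.pi * |t|) = 2 * |t| by field_simp] at h
  linarith

/-- `√2` is badly approximable. -/
lemma bad {j : ℕ} (hj : 1 ≤ j) (m : ℤ) : 1 ≤ 4 * j * |j * √2 - m| := by
  have hj' : (1 : ℝ) ≤ j := by exact_mod_cast hj
  have h2 : √2 * √2 = 2 := Real.mul_self_sqrt (by norm_num)
  have h0 : 0 ≤ √2 := Real.sqrt_nonneg 2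
  have h3 : √2 ≤ 3 / 2 := by nlinarith
  by_cases h : 1 ≤ |j * √2 - m|
  · nlinarith
  push Not at h
  have hne : (j : ℝ) * √2 - m ≠ 0 :=
    ((irrational_sqrt_two.natCast_mul (by omega)).sub_intCast m).ne_zero
  have hne' : (j : ℝ) * √2 + m ≠ 0 :=
    ((irrational_sqrt_two.natCast_mul (by omega)).add_intCast m).ne_zero
  have e : ((2 * j ^ 2 - m ^ 2 : ℤ) : ℝ) = (j * √2 - m) * (j * √2 + m) := by
    push_cast
    linear_combination (-(j : ℝ) ^ 2) * h2
  have h4 : (1 : ℝ) ≤ |((2 * j ^ 2 - m ^ 2 : ℤ) : ℝ)| := by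
    have : (2 * j ^ 2 - m ^ 2 : ℤ) ≠ 0 := by
      intro h
      rw [h, Int.cast_zero] at e
      exact mul_ne_zero hne hne' e.symm
    exact_mod_cast Int.one_le_abs this
  rw [e, abs_mul] at h4
  have h5 : |(j : ℝ) * √2 + m| ≤ 4 * j := by
    obtain ⟨h6, h7⟩ := abs_lt.1 h
    rw [abs_le]
    constructor <;> nlinarith
  nlinarith [abs_nonneg ((j : ℝ) * √2 - m)]

lemma sep {j Q : ℕ} (hj : 1 ≤ j) (hQ : j ≤ Q) : 1 ≤ Q * ‖ee √2 ^ j - 1‖ := by
  rw [ee_pow, ← ee_sub_int _ (round ((j : ℝ) * √2))]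
  have h1 := le_ee (abs_sub_round ((j : ℝ) * √2))
  have h2 := bad hj (round ((j : ℝ) * √2))
  have h3 : (j : ℝ) ≤ Q := by exact_mod_cast hQ
  have h4 : (0 : ℝ) ≤ j := by positivity
  nlinarith [abs_nonneg ((j : ℝ) * √2 - round ((j : ℝ) * √2)), norm_nonneg
    (ee ((j : ℝ) * √2 - round ((j : ℝ) * √2)) - 1)]

lemma den {Q : ℕ} (hQ : 1 ≤ Q) {u : ℂ} (hu : ‖u‖ = 1) :
    ∃ j < Q, Q * ‖u * ee √2 ^ j - 1‖ ≤ 19 := by
  obtain ⟨s, rfl⟩ := exists_ee hu
  obtain ⟨r, hr, hd⟩ := Real.exists_rat_abs_sub_le_and_den_le √2 hQ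
  have hd0 : (0 : ℝ) < r.den := by exact_mod_cast r.pos
  have hQ0 : (0 : ℝ) < Q := by exact_mod_cast hQ
  have hr' : (r : ℝ) = r.num / r.den := Rat.cast_def r
  -- the denominator is large
  have h1 : |(r.den : ℝ) * √2 - r.num| ≤ 1 / (Q + 1) := by
    rw [show (r.den : ℝ) * √2 - r.num = r.den * (√2 - r) by rw [hr']; field_simp, abs_mul,
      abs_of_pos hd0]
    refine (mul_le_mul_of_nonneg_left hr hd0.le).trans_eq ?_
    field_simp
  have h2 : (Q : ℝ) + 1 ≤ 4 * r.den := by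
    have h := (bad r.pos r.num).trans (mul_le_mul_of_nonneg_left h1 (by positivity))
    rwa [mul_one_div, le_div_iff₀ (by positivity), one_mul] at h
  -- solve the congruence
  obtain ⟨x, y, hxy⟩ : IsCoprime r.num (r.den : ℤ) := Int.isCoprime_iff_gcd_eq_one.2 r.reduced
  set n := round (s * r.den) with hn
  have hdz : (0 : ℤ) < r.den := by exact_mod_cast r.pos
  have hj0 := Int.emod_nonneg (-n * x) hdz.ne'
  have hj1 := Int.emod_lt_of_pos (-n * x) hdz
  have hj2 := Int.emod_add_mul_ediv (-n * x) r.den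
  obtain ⟨j, hj⟩ := Int.eq_ofNat_of_zero_le hj0
  rw [hj] at hj1 hj2
  set z := -n * x / r.den
  have hjd : j < r.den := by exact_mod_cast hj1
  have hjd' : (j : ℝ) ≤ r.den := by exact_mod_cast hjd.le
  have key : (j : ℤ) * r.num + n = r.den * (n * y - z * r.num) := by
    linear_combination r.num * hj2 - n * hxy
  have key' : (j : ℝ) * r.num + n = r.den * (n * y - z * r.num) := by exact_mod_cast key
  refine ⟨j, hjd.trans_le hd, ?_⟩
  rw [ee_pow, ← ee_add, ← ee_sub_int _ (n * y - z * r.num)]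
  have h3 : s + j * √2 - ((n * y - z * r.num : ℤ) : ℝ) =
      ((s * r.den - n) + j / r.den * (r.den * √2 - r.num) * r.den) / r.den := by
    push_cast
    field_simp
    linear_combination key'
  have h4 : |s + j * √2 - ((n * y - z * r.num : ℤ) : ℝ)| ≤ 3 / (Q + 1) := by
    rw [h3, add_div, mul_div_cancel_right₀ _ hd0.ne']
    refine (abs_add_le _ _).trans ?_
    have h5 : |(s * r.den - n) / r.den| ≤ 2 / (Q + 1) := by
      rw [abs_div, abs_of_pos hd0, div_le_div_iff₀ hd0 (by positivity)]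
      have := abs_sub_round (s * r.den)
      nlinarith
    have h6 : |j / r.den * (r.den * √2 - r.num)| ≤ 1 / (Q + 1) := by
      rw [abs_mul, abs_of_nonneg (by positivity)]
      exact (mul_le_of_le_one_left (abs_nonneg _) ((div_le_one hd0).2 hjd')).trans h1
    refine (add_le_add h5 h6).trans_eq ?_
    ring
  have h5 := (ee_le _).trans (mul_le_mul_of_nonneg_left h4 (by positivity))
  refine (mul_le_mul_of_nonneg_left h5 hQ0.le).trans ?_
  have h6 : (Q : ℝ) * (2 * Real.pi * (3 / (Q + 1))) = 6 * Real.pi * (Q / (Q + 1)) := by ring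
  have h7 : (Q : ℝ) / (Q + 1) ≤ 1 := (div_le_one (by positivity)).2 (by linarith)
  have h8 := Real.pi_lt_d2
  have h9 := Real.pi_pos
  rw [h6]
  nlinarith

/-- `C¹`, values in `[0, 1]`, bounded derivative -/
def Gd (f : ℂ → ℝ) : Prop :=
  ContDiff ℝ 1 f ∧ (∀ u, 0 ≤ f u) ∧ (∀ u, f u ≤ 1) ∧ ∃ D : ℝ, ∀ u, ‖fderiv ℝ f u‖ ≤ D

lemma gd_const {c : ℝ} (h0 : 0 ≤ c) (h1 : c ≤ 1) : Gd fun _ => c :=
  ⟨contDiff_const, fun _ => h0, fun _ => h1, 0, fun u => by simp⟩

lemma exists_bump (Q : ℝ) (c : ℂ) (r : ℝ) : ∃ f : ℂ → ℝ, Gd f ∧ (0 < Q → 0 < r →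
    (∀ u, ‖(Q : ℂ) * (u - 1) - c‖ ≤ r → f u = 1) ∧
      ∀ u, f u ≠ 0 → ‖(Q : ℂ) * (u - 1) - c‖ < 2 * r) := by
  by_cases h : 0 < Q ∧ 0 < r
  swap
  · exact ⟨_, gd_const le_rfl zero_le_one, fun h1 h2 => (h ⟨h1, h2⟩).elim⟩
  obtain ⟨hQ, hr⟩ := h
  let f : ContDiffBump (1 + c / Q : ℂ) := ⟨r / Q, 2 * r / Q, by positivity, by
    rw [div_lt_div_iff_of_pos_right hQ]; linarith⟩
  have hn : ∀ u : ℂ, ‖(Q : ℂ) * (u - 1) - c‖ = Q * dist u (1 + c / Q) := fun u => by
    have : (Q : ℂ) ≠ 0 := by exact_mod_cast hQ.ne'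
    rw [dist_eq_norm, show (Q : ℂ) * (u - 1) - c = Q * (u - (1 + c / Q)) by field_simp; ring,
      norm_mul, Complex.norm_real, Real.norm_of_nonneg hQ.le]
  refine ⟨f, ⟨f.contDiff, fun u => f.nonneg, fun u => f.le_one, ?_⟩, fun _ _ => ⟨fun u hu => ?_,
    fun u hu => ?_⟩⟩
  · exact ((f.contDiff (n := 1)).continuous_fderiv (by simp)).bounded_above_of_compact_support
      (f.hasCompactSupport.fderiv ℝ)
  · refine f.one_of_mem_closedBall ?_
    rw [hn] at hu
    exact (le_div_iff₀' hQ).2 hu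
  · have : u ∈ Function.support f := hu
    rw [f.support_eq] at this
    rw [hn]
    exact (lt_div_iff₀' hQ).1 this

lemma sep' {j Q : ℕ} (hj : 1 ≤ j) (hQ : j ≤ Q) {u c : ℂ} (hu : ‖u‖ = 1)
    (h₁ : ‖((Q : ℝ) : ℂ) * (u - 1) - c‖ < 1 / 2)
    (h₂ : ‖((Q : ℝ) : ℂ) * (u * ee √2 ^ j - 1) - c‖ < 1 / 2) : False := by
  have h := sep hj hQ
  have e : (Q : ℝ) * ‖ee √2 ^ j - 1‖ = ‖(((Q : ℝ) : ℂ) * (u * ee √2 ^ j - 1) - c) -
      (((Q : ℝ) : ℂ) * (u - 1) - c)‖ := by
    rw [show (((Q : ℝ) : ℂ) * (u * ee √2 ^ j - 1) - c) - (((Q : ℝ) : ℂ) * (u - 1) - c) =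
      ((Q : ℝ) : ℂ) * (u * (ee √2 ^ j - 1)) by ring, norm_mul, norm_mul, hu, one_mul,
      Complex.norm_real, Real.norm_of_nonneg (by positivity)]
  have := norm_sub_le (((Q : ℝ) : ℂ) * (u * ee √2 ^ j - 1) - c) (((Q : ℝ) : ℂ) * (u - 1) - c)
  linarith

end LevEx

open LevEx in
theorem exists_lev : ∃ (β : Type) (_ : Fintype β) (_ : DecidableEq β), Nonempty (Lev β) := by
  classical
  obtain ⟨t, -, ht, hc⟩ := finite_cover_balls_of_compact (isCompact_closedBall (0 : ℂ) 38)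
    (e := 1 / 8) (by norm_num)
  obtain ⟨c0, hc0, -⟩ := Set.mem_iUnion₂.1 (hc (Metric.mem_closedBall_self (by norm_num)))
  choose B hB hB' using exists_bump
  have hq : ∀ k : ℕ, (0 : ℝ) < ((2 ^ k : ℕ) : ℝ) := fun k => by positivity
  let h : ℕ → ℂ → ℝ := fun k => if k = 0 then fun _ => 1 else B ((2 ^ k : ℕ) : ℝ) 0 19
  let w : ℕ → t → ℂ → ℝ := fun k b =>
    if k = 0 then fun _ => if b = ⟨c0, hc0⟩ then 1 else 0 else B ((2 ^ k : ℕ) : ℝ) b (1 / 8)
  let rd : ℕ → t → ℂ → ℝ := fun k b =>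
    if k = 0 then fun _ => 1 else B ((2 ^ k : ℕ) : ℝ) b (1 / 4)
  have gh : ∀ k, Gd (h k) := fun k => by
    simp only [h]
    split_ifs
    exacts [gd_const zero_le_one le_rfl, hB _ _ _]
  have gw : ∀ k b, Gd (w k b) := fun k b => by
    simp only [w]
    split_ifs
    exacts [gd_const zero_le_one le_rfl, gd_const le_rfl zero_le_one, hB _ _ _]
  have gr : ∀ k b, Gd (rd k b) := fun k b => by
    simp only [rd]
    split_ifs
    exacts [gd_const zero_le_one le_rfl, hB _ _ _]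
  refine ⟨t, ht.fintype, inferInstance, ⟨
    { a := ee √2
      ha := norm_ee _
      b0 := ⟨c0, hc0⟩
      Q := fun k => 2 ^ k
      h := h
      w := w
      rd := rd
      Q0 := rfl
      Qmono := fun _ _ hk => Nat.pow_le_pow_right two_pos hk
      Qpow := fun _ => le_rfl
      h_smooth := fun k => (gh k).1
      w_smooth := fun k b => (gw k b).1
      rd_smooth := fun k b => (gr k b).1
      h_nonneg := fun k => (gh k).2.1
      h_le := fun k => (gh k).2.2.1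
      w_nonneg := fun k b => (gw k b).2.1
      w_le := fun k b => (gw k b).2.2.1
      rd_nonneg := fun k b => (gr k b).2.1
      rd_le := fun k b => (gr k b).2.2.1
      h_der := fun k => (gh k).2.2.2
      w_der := fun k b => (gw k b).2.2.2
      rd_der := fun k b => (gr k b).2.2.2
      h0 := fun u => by simp [h]
      w0 := fun u => by simp [w]
      w0' := fun b hb u => by simp [w, hb]
      nest := fun k u hu => ?_
      visit := fun k u hu => ?_
      cover := fun k u hu hh => ?_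
      rd_w := fun k b u hu => ?_
      rd_sep := fun k b u i hu hi hi' hr => ?_
      w_sep := fun k b u j hu hj hj' h1 h2 => ?_ }⟩⟩
  · by_cases hk : k = 0
    · simp [h, hk]
    simp only [h, if_neg hk, if_neg (Nat.succ_ne_zero k)] at hu ⊢
    have h1 := (hB' _ _ _ (hq _) (by norm_num)).2 u hu
    refine (hB' _ _ _ (hq _) (by norm_num)).1 u ?_
    simp only [sub_zero, norm_mul, Complex.norm_real, Real.norm_natCast] at h1 ⊢
    push_cast at h1 ⊢
    rw [pow_succ] at h1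
    linarith
  · by_cases hk : k = 0
    · exact ⟨0, by positivity, by simp [h, hk]⟩
    obtain ⟨j, hj, h1⟩ := den (Q := 2 ^ k) Nat.one_le_two_pow hu
    refine ⟨j, hj, ?_⟩
    simp only [h, if_neg hk]
    refine (hB' _ _ _ (hq _) (by norm_num)).1 _ ?_
    simpa only [sub_zero, norm_mul, Complex.norm_real, Real.norm_natCast] using h1
  · by_cases hk : k = 0
    · exact ⟨⟨c0, hc0⟩, by simp [w, hk]⟩
    simp only [h, if_neg hk] at hh
    have h1 := (hB' _ _ _ (hq _) (by norm_num)).2 u hh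
    obtain ⟨c, hct, h2⟩ := Set.mem_iUnion₂.1 (hc (show (((2 ^ k : ℕ) : ℝ) : ℂ) * (u - 1) ∈ _ by
      rw [mem_closedBall_iff_norm]; linarith))
    refine ⟨⟨c, hct⟩, ?_⟩
    simp only [w, if_neg hk]
    exact (hB' _ _ _ (hq _) (by norm_num)).1 _ (mem_ball_iff_norm.1 h2).le
  · by_cases hk : k = 0
    · simp [rd, hk]
    simp only [w, rd, if_neg hk] at hu ⊢
    have h1 := (hB' _ _ _ (hq _) (by norm_num)).2 u hu
    exact (hB' _ _ _ (hq _) (by norm_num)).1 _ (by linarith)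
  · by_cases hk : k = 0
    · subst hk
      omega
    simp only [rd, if_neg hk] at hr ⊢
    by_contra hr'
    have h1 := (hB' _ _ _ (hq _) (by norm_num)).2 _ hr
    have h2 := (hB' _ _ _ (hq _) (by norm_num)).2 _ hr'
    exact sep' (c := b) hi hi'.le hu (by linarith) (by linarith)
  · by_cases hk : k = 0
    · simp [h, hk]
    simp only [w, if_neg hk] at h1 h2
    have h3 := (hB' _ _ _ (hq _) (by norm_num)).2 _ h1
    have h4 := (hB' _ _ _ (hq _) (by norm_num)).2 _ h2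
    exact (sep' (c := b) hj hj' hu (by linarith) (by linarith)).elim

end Crest.Agent.R123
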