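import Crest.Agent.R123.Basic
import Crest.Agent.R123.DblEx

open scoped BigOperators

noncomputable section

namespace Crest.Agent.R123

namespace Par

variable {β : Type} [Fintype β] [DecidableEq β] (P : Par β)

theorem exists_small {ρ : ℝ} (h : 0 < ρ) : ∃ n, ∀ k, n ≤ k → 2 * P.S k ≤ ρ := by
  obtain ⟨n, hn⟩ := (Metric.tendsto_atTop.mp P.S_tendsto) (ρ / 2) (by linarith)
  refine ⟨n, fun k hk => ?_⟩
  have h1 := hn k hk
  rw [Real.dist_eq, sub_zero, abs_of_pos (P.S_pos k)] at h1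
  linarith

omit [DecidableEq β] in
theorem psi_zero (r : ℝ) (j : ℕ) (ρ : ℝ) : P.psi r j 0 ρ = 0 := by
  simp [psi, P.toDbl.iter_zero]

omit [DecidableEq β] in
theorem psi_form {r ρ : ℝ} (hr : 0 < r) (hρ : 0 < ρ) (j : ℕ) (A : ℝ) (hA : 0 ≤ A) (ν : ℂ)
    (hν : ‖ν‖ = 1) : ∃ B : ℝ, 0 ≤ B ∧ P.psi r j ((A : ℂ) * ν) ρ = (B : ℂ) * ν ^ (2 ^ j) ∧
      (r * ρ ≤ A → B = A) := by
  have h0 : 0 < ρ * r := by positivity
  obtain ⟨B, hB0, -, hB, hBA⟩ := P.toDbl.iter_form j (A / (ρ * r)) (by positivity) ν hν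
  refine ⟨ρ * r * B, by positivity, ?_, fun h => ?_⟩
  · have h1 : (A : ℂ) * ν / ((ρ * r : ℝ) : ℂ) = ((A / (ρ * r) : ℝ) : ℂ) * ν := by
      push_cast; ring
    rw [psi, h1, hB]
    push_cast; ring
  · rw [hBA (by rw [le_div_iff₀ h0]; linarith)]
    field_simp

omit [DecidableEq β] in
theorem rd_unique {k : ℕ} {b : β} {u : ℂ} (hu : ‖u‖ = 1) {j j' : ℕ} (h1 : 1 ≤ j)
    (h2 : j ≤ P.Q k) (h3 : 1 ≤ j') (h4 : j' ≤ P.Q k) (hj : P.rd k b (u * P.a⁻¹ ^ j) ≠ 0)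
    (hj' : P.rd k b (u * P.a⁻¹ ^ j') ≠ 0) : j = j' := by
  have ha : P.a ≠ 0 := by
    intro h
    have := P.ha
    rw [h, norm_zero] at this
    exact zero_ne_one this
  have key : ∀ i i' : ℕ, 1 ≤ i → i' ≤ P.Q k → i < i' → P.rd k b (u * P.a⁻¹ ^ i) ≠ 0 →
      P.rd k b (u * P.a⁻¹ ^ i') ≠ 0 → False := by
    intro i i' h1 h2 h3 h4 h5
    obtain ⟨m, rfl⟩ := Nat.exists_eq_add_of_le h3.le
    have h6 := P.rd_sep k b (u * P.a⁻¹ ^ (i + m)) m (by simp [hu, P.ha]) (by omega) (by omega) h5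
    apply h4
    rw [← h6]
    congr 1
    simp only [pow_add, inv_pow]
    field_simp
  rcases lt_trichotomy j j' with h | h | h
  · exact (key j j' h1 h4 h hj hj').elim
  · exact h
  · exact (key j' j h3 h2 h hj' hj).elim

/-- on a coherent state, `N` is a nonnegative multiple of the current phase, at least as large as
the (discounted) size of any large channel -/
theorem read (u ω : ℂ) (hu : ‖u‖ = 1) (x : E β) (hx0 : x ≠ 0)
    (hv : ∀ b π, x (b, π) = 0 ∨ ∃ k j, cls k = π ∧ P.Src u ω x b k j) :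
    ∃ n : ℝ, 0 ≤ n ∧ P.N u x = (n : ℂ) * ω ∧
      ∀ b k j, P.Src u ω x b k j → P.gam k * ‖x‖ ≤ ‖x (b, cls k)‖ →
        (P.L⁻¹) ^ j * ‖x (b, cls k)‖ ≤ n := by
  have hρ : 0 < ‖x‖ := norm_pos_iff.mpr hx0
  have hL : 0 < P.L := by linarith [P.toPre.two_le_L]
  -- the terms
  have hterm : ∀ (k : ℕ) (b : β) (j : ℕ), ∃ v : ℝ, 0 ≤ v ∧
      (j ∈ Finset.Icc 1 (P.Q k) → (P.tau k ‖x‖ : ℂ) *
        (((P.rd k b (u * P.a⁻¹ ^ j) * (P.L⁻¹) ^ j : ℝ) : ℂ) *
          P.psi (P.gam k) j (x (b, cls k)) ‖x‖) = (v : ℂ) * ω) ∧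
      (P.Src u ω x b k j → P.gam k * ‖x‖ ≤ ‖x (b, cls k)‖ →
        (P.L⁻¹) ^ j * ‖x (b, cls k)‖ ≤ v) := by
    intro k b j
    by_cases hs : P.Src u ω x b k j
    · obtain ⟨h1, h2, h3, h4, h5, A, ν, hA, hν, hω, hx⟩ := hs
      obtain ⟨B, hB0, hB, hBA⟩ := P.psi_form (P.toPre.gam_pos k) hρ j A hA ν hν
      refine ⟨(P.L⁻¹) ^ j * B, by positivity, fun _ => ?_, fun _ hg => ?_⟩
      · rw [P.tau_eq_one h3 h4, P.rd_w k b _ h5, hx, hB, hω]
        push_cast; ring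
      · have h6 : ‖x (b, cls k)‖ = A := by
          rw [hx, norm_mul, hν, mul_one, Complex.norm_real, Real.norm_of_nonneg hA]
        rw [h6] at hg ⊢
        rw [hBA hg]
    · refine ⟨0, le_rfl, fun hj => ?_, fun h => absurd h hs⟩
      rw [Complex.ofReal_zero, zero_mul]
      rcases hv b (cls k) with h | ⟨k', j', hc, hs'⟩
      · rw [h, P.psi_zero]; simp
      by_cases ht : P.tau k ‖x‖ = 0
      · rw [ht]; simp
      by_cases hr : P.rd k b (u * P.a⁻¹ ^ j) = 0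
      · rw [hr]; simp
      exfalso
      obtain ⟨ht1, ht2⟩ := P.tau_ne_zero hρ.le ht
      obtain rfl : k' = k := P.level_unique hc hs'.2.2.1 hs'.2.2.2.1 ht1 ht2
      rw [Finset.mem_Icc] at hj
      obtain rfl : j = j' := P.rd_unique hu hj.1 hj.2 hs'.1 hs'.2.1 hr
        (by rw [P.rd_w _ _ _ hs'.2.2.2.2.1]; exact one_ne_zero)
      exact hs hs'
  choose v hv0 hv1 hv2 using hterm
  obtain ⟨n, hn⟩ := P.exists_small hρ
  have hR : ∀ k, P.R k u x = ((∑ b, ∑ j ∈ Finset.Icc 1 (P.Q k), v k b j : ℝ) : ℂ) * ω := by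
    intro k
    rw [R, Finset.mul_sum]
    push_cast
    rw [Finset.sum_mul]
    refine Finset.sum_congr rfl fun b _ => ?_
    rw [Finset.mul_sum, Finset.sum_mul]
    refine Finset.sum_congr rfl fun j hj => ?_
    rw [← hv1 k b j hj]
    push_cast
    ring
  have hN : P.N u x = ∑ k ∈ Finset.range n, P.R k u x := by
    refine tsum_eq_sum fun k hk => ?_
    have h1 : P.tau k ‖x‖ = 0 := by
      by_contra h
      have := (P.tau_ne_zero hρ.le h).2
      have := hn k (by simpa using hk)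
      linarith
    rw [R, h1]; simp
  refine ⟨∑ k ∈ Finset.range n, ∑ b, ∑ j ∈ Finset.Icc 1 (P.Q k), v k b j,
    Finset.sum_nonneg fun k _ => Finset.sum_nonneg fun b _ => Finset.sum_nonneg fun j _ =>
      hv0 k b j, ?_, fun b k j hs hg => (hv2 k b j hs hg).trans ?_⟩
  · rw [hN, Complex.ofReal_sum, Finset.sum_mul]
    exact Finset.sum_congr rfl fun k _ => hR k
  · have hk : k ∈ Finset.range n := by
      rw [Finset.mem_range]
      by_contra h
      have h1 := hn k (by omega)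
      have h2 := hs.2.2.2.1
      have h3 := P.S_pos k
      linarith
    calc v k b j ≤ ∑ j ∈ Finset.Icc 1 (P.Q k), v k b j :=
          Finset.single_le_sum (f := fun j => v k b j) (fun j _ => hv0 k b j)
            (Finset.mem_Icc.mpr ⟨hs.1, hs.2.1⟩)
      _ ≤ ∑ b, ∑ j ∈ Finset.Icc 1 (P.Q k), v k b j :=
          Finset.single_le_sum (f := fun b => ∑ j ∈ Finset.Icc 1 (P.Q k), v k b j)
            (fun b _ => Finset.sum_nonneg fun j _ => hv0 k b j) (Finset.mem_univ b)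
      _ ≤ _ :=
          Finset.single_le_sum (f := fun k => ∑ b, ∑ j ∈ Finset.Icc 1 (P.Q k), v k b j)
            (fun k _ => Finset.sum_nonneg fun b _ => Finset.sum_nonneg fun j _ => hv0 k b j) hk

end Par

end Crest.Agent.R123
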