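import Crest.Agent.R123.SmoothR

set_option maxHeartbeats 400000

open scoped BigOperators

noncomputable section

namespace Crest.Agent.R123

namespace SmA

open Filter Topology

theorem st_lip : ∃ M : ℝ, 0 ≤ M ∧ ∀ a b : ℝ,
    |Real.smoothTransition a - Real.smoothTransition b| ≤ M * |a - b| := by
  obtain ⟨K, hK⟩ := (Real.smoothTransition.contDiff (n := 1)).contDiffOn.exists_lipschitzOnWith
    one_ne_zero (convex_Icc (0 : ℝ) 1) isCompact_Icc
  refine ⟨K, K.2, fun a b => ?_⟩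
  rw [← Real.smoothTransition.projIcc (x := a), ← Real.smoothTransition.projIcc (x := b),
    ← Real.dist_eq]
  refine (hK.dist_le_mul _ (Set.projIcc 0 1 zero_le_one a).2 _
    (Set.projIcc 0 1 zero_le_one b).2).trans ?_
  exact mul_le_mul_of_nonneg_left (Set.abs_projIcc_sub_projIcc zero_le_one) K.2

variable {β : Type} [Fintype β]

theorem ct_smooth (s : ℝ) : ContDiff ℝ 1 fun q : ℂ × E β => ct s ‖q.2‖ := by
  unfold ct
  refine (Real.smoothTransition.contDiff (n := 1)).comp ?_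
  exact (contDiff_const.sub ((contDiff_snd.norm_sq ℂ).div_const _)).div_const _

theorem ct_der : ∃ C : ℝ, 0 ≤ C ∧ ∀ s : ℝ, 0 < s → ∀ p : ℂ × E β,
    ‖fderiv ℝ (fun q : ℂ × E β => ct s ‖q.2‖) p‖ * ‖p.2‖ ≤ C := by
  obtain ⟨M, hM0, hM⟩ := st_lip
  refine ⟨4 * M, by positivity, fun s hs p => ?_⟩
  rcases lt_or_ge (2 * s) ‖p.2‖ with h | h
  · have : (fun q : ℂ × E β => ct s ‖q.2‖) =ᶠ[𝓝 p] fun _ => 0 := by
      filter_upwards [(continuous_snd.norm.tendsto p).eventually (lt_mem_nhds h)] with q hq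
      exact ct_eq_zero hs hq.le
    rw [this.fderiv_eq, fderiv_fun_const]
    simp only [Pi.zero_apply, norm_zero, zero_mul]
    positivity
  have h1 : ‖fderiv ℝ (fun q : ℂ × E β => ct s ‖q.2‖) p‖ ≤ 2 * M / s := by
    refine norm_fderiv_le_of_lip' ℝ (by positivity) ?_
    filter_upwards [(continuous_snd.norm.tendsto p).eventually
      (gt_mem_nhds (show ‖p.2‖ < 4 * s by linarith))] with q hq
    rw [Real.norm_eq_abs]
    refine (hM _ _).trans ?_
    have e : (4 - ‖q.2‖ ^ 2 / s ^ 2) / 3 - (4 - ‖p.2‖ ^ 2 / s ^ 2) / 3 =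
        (‖p.2‖ + ‖q.2‖) / (3 * s ^ 2) * (‖p.2‖ - ‖q.2‖) := by field_simp; ring
    have h2 : |‖p.2‖ - ‖q.2‖| ≤ ‖q - p‖ := by
      rw [abs_sub_comm]
      exact (abs_norm_sub_norm_le _ _).trans (norm_snd_le (q - p))
    have h3 : (‖p.2‖ + ‖q.2‖) / (3 * s ^ 2) ≤ 2 / s := by
      rw [div_le_div_iff₀ (by positivity) hs]
      nlinarith
    rw [e, abs_mul, abs_of_nonneg (by positivity)]
    calc M * ((‖p.2‖ + ‖q.2‖) / (3 * s ^ 2) * |‖p.2‖ - ‖q.2‖|) ≤ M * (2 / s * ‖q - p‖) := by gcongr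
      _ = _ := by ring
  calc _ ≤ 2 * M / s * (2 * s) := by gcongr
    _ = _ := by field_simp; ring

theorem norm_fderiv_smul_le {X Y : Type*} [NormedAddCommGroup X] [NormedSpace ℝ X]
    [NormedAddCommGroup Y] [NormedSpace ℝ Y] {a : X → ℝ} {v : X → Y} {p : X}
    (ha : DifferentiableAt ℝ a p) (hv : DifferentiableAt ℝ v p) :
    ‖fderiv ℝ (fun q => a q • v q) p‖ ≤ |a p| * ‖fderiv ℝ v p‖ + ‖fderiv ℝ a p‖ * ‖v p‖ := by
  rw [fderiv_fun_smul ha hv]
  refine (norm_add_le _ _).trans (le_of_eq ?_)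
  rw [norm_smul, ContinuousLinearMap.norm_smulRight_apply, Real.norm_eq_abs]

theorem norm_fderiv_fst_le {X Y : Type*} [NormedAddCommGroup X] [NormedSpace ℝ X]
    [NormedAddCommGroup Y] [NormedSpace ℝ Y] {f : X → ℝ} (hf : Differentiable ℝ f) (p : X × Y) :
    ‖fderiv ℝ (fun q : X × Y => f q.1) p‖ ≤ ‖fderiv ℝ f p.1‖ := by
  have h : HasFDerivAt (fun q : X × Y => f q.1) _ p := (hf p.1).hasFDerivAt.comp p hasFDerivAt_fst
  rw [h.fderiv]
  exact (ContinuousLinearMap.opNorm_comp_le _ _).trans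
    (mul_le_of_le_one_right (norm_nonneg _) (ContinuousLinearMap.norm_fst_le ..))

theorem diff_clm {X Y W : Type*} [NormedAddCommGroup X] [NormedSpace ℝ X]
    [NormedAddCommGroup Y] [NormedSpace ℝ Y] [NormedAddCommGroup W] [NormedSpace ℝ W]
    (L : Y →L[ℝ] W) {f : X → Y} {p : X} (hf : DifferentiableAt ℝ f p) :
    DifferentiableAt ℝ (fun q => L (f q)) p := L.differentiableAt.comp p hf

theorem cd_clm {X Y W : Type*} [NormedAddCommGroup X] [NormedSpace ℝ X]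
    [NormedAddCommGroup Y] [NormedSpace ℝ Y] [NormedAddCommGroup W] [NormedSpace ℝ W]
    (L : Y →L[ℝ] W) {f : X → Y} {p : X} (hf : ContDiffAt ℝ 1 f p) :
    ContDiffAt ℝ 1 (fun q => L (f q)) p := L.contDiff.contDiffAt.comp p hf

theorem norm_fderiv_clm_le {X Y W : Type*} [NormedAddCommGroup X] [NormedSpace ℝ X]
    [NormedAddCommGroup Y] [NormedSpace ℝ Y] [NormedAddCommGroup W] [NormedSpace ℝ W]
    (L : Y →L[ℝ] W) (hL : ‖L‖ ≤ 1) {f : X → Y} {p : X} (hf : DifferentiableAt ℝ f p) :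
    ‖fderiv ℝ (fun q => L (f q)) p‖ ≤ ‖fderiv ℝ f p‖ := by
  have h : HasFDerivAt (fun q => L (f q)) _ p := L.hasFDerivAt.comp p hf.hasFDerivAt
  rw [h.fderiv]
  exact (ContinuousLinearMap.opNorm_comp_le _ _).trans (mul_le_of_le_one_left (norm_nonneg _) hL)

/-- projection onto the channels of one parity -/
def prL (π : Fin 2) : E β →ₗ[ℂ] E β where
  toFun x := WithLp.toLp 2 fun c => if c.2 = π then x c else 0
  map_add' x y := by ext c; by_cases h : c.2 = π <;> simp [h]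
  map_smul' r x := by ext c; by_cases h : c.2 = π <;> simp [h]

theorem norm_prL_le (π : Fin 2) (x : E β) : ‖prL π x‖ ≤ 1 * ‖x‖ := by
  rw [one_mul, EuclideanSpace.norm_eq, EuclideanSpace.norm_eq]
  refine Real.sqrt_le_sqrt (Finset.sum_le_sum fun c _ => ?_)
  change ‖if c.2 = π then x c else 0‖ ^ 2 ≤ _
  split_ifs <;> simp

def pr (π : Fin 2) : E β →L[ℝ] E β :=
  (LinearMap.mkContinuous (prL (β := β) π) 1 (norm_prL_le (β := β) π)).restrictScalars ℝ

theorem norm_pr_le (π : Fin 2) : ‖(pr π : E β →L[ℝ] E β)‖ ≤ 1 :=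
  ContinuousLinearMap.opNorm_le_bound _ zero_le_one (norm_prL_le π)

theorem pr_apply (π : Fin 2) (x : E β) (c : β × Fin 2) :
    pr π x c = if c.2 = π then x c else 0 := rfl

variable [DecidableEq β]

/-- insertion into one channel -/
def sgL (c : β × Fin 2) : ℂ →ₗ[ℂ] E β where
  toFun z := EuclideanSpace.single c z
  map_add' x y := by ext d; by_cases h : d = c <;> simp [h]
  map_smul' r x := by ext d; by_cases h : d = c <;> simp [h]

theorem norm_sgL_le (c : β × Fin 2) (z : ℂ) : ‖sgL c z‖ ≤ 1 * ‖z‖ := by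
  change ‖EuclideanSpace.single c z‖ ≤ _
  simp

def sg (c : β × Fin 2) : ℂ →L[ℝ] E β :=
  (LinearMap.mkContinuous (sgL (β := β) c) 1 (norm_sgL_le (β := β) c)).restrictScalars ℝ

theorem norm_sg_le (c : β × Fin 2) : ‖(sg c : ℂ →L[ℝ] E β)‖ ≤ 1 :=
  ContinuousLinearMap.opNorm_le_bound _ zero_le_one (norm_sgL_le c)

theorem sg_apply (c : β × Fin 2) (z : ℂ) : sg c z = EuclideanSpace.single c z := rfl

variable (P : Par β)

omit [DecidableEq β] in
theorem keepT_eq (k : ℕ) : (fun q : ℂ × E β => P.keepT k q.1 q.2) =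
    fun q => (ct (P.S k) ‖q.2‖ * P.dk k q.1) • pr (cls k) q.2 := by
  funext q
  ext c
  simp only [Par.keepT, PiLp.smul_apply, pr_apply]
  split_ifs <;> simp

theorem wrT_eq (k : ℕ) : (fun q : ℂ × E β => P.wrT k q.1 q.2) =
    fun q => ∑ b : β, (P.sig k ‖q.2‖ * P.eta k * P.w k b q.1) • sg (b, cls k) (P.Nk k q.1 q.2) := by
  funext q
  ext ⟨b, π⟩
  simp only [Par.wrT, WithLp.ofLp_sum, Finset.sum_apply, PiLp.smul_apply, sg_apply,
    PiLp.single_apply, Prod.mk.injEq]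
  split_ifs with h
  · simp [h]
  · simp [h]

omit [DecidableEq β] in
theorem sig_smooth (k : ℕ) : ContDiff ℝ 1 fun q : ℂ × E β => P.sig k ‖q.2‖ :=
  (SmA.ct_smooth _).sub (SmA.ct_smooth _)

theorem Nk_smooth (k : ℕ) (p : ℂ × E β) (hp : p.2 ≠ 0) :
    ContDiffAt ℝ 1 (fun q : ℂ × E β => P.Nk k q.1 q.2) p :=
  ContDiffAt.sum fun k' _ => P.R_contDiffAt k' p hp

theorem wrT_zero (k : ℕ) (p : ℂ × E β) (hp : p.2 = 0) :
    (fun q : ℂ × E β => P.wrT k q.1 q.2) =ᶠ[𝓝 p] fun _ => 0 := by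
  have h : ‖p.2‖ < P.l (k + 1) := by rw [hp, norm_zero]; exact P.l_pos _
  filter_upwards [(continuous_snd.norm.tendsto p).eventually (gt_mem_nhds h)] with q hq
  have : P.sig k ‖q.2‖ = 0 := by
    by_contra h'
    exact lt_asymm hq (P.sig_ne_zero (norm_nonneg _) h').1
  ext c
  simp [Par.wrT, this]

end SmA

open SmA

namespace Par

variable {β : Type} [Fintype β] [DecidableEq β] (P : Par β)

omit [DecidableEq β] in
theorem keepT_smooth (k : ℕ) : ContDiff ℝ 1 (fun q : ℂ × E β => P.keepT k q.1 q.2) := by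
  rw [keepT_eq]
  exact ((SmA.ct_smooth _).mul ((P.dk_smooth k).comp contDiff_fst)).smul
    ((pr (β := β) (cls k)).contDiff.comp contDiff_snd)

omit [DecidableEq β] in
theorem keepT_der : ∃ C : ℝ, ∀ (k : ℕ) (p : ℂ × E β),
    ‖fderiv ℝ (fun q : ℂ × E β => P.keepT k q.1 q.2) p‖ ≤ C * P.eta k := by
  obtain ⟨C, hC0, hC⟩ := SmA.ct_der (β := β)
  refine ⟨5 + 4 * C, fun k p => ?_⟩
  have hη := P.eta_pos k
  have d1 : DifferentiableAt ℝ (fun q : ℂ × E β => ct (P.S k) ‖q.2‖) p :=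
    (SmA.ct_smooth _).differentiable one_ne_zero p
  have d2' := (P.dk_smooth k).differentiable one_ne_zero
  have d2 : DifferentiableAt ℝ (fun q : ℂ × E β => P.dk k q.1) p :=
    (d2' p.1).comp p differentiableAt_fst
  have h1 := norm_fderiv_smul_le (d1.fun_mul d2)
    (diff_clm (pr (β := β) (cls k)) (differentiableAt_snd (p := p)))
  have h2 := (norm_fderiv_smul_le d1 d2).trans (add_le_add (mul_le_mul_of_nonneg_left
    (norm_fderiv_fst_le d2' p) (abs_nonneg _)) le_rfl)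
  have h3 : ‖fderiv ℝ (fun q : ℂ × E β => pr (β := β) (cls k) q.2) p‖ ≤ 1 := by
    have h := norm_fderiv_clm_le (pr (β := β) (cls k)) (norm_pr_le _)
      (differentiableAt_snd (p := p))
    rw [fderiv_snd] at h
    exact h.trans (ContinuousLinearMap.norm_snd_le ..)
  have h4 : ‖pr (cls k) p.2‖ ≤ ‖p.2‖ := (norm_prL_le (cls k) p.2).trans_eq (one_mul _)
  have h5 := P.abs_dk_le k p.1
  have h6 : |ct (P.S k) ‖p.2‖| ≤ 1 := by rw [abs_of_nonneg (ct_nonneg _ _)]; exact ct_le_one _ _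
  have h7 : |ct (P.S k) ‖p.2‖| * ‖fderiv ℝ (P.dk k) p.1‖ * ‖p.2‖ ≤ P.eta k := by
    rcases le_total (2 * P.S k) ‖p.2‖ with h | h
    · rw [ct_eq_zero (P.S_pos k) h]; simpa using hη.le
    · refine le_trans ?_ (P.S_dk k p.1)
      calc _ ≤ 1 * ‖fderiv ℝ (P.dk k) p.1‖ * (2 * P.S k) := by gcongr
        _ = _ := by ring
  have h8 := hC _ (P.S_pos k) p
  rw [keepT_eq]
  refine h1.trans ?_
  calc _ ≤ 1 * (4 * P.eta k) * 1 + (|ct (P.S k) ‖p.2‖| * ‖fderiv ℝ (P.dk k) p.1‖ +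
        ‖fderiv ℝ (fun q : ℂ × E β => ct (P.S k) ‖q.2‖) p‖ * (4 * P.eta k)) * ‖p.2‖ := by
        rw [abs_mul]
        refine add_le_add (by gcongr) (mul_le_mul (h2.trans ?_) h4 (norm_nonneg _)
          (by positivity))
        gcongr
        exact h5
    _ ≤ _ := by nlinarith

theorem wrT_smooth (k : ℕ) : ContDiff ℝ 1 (fun q : ℂ × E β => P.wrT k q.1 q.2) := by
  refine contDiff_iff_contDiffAt.2 fun p => ?_
  by_cases hp : p.2 = 0
  · exact contDiffAt_const.congr_of_eventuallyEq (wrT_zero P k p hp)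
  rw [wrT_eq]
  refine ContDiffAt.sum fun b _ => ContDiffAt.fun_smul ?_ ?_
  · exact (((sig_smooth P k).mul contDiff_const).mul
      ((P.w_smooth k b).comp contDiff_fst)).contDiffAt
  · exact cd_clm (sg (b, cls k)) (Nk_smooth P k p hp)

theorem wrT_der : ∃ C : ℝ, ∀ (k : ℕ) (p : ℂ × E β),
    ‖fderiv ℝ (fun q : ℂ × E β => P.wrT k q.1 q.2) p‖ ≤ C * (P.eta k * (k + 2)) := by
  obtain ⟨C, hC0, hC⟩ := SmA.ct_der (β := β)
  obtain ⟨C', hC'⟩ := P.R_der
  refine ⟨P.K * (|C'| + (2 * C + 1) * P.K), fun k p => ?_⟩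
  have hη := P.eta_pos k
  by_cases hp : p.2 = 0
  · rw [(wrT_zero P k p hp).fderiv_eq, fderiv_fun_const]
    simp only [Pi.zero_apply, norm_zero]
    positivity
  have dN := (Nk_smooth P k p hp).differentiableAt one_ne_zero
  have n1 : ‖fderiv ℝ (fun q : ℂ × E β => P.Nk k q.1 q.2) p‖ ≤ (k + 2) * |C'| := by
    unfold Nk
    rw [fderiv_fun_sum fun k' _ => (P.R_contDiffAt k' p hp).differentiableAt one_ne_zero]
    refine (norm_sum_le _ _).trans ((Finset.sum_le_card_nsmul _ _ |C'|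
      fun k' _ => (hC' k' p hp).trans (le_abs_self _)).trans (le_of_eq ?_))
    simp
  have n2 : ‖P.Nk k p.1 p.2‖ ≤ (k + 2) * (P.K * ‖p.2‖) := by
    refine (norm_sum_le _ _).trans ((Finset.sum_le_card_nsmul _ _ _
      fun k' _ => P.norm_R_le k' p.1 p.2).trans (le_of_eq ?_))
    simp
  have ds : DifferentiableAt ℝ (fun q : ℂ × E β => P.sig k ‖q.2‖) p :=
    (sig_smooth P k).differentiable one_ne_zero p
  have s1 : |P.sig k ‖p.2‖| ≤ 1 := by
    rw [abs_of_nonneg (P.sig_nonneg k (norm_nonneg _))]; exact P.sig_le_one _ _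
  have s2 : ‖fderiv ℝ (fun q : ℂ × E β => P.sig k ‖q.2‖ * P.eta k) p‖ * ‖p.2‖ ≤
      P.eta k * (2 * C) := by
    rw [fderiv_mul_const ds, norm_smul, Real.norm_of_nonneg hη.le, mul_assoc]
    refine mul_le_mul_of_nonneg_left ?_ hη.le
    unfold sig
    rw [fderiv_fun_sub ((SmA.ct_smooth _).differentiable one_ne_zero p)
      ((SmA.ct_smooth _).differentiable one_ne_zero p)]
    have := mul_le_mul_of_nonneg_right (norm_sub_le
      (fderiv ℝ (fun q : ℂ × E β => ct (P.hi k) ‖q.2‖) p)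
      (fderiv ℝ (fun q : ℂ × E β => ct (P.l (k + 1)) ‖q.2‖) p)) (norm_nonneg p.2)
    linarith [hC _ (P.hi_pos k) p, hC _ (P.l_pos (k + 1)) p]
  have dw' : ∀ b, Differentiable ℝ (P.w k b) := fun b => (P.w_smooth k b).differentiable one_ne_zero
  have dw : ∀ b, DifferentiableAt ℝ (fun q : ℂ × E β => P.w k b q.1) p :=
    fun b => (dw' b p.1).comp p differentiableAt_fst
  have dv : ∀ b : β, DifferentiableAt ℝ (fun q : ℂ × E β => sg (b, cls k) (P.Nk k q.1 q.2)) p :=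
    fun b => diff_clm (sg (β := β) (b, cls k)) dN
  have key : ∀ b : β, ‖fderiv ℝ (fun q : ℂ × E β =>
      (P.sig k ‖q.2‖ * P.eta k * P.w k b q.1) • sg (b, cls k) (P.Nk k q.1 q.2)) p‖ ≤
      (|C'| + (2 * C + 1) * P.K) * (P.eta k * (k + 2)) := fun b => by
    have w1 : |P.w k b p.1| ≤ 1 := by rw [abs_of_nonneg (P.w_nonneg _ _ _)]; exact P.w_le _ _ _
    have h1 := norm_fderiv_smul_le ((ds.mul_const (P.eta k)).fun_mul (dw b)) (dv b)
    have h2 := (norm_fderiv_smul_le (ds.mul_const (P.eta k)) (dw b)).trans (add_le_add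
      (mul_le_mul_of_nonneg_left (norm_fderiv_fst_le (dw' b) p) (abs_nonneg _)) le_rfl)
    have h3 := (norm_fderiv_clm_le _ (norm_sg_le (b, cls k)) dN).trans n1
    have h4 : ‖sg (b, cls k) (P.Nk k p.1 p.2)‖ ≤ (k + 2) * (P.K * ‖p.2‖) :=
      ((norm_sgL_le (b, cls k) (P.Nk k p.1 p.2)).trans_eq (one_mul _)).trans n2
    have h7 : |P.sig k ‖p.2‖| * ‖fderiv ℝ (P.w k b) p.1‖ * ‖p.2‖ ≤ 1 := by
      by_cases h : P.sig k ‖p.2‖ = 0
      · simp [h]
      · have h' := (P.sig_ne_zero (norm_nonneg _) h).2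
        have h'' : ‖p.2‖ ≤ 2 * P.S k := by linarith [P.two_hi_le k, P.S_pos k]
        refine le_trans ?_ (P.S_w k b p.1)
        calc _ ≤ 1 * ‖fderiv ℝ (P.w k b) p.1‖ * (2 * P.S k) := by gcongr
          _ = _ := by ring
    refine h1.trans ?_
    calc _ ≤ 1 * P.eta k * 1 * ((k + 2) * |C'|) +
          (|P.sig k ‖p.2‖| * P.eta k * ‖fderiv ℝ (P.w k b) p.1‖ +
          ‖fderiv ℝ (fun q : ℂ × E β => P.sig k ‖q.2‖ * P.eta k) p‖ * 1) *
            ((k + 2) * (P.K * ‖p.2‖)) := by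
          rw [abs_mul, abs_mul, abs_of_pos hη]
          refine add_le_add (by gcongr) (mul_le_mul (h2.trans ?_) h4 (norm_nonneg _)
            (by positivity))
          rw [abs_mul, abs_of_pos hη]
          gcongr
          exact w1
      _ = P.eta k * (k + 2) * |C'| + (k + 2) * P.K *
          (P.eta k * (|P.sig k ‖p.2‖| * ‖fderiv ℝ (P.w k b) p.1‖ * ‖p.2‖) +
          ‖fderiv ℝ (fun q : ℂ × E β => P.sig k ‖q.2‖ * P.eta k) p‖ * ‖p.2‖) := by ring
      _ ≤ P.eta k * (k + 2) * |C'| + (k + 2) * P.K * (P.eta k * 1 + P.eta k * (2 * C)) := by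
          gcongr
      _ = _ := by ring
  rw [wrT_eq, fderiv_fun_sum fun b _ => ((ds.mul_const (P.eta k)).fun_mul (dw b)).fun_smul (dv b)]
  refine (norm_sum_le _ _).trans ((Finset.sum_le_card_nsmul _ _ _ fun b _ => key b).trans
    (le_of_eq ?_))
  simp only [Finset.card_univ, nsmul_eq_mul, Pre.K]
  ring

theorem Dm_smooth : ContDiff ℝ 1 (fun q : ℂ × E β => P.Dm q.1 q.2) := by
  obtain ⟨C, hC⟩ := P.keepT_der
  obtain ⟨C', hC'⟩ := P.wrT_der
  have hs : ∀ k, ContDiff ℝ 1 fun q : ℂ × E β => P.keepT k q.1 q.2 + P.wrT k q.1 q.2 :=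
    fun k => (P.keepT_smooth k).add (P.wrT_smooth k)
  have hd : ∀ k, Differentiable ℝ fun q : ℂ × E β => P.keepT k q.1 q.2 + P.wrT k q.1 q.2 :=
    fun k => (hs k).differentiable one_ne_zero
  have hb : ∀ k p, ‖fderiv ℝ (fun q : ℂ × E β => P.keepT k q.1 q.2 + P.wrT k q.1 q.2) p‖ ≤
      C * P.eta k + C' * (P.eta k * (k + 2)) := fun k p => by
    rw [fderiv_fun_add ((P.keepT_smooth k).differentiable one_ne_zero p)
      ((P.wrT_smooth k).differentiable one_ne_zero p)]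
    exact (norm_add_le _ _).trans (add_le_add (hC k p) (hC' k p))
  have hu : Summable fun k : ℕ => C * P.eta k + C' * (P.eta k * (k + 2)) := by
    have h0 : Summable fun k : ℕ => ((1 : ℝ) / 2) ^ k := summable_geometric_two
    have h1 : Summable fun k : ℕ => (k : ℝ) ^ 1 * ((1 : ℝ) / 2) ^ k :=
      summable_pow_mul_geometric_of_norm_lt_one 1 (by norm_num)
    refine ((h0.mul_left ((C + 2 * C') * P.Lam)).add (h1.mul_left (C' * P.Lam))).congr fun k => ?_
    simp only [Pre.eta, one_div, inv_pow]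
    ring
  have h0 : Summable fun k => P.keepT k (0 : ℂ × E β).1 (0 : ℂ × E β).2 +
      P.wrT k (0 : ℂ × E β).1 (0 : ℂ × E β).2 := by
    refine summable_zero.congr fun k => ?_
    have h1 := P.norm_keepT_le k 0 0
    have h2 := P.norm_wrT_le k 0 0
    rw [norm_zero, mul_zero, norm_le_zero_iff] at h1 h2
    simp [h1, h2]
  have h1 : ContDiff ℝ 1 fun q : ℂ × E β => ∑' k, (P.keepT k q.1 q.2 + P.wrT k q.1 q.2) := by
    refine contDiff_one_iff_fderiv.2 ⟨differentiable_tsum hu (fun k p => (hd k p).hasFDerivAt) hb, ?_⟩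
    rw [fderiv_tsum hu hd hb h0]
    exact continuous_tsum (fun k => (hs k).continuous_fderiv one_ne_zero) hu hb
  have h2 : ContDiff ℝ 1 fun q : ℂ × E β => P.topT q.2 := by
    have h3 : ContDiff ℝ 1 fun q : ℂ × E β => q.2 P.c0 :=
      ((EuclideanSpace.proj P.c0 : E β →L[ℂ] ℂ).restrictScalars ℝ).contDiff.comp contDiff_snd
    exact (sg P.c0).contDiff.comp (contDiff_const.mul (h3.pow 2))
  exact h1.sub ((SmA.ct_smooth _).smul h2)

end Par

end Crest.Agent.R123
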