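import Crest.Agent.R123.Desc
import Crest.Agent.R123.CtDer

set_option linter.unusedSectionVars false

open scoped BigOperators

noncomputable section

namespace Crest.Agent.R123

theorem sum_Icc_half (n : ℕ) : ∑ j ∈ Finset.Icc 1 n, (2⁻¹ : ℝ) ^ j ≤ 1 := by
  have : ∑ j ∈ Finset.Icc 1 n, (2⁻¹ : ℝ) ^ j = 1 - 2⁻¹ ^ n := by
    induction n with
    | zero => simp
    | succ n ih =>
      rw [Finset.sum_Icc_succ_top (by omega), ih]
      ring
  rw [this]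
  exact sub_le_self _ (by positivity)

namespace Par

variable {β : Type} [Fintype β] [DecidableEq β] (P : Par β)

omit [DecidableEq β] in
theorem norm_psi_le' {r : ℝ} (hr : 0 < r) (j : ℕ) (z : ℂ) {ρ : ℝ} (hρ : 0 < ρ) :
    ‖P.psi r j z ρ‖ ≤ ‖z‖ := by
  rw [psi, norm_mul]
  refine (mul_le_mul_of_nonneg_left (P.iter_norm_le j _) (norm_nonneg _)).trans_eq ?_
  rw [norm_div, mul_div_cancel₀]
  rw [norm_ne_zero_iff, Complex.ofReal_ne_zero]
  positivity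

omit [DecidableEq β] in
theorem psi_DB {r : ℝ} (hr : 0 < r) (j : ℕ) (c : β × Fin 2) {x : E β} (hx : x ≠ 0) :
    DB (fun x : E β => P.psi r j (x c) ‖x‖) x (2 * P.L0 ^ j + 1) := by
  have hρ := norm_pos_iff.2 hx
  have hL : 0 ≤ P.L0 ^ j := pow_nonneg (zero_le_one.trans P.one_le) j
  have hz := PiLp.norm_apply_le x c
  have h1 : DB (fun x : E β => ‖x‖ * r) x r := by
    simpa [abs_of_pos hr] using (DB.norm hx).mul (DB.const r x)
  have h2 := (DB.coord x c).mul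
    (DB.comp (f := fun x : E β => ‖x‖ * r)
      (DB.of_hasDerivAt (hasDerivAt_inv (mul_pos hρ hr).ne')) h1).ofReal
  have h3 := h1.ofReal.mul (DB.comp (g := P.d^[j])
    ⟨(P.iter_smooth j).differentiable one_ne_zero _, P.iter_der j _⟩ h2)
  simp only [psi, div_eq_mul_inv, ← Complex.ofReal_inv]
  refine h3.mono (add_le_add ?_ ?_)
  · simp only [Complex.norm_real, norm_neg, norm_inv, norm_pow, Real.norm_of_nonneg (mul_pos hρ hr).le]
    calc ‖x‖ * r * (P.L0 ^ j * (‖x c‖ * (((‖x‖ * r) ^ 2)⁻¹ * r) + (‖x‖ * r)⁻¹ * 1))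
        = P.L0 ^ j * (‖x c‖ / ‖x‖ + 1) := by field_simp
      _ ≤ P.L0 ^ j * (1 + 1) := by gcongr; exact div_le_one_of_le₀ hz hρ.le
      _ = _ := by ring
  · refine (mul_le_mul_of_nonneg_right (P.iter_norm_le j _) hr.le).trans ?_
    simp only [norm_mul, Complex.norm_real, norm_inv, Real.norm_of_nonneg hρ.le,
      Real.norm_of_nonneg hr.le]
    calc ‖x c‖ * (‖x‖ * r)⁻¹ * r = ‖x c‖ / ‖x‖ := by field_simp
      _ ≤ 1 := div_le_one_of_le₀ hz hρ.le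

theorem R_contDiffAt (k : ℕ) (p : ℂ × E β) (hp : p.2 ≠ 0) :
    ContDiffAt ℝ 1 (fun q : ℂ × E β => P.R k q.1 q.2) p := by
  have hn : ContDiffAt ℝ 1 (fun q : ℂ × E β => ((‖q.2‖ * P.gam k : ℝ) : ℂ)) p :=
    Complex.ofRealCLM.contDiff.contDiffAt.comp p
      ((contDiffAt_snd.norm ℂ hp).mul contDiffAt_const)
  refine ContDiffAt.mul (Complex.ofRealCLM.contDiff.comp
    (((ct_norm_contDiff _).sub (ct_norm_contDiff _)).comp contDiff_snd)).contDiffAt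
    (ContDiffAt.sum fun b _ => ContDiffAt.sum fun j _ => ContDiffAt.mul
      (Complex.ofRealCLM.contDiff.comp (((P.rd_smooth k b).comp
        (contDiff_fst.mul contDiff_const)).mul contDiff_const)).contDiffAt
      (hn.mul ((P.iter_smooth j).contDiffAt.comp p (ContDiffAt.mul ?_ (hn.inv ?_)))))
  · exact (((EuclideanSpace.proj (b, cls k) : E β →L[ℂ] ℂ).restrictScalars ℝ).contDiff.comp
      contDiff_snd).contDiffAt
  · exact Complex.ofReal_ne_zero.2 (mul_pos (norm_pos_iff.2 hp) (P.gam_pos k)).ne'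

theorem R_der : ∃ C : ℝ, ∀ (k : ℕ) (p : ℂ × E β), p.2 ≠ 0 →
    ‖fderiv ℝ (fun q : ℂ × E β => P.R k q.1 q.2) p‖ ≤ C := by
  obtain ⟨C, hC, hct⟩ := ct_DB (β := β)
  refine ⟨Fintype.card β * 4 + Fintype.card β * (2 * C), fun k p hp => ?_⟩
  have hρ := norm_pos_iff.2 hp
  have hL := P.one_le
  have hL2 := P.two_le_L
  have hτ := (((hct _ (P.S_pos k) _ hp).sub (hct _ (P.S_pos (k + 2)) _ hp)).comp (DB.snd p)).ofReal
  have hw : ∀ b j, ‖((P.rd k b (p.1 * P.a⁻¹ ^ j) * P.L⁻¹ ^ j : ℝ) : ℂ)‖ ≤ P.L⁻¹ ^ j := fun b j => by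
    rw [Complex.norm_real, Real.norm_of_nonneg (mul_nonneg (P.rd_nonneg ..) (by positivity))]
    exact mul_le_of_le_one_left (by positivity) (P.rd_le ..)
  have hψ : ∀ b j, ‖P.psi (P.gam k) j (p.2 (b, cls k)) ‖p.2‖‖ ≤ ‖p.2‖ := fun b j =>
    (P.norm_psi_le' (P.gam_pos k) j _ hρ).trans (PiLp.norm_apply_le _ _)
  have hrd : ∀ b j, DB (fun q : ℂ × E β => ((P.rd k b (q.1 * P.a⁻¹ ^ j) * P.L⁻¹ ^ j : ℝ) : ℂ)) p
      (P.L⁻¹ ^ j * (2 * P.S k)⁻¹) := fun b j => by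
    have h1 := DB.comp (g := P.rd k b) ⟨(P.rd_smooth k b).differentiable one_ne_zero _,
      (le_div_iff₀' (mul_pos two_pos (P.S_pos k))).2 (P.S_rd k b _)⟩
      ((DB.fst p).mul (DB.const (P.a⁻¹ ^ j) p))
    refine (h1.mul (DB.const (P.L⁻¹ ^ j) p)).ofReal.mono (le_of_eq ?_)
    simp [P.ha, abs_of_pos (by linarith : 0 < P.L)]
  have hS := DB.sum Finset.univ fun b _ => DB.sum (Finset.Icc 1 (P.Q k)) fun j _ =>
    (hrd b j).mul ((P.psi_DB (P.gam_pos k) j (b, cls k) hp).comp (DB.snd p))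
  have hLj : ∀ j : ℕ, P.L⁻¹ ^ j ≤ 2⁻¹ ^ j := fun j => by gcongr
  refine (hτ.mul hS).2.trans (add_le_add ?_ ?_)
  · by_cases h0 : P.tau k ‖p.2‖ = 0
    · rw [show ct (P.S k) ‖p.2‖ - ct (P.S (k + 2)) ‖p.2‖ = 0 from h0]
      simp
    have h1 := (P.tau_ne_zero hρ.le h0).2
    refine (mul_le_of_le_one_left hS.nonneg ?_).trans ?_
    · rw [Complex.norm_real]
      exact (Real.norm_of_nonneg (P.tau_nonneg k hρ.le)).trans_le (P.tau_le_one k _)
    refine (Finset.sum_le_card_nsmul _ _ 4 fun b _ => ?_).trans (by simp)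
    refine (Finset.sum_le_sum (g := fun j => 4 * 2⁻¹ ^ j) fun j _ => ?_).trans ?_
    · have h2 : 1 ≤ P.L0 ^ j := one_le_pow₀ hL
      have h3 : P.L⁻¹ ^ j * P.L0 ^ j = 2⁻¹ ^ j := by
        rw [← mul_pow, Pre.L]
        congr 1
        field_simp
      have h4 : ‖p.2‖ * (2 * P.S k)⁻¹ ≤ 1 := mul_inv_le_one_of_le₀ h1.le (hρ.le.trans h1.le)
      have h5 : 0 ≤ P.L⁻¹ ^ j := by positivity
      calc _ ≤ P.L⁻¹ ^ j * ((2 * P.L0 ^ j + 1) * 1) + ‖p.2‖ * (P.L⁻¹ ^ j * (2 * P.S k)⁻¹) := by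
            have := (hrd b j).nonneg
            gcongr
            exacts [hw b j, hψ b j]
        _ = 2 * (P.L⁻¹ ^ j * P.L0 ^ j) + P.L⁻¹ ^ j * (1 + ‖p.2‖ * (2 * P.S k)⁻¹) := by ring
        _ ≤ 2 * 2⁻¹ ^ j + 2⁻¹ ^ j * (1 + 1) := by
            rw [h3]
            have := P.S_pos k
            gcongr
        _ = _ := by ring
    · rw [← Finset.mul_sum]
      linarith [sum_Icc_half (P.Q k)]
  · have h1 : ‖∑ b : β, ∑ j ∈ Finset.Icc 1 (P.Q k), ((P.rd k b (p.1 * P.a⁻¹ ^ j) * P.L⁻¹ ^ j : ℝ) : ℂ) *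
        P.psi (P.gam k) j (p.2 (b, cls k)) ‖p.2‖‖ ≤ Fintype.card β * ‖p.2‖ := by
      refine (norm_sum_le _ _).trans ((Finset.sum_le_card_nsmul _ _ ‖p.2‖ fun b _ => ?_).trans (by simp))
      refine (norm_sum_le_of_le _ (n := fun j => 2⁻¹ ^ j * ‖p.2‖) fun j _ => ?_).trans ?_
      · rw [norm_mul]
        exact mul_le_mul ((hw b j).trans (hLj j)) (hψ b j) (norm_nonneg _) (by positivity)
      · rw [← Finset.sum_mul]
        exact mul_le_of_le_one_left hρ.le (sum_Icc_half _)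
    refine (mul_le_mul_of_nonneg_right h1 hτ.nonneg).trans_eq ?_
    field_simp
    ring

end Par

end Crest.Agent.R123
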