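import Crest.Agent.R123.Basic

open scoped BigOperators

noncomputable section

namespace Crest.Agent.R123

namespace Pre

variable {β : Type} [Fintype β] (P : Pre β)

open Classical in
/-- number of visits to the zones `{h l ≠ 0}`, `l ≤ k`, along an orbit segment -/
theorem count_visits (k n : ℕ) (u : ℂ) (hu : ‖u‖ = 1) :
    ∑ i ∈ Finset.range n,
        ((Finset.range (k + 1)).filter (fun l => P.h l (u * P.a ^ i) ≠ 0)).card ≤
      P.K * (2 * n + k + 1) := by
  have hn : ∀ i, ‖u * P.a ^ i‖ = 1 := fun i => by simp [hu, P.ha]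
  have h1 : ∀ l b, ((Finset.range n).filter fun i => P.rd l b (u * P.a ^ i) ≠ 0).card ≤
      n / 2 ^ l + 1 := by
    intro l b
    have hQ : 0 < P.Q l := P.one_le_Q l
    refine le_trans ?_ (Nat.add_le_add_right (Nat.div_le_div_left (P.Qpow l) (by positivity)) 1)
    rw [← Finset.card_range (n / P.Q l + 1)]
    have key : ∀ i i', i < i' → P.rd l b (u * P.a ^ i) ≠ 0 → P.rd l b (u * P.a ^ i') ≠ 0 →
        i / P.Q l ≠ i' / P.Q l := by
      intro i i' hii h h' he
      obtain ⟨j, rfl⟩ := Nat.exists_eq_add_of_lt hii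
      have hj : j + 1 < P.Q l := by
        by_contra! hh
        have : (i + P.Q l) / P.Q l ≤ (i + j + 1) / P.Q l := Nat.div_le_div_right (by omega)
        rw [Nat.add_div_right _ hQ] at this
        omega
      have := P.rd_sep l b _ (j + 1) (hn i) (by omega) hj h
      rw [mul_assoc, ← pow_add, ← add_assoc] at this
      exact h' this
    refine Finset.card_le_card_of_injOn (fun i => i / P.Q l) (fun i hi => ?_) fun i hi i' hi' he => ?_
    · have := Finset.mem_range.1 (Finset.mem_filter.1 hi).1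
      exact Finset.mem_range.2 (Nat.lt_succ_of_le (Nat.div_le_div_right this.le))
    · have a1 := (Finset.mem_filter.1 hi).2
      have a2 := (Finset.mem_filter.1 hi').2
      rcases lt_trichotomy i i' with h | h | h
      · exact (key i i' h a1 a2 he).elim
      · exact h
      · exact (key i' i h a2 a1 he.symm).elim
  have h2 : ∀ l, ((Finset.range n).filter fun i => P.h l (u * P.a ^ i) ≠ 0).card ≤
      P.K * (n / 2 ^ l + 1) := by
    intro l
    refine le_trans (Finset.card_le_card ?_) (Finset.card_biUnion_le_card_mul Finset.univ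
      (fun b => (Finset.range n).filter fun i => P.rd l b (u * P.a ^ i) ≠ 0) _ fun b _ => h1 l b)
    intro i hi
    obtain ⟨a1, a2⟩ := Finset.mem_filter.1 hi
    obtain ⟨b, hb⟩ := P.cover l _ (hn i) a2
    refine Finset.mem_biUnion.2 ⟨b, Finset.mem_univ b, Finset.mem_filter.2 ⟨a1, ?_⟩⟩
    rw [P.rd_w l b _ (by rw [hb]; exact one_ne_zero)]
    exact one_ne_zero
  simp only [Finset.card_filter] at h2 ⊢
  rw [Finset.sum_comm]
  refine (Finset.sum_le_sum fun l _ => h2 l).trans ?_
  rw [← Finset.mul_sum, Finset.sum_add_distrib]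
  refine Nat.mul_le_mul_left _ ?_
  have := Nat.geom_sum_le (b := 2) le_rfl n (k + 1)
  simp only [Finset.sum_const, Finset.card_range, smul_eq_mul, mul_one]
  omega

end Pre

namespace Orb

variable {β : Type} [Fintype β] [DecidableEq β] {P : Par β} (o : Orb P)

theorem th_nonneg (k s m : ℕ) : 0 ≤ o.th k s m := by
  have hL := P.two_le_L
  induction m with
  | zero => exact le_rfl
  | succ m ih =>
    rw [th]
    split_ifs
    · exact mul_nonneg (div_nonneg (P.lam_pos _ _).le (by linarith)) ih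
    · exact mul_nonneg (div_nonneg (P.eta_pos _).le (by linarith)) (le_max_of_le_left ih)

open Classical in
theorem th_step (k s m : ℕ) : 2 * 4 ^ P.K * o.th k s m ≤
    2 ^ ((Finset.range (k + 1)).filter (fun l => P.h l (o.u (s + m)) ≠ 0)).card *
      o.th k s (m + 1) := by
  have hL := P.two_le_L
  have t0 := o.th_nonneg k s m
  have hLam : P.Lam / (2 * P.L) = 2 * 4 ^ P.K := by
    rw [Pre.Lam]
    field_simp
    norm_num
  rw [th]
  split_ifs with h
  · rw [← mul_assoc, ← hLam]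
    refine mul_le_mul_of_nonneg_right ?_ t0
    rw [← mul_div_assoc]
    refine div_le_div_of_nonneg_right ?_ (by linarith)
    rw [Pre.lam, mul_left_comm]
    refine le_mul_of_one_le_right P.Lam_pos.le ?_
    rw [Finset.card_filter, Finset.sum_range_succ, if_neg (by simp [h]), add_zero,
      ← Finset.prod_pow_eq_pow_sum, ← Finset.prod_mul_distrib]
    refine Finset.prod_induction _ (fun x : ℝ => 1 ≤ x)
      (fun a b ha hb => one_le_mul_of_one_le_of_one_le ha hb) le_rfl fun l _ => ?_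
    have := P.h_le l (o.u (s + m))
    split_ifs with hl
    · linarith
    · simp [not_not.1 hl]
  · rw [Finset.filter_true_of_mem (fun l hl => by
      rcases Nat.lt_succ_iff_lt_or_eq.1 (Finset.mem_range.1 hl) with h' | h'
      · rw [P.h_eq_one_of_lt h' h]; exact one_ne_zero
      · rwa [h']), Finset.card_range, ← mul_assoc, ← hLam]
    have e : 2 ^ (k + 1) * (P.eta k / (2 * P.L)) = 2 * (P.Lam / (2 * P.L)) := by
      rw [Pre.eta, pow_succ]
      field_simp
    rw [e]
    have : 0 ≤ P.Lam / (2 * P.L) := div_nonneg P.Lam_pos.le (by linarith)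
    exact mul_le_mul (by linarith) (le_max_left _ _) t0 (by linarith)

/-- growth of the potential -/
theorem th_lower (k s M : ℕ) (hs : P.h k (o.u s) ≠ 0)
    (hup : ∀ m < M, o.ρ (s + m + 1) ≤ P.Z * o.ρ (s + m)) (m' m : ℕ) (h1 : m' ≤ m) (h2 : m ≤ M)
    (h3 : 0 < m) : P.gam k * 2 ^ (m - m') * o.ρ (s + m') ≤ o.th k s m := by
  classical
  have hZ := P.two_le_Z
  have hL := P.two_le_L
  have hun : ∀ t, ‖o.u t‖ = 1 := fun t => by simp [u, o.hu0, P.ha]
  have huu : ∀ t j, o.u t * P.a ^ j = o.u (t + j) := fun t j => by rw [u, u, mul_assoc, pow_add]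
  obtain ⟨v, hv1, hv2, hv3, hv4⟩ : ∃ v, v < m ∧ v ≤ m' ∧ m' ≤ v + P.Q k ∧
      P.h k (o.u (s + v)) ≠ 0 := by
    rcases le_or_gt m' (P.Q k) with h | h
    · exact ⟨0, h3, Nat.zero_le _, by omega, hs⟩
    · obtain ⟨j, hj, hj'⟩ := P.visit k _ (hun (s + (m' - P.Q k)))
      refine ⟨m' - P.Q k + j, by omega, by omega, by omega, ?_⟩
      rw [huu, add_assoc] at hj'
      rw [hj']
      exact one_ne_zero
  have hρ : ∀ j, v + j ≤ M → o.ρ (s + v + j) ≤ P.Z ^ j * o.ρ (s + v) := fun j hj => by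
    induction j with
    | zero => simp
    | succ j ih =>
      have := hup (v + j) (by omega)
      rw [← add_assoc] at this
      rw [← add_assoc, pow_succ', mul_assoc]
      exact this.trans (mul_le_mul_of_nonneg_left (ih (by omega)) (by linarith))
  let nn : ℕ → ℕ := fun i =>
    ((Finset.range (k + 1)).filter (fun l => P.h l (o.u (s + v + 1) * P.a ^ i) ≠ 0)).card
  have hit : ∀ j, (2 * 4 ^ P.K) ^ j * o.th k s (v + 1) ≤
      2 ^ (∑ i ∈ Finset.range j, nn i) * o.th k s (v + 1 + j) := fun j => by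
    induction j with
    | zero => simp
    | succ j ih =>
      have := o.th_step k s (v + 1 + j)
      rw [show s + (v + 1 + j) = s + v + 1 + j by omega, ← huu] at this
      rw [pow_succ', mul_assoc, Finset.sum_range_succ, pow_add, mul_assoc _ (2 ^ nn j), ← add_assoc]
      refine (mul_le_mul_of_nonneg_left ih (by positivity : (0 : ℝ) ≤ 2 * 4 ^ P.K)).trans ?_
      rw [mul_left_comm]
      exact mul_le_mul_of_nonneg_left this (by positivity)
  obtain ⟨j, rfl⟩ : ∃ j, m = v + 1 + j := ⟨m - (v + 1), by omega⟩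
  obtain ⟨i, rfl⟩ : ∃ i, m' = v + i := ⟨m' - v, by omega⟩
  have c1 := P.count_visits k j _ (hun (s + v + 1))
  have t0 := o.th_nonneg k s (v + 1 + j)
  have ρ0 : 0 ≤ o.ρ (s + v) := norm_nonneg _
  have r0 := P.r1_pos k
  have a1 : 2 ^ j * o.th k s (v + 1) ≤ 2 ^ (P.K * (k + 1)) * o.th k s (v + 1 + j) := by
    have e1 : (2 : ℝ) ^ (∑ i ∈ Finset.range j, nn i) ≤ (4 ^ P.K) ^ j * 2 ^ (P.K * (k + 1)) := by
      refine (pow_le_pow_right₀ (by norm_num) c1).trans_eq ?_
      rw [show (4 : ℝ) = 2 ^ 2 by norm_num, ← pow_mul, ← pow_mul, ← pow_add]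
      congr 1
      ring
    have := (hit j).trans (mul_le_mul_of_nonneg_right e1 t0)
    rw [mul_pow] at this
    refine le_of_mul_le_mul_left (a := ((4 : ℝ) ^ P.K) ^ j) ?_ (by positivity)
    linarith
  have a2 : 2 * (P.r1 k * o.ρ (s + v)) ≤ 2 ^ k * o.th k s (v + 1) := by
    rw [th, if_neg hv4, ← mul_assoc (2 ^ k)]
    have e : 2 ^ k * (P.eta k / (2 * P.L)) = 2 * 4 ^ P.K := by
      rw [Pre.eta, Pre.Lam]
      field_simp
      norm_num
    rw [e]
    have : (1 : ℝ) ≤ 4 ^ P.K := one_le_pow₀ (by norm_num)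
    exact mul_le_mul (by linarith) (le_max_right _ _) (by positivity) (by positivity)
  have a3 : o.ρ (s + (v + i)) ≤ P.Z ^ P.Q (k + 2) * o.ρ (s + v) := by
    rw [← add_assoc]
    refine (hρ i (by omega)).trans (mul_le_mul_of_nonneg_right (pow_le_pow_right₀ (by linarith) ?_) ρ0)
    have := P.Qmono (show k ≤ k + 2 by omega)
    omega
  have a4 : (2 : ℝ) ^ (v + 1 + j - (v + i)) ≤ 2 * 2 ^ j := by
    rw [← pow_succ']
    exact pow_le_pow_right₀ (by norm_num) (by omega)
  have a5 : P.gam k * P.Z ^ P.Q (k + 2) * (2 ^ (P.K * (k + 1)) * 2 ^ k) ≤ P.r1 k := by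
    have e : P.r1 k = P.gam k * P.Z ^ P.Q (k + 2) * P.Z ^ (P.K * (k + 1) + k) := by
      rw [Pre.gam, Pre.r1, show P.K * (k + 1) + k + 2 * P.Q (k + 2) + 1 =
        (P.Q (k + 2) + 1) + P.Q (k + 2) + (P.K * (k + 1) + k) by ring, pow_add, pow_add]
      field_simp
      ring
    rw [e, ← pow_add]
    have := P.gam_pos k
    gcongr
  have g0 := P.gam_pos k
  refine le_of_mul_le_mul_left ?_ (show (0 : ℝ) < 2 ^ (P.K * (k + 1)) * 2 ^ k by positivity)
  calc 2 ^ (P.K * (k + 1)) * 2 ^ k * (P.gam k * 2 ^ (v + 1 + j - (v + i)) * o.ρ (s + (v + i)))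
      ≤ 2 ^ (P.K * (k + 1)) * 2 ^ k * (P.gam k * (2 * 2 ^ j) *
          (P.Z ^ P.Q (k + 2) * o.ρ (s + v))) := by
        have : 0 ≤ o.ρ (s + (v + i)) := norm_nonneg _
        gcongr
    _ = 2 ^ j * (2 * (P.gam k * P.Z ^ P.Q (k + 2) * (2 ^ (P.K * (k + 1)) * 2 ^ k) *
          o.ρ (s + v))) := by ring
    _ ≤ 2 ^ j * (2 * (P.r1 k * o.ρ (s + v))) := by gcongr
    _ ≤ 2 ^ j * (2 ^ k * o.th k s (v + 1)) := by gcongr
    _ = 2 ^ k * (2 ^ j * o.th k s (v + 1)) := by ring
    _ ≤ 2 ^ k * (2 ^ (P.K * (k + 1)) * o.th k s (v + 1 + j)) := by gcongr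
    _ = _ := by ring

end Orb

end Crest.Agent.R123
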