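import Crest.Agent.R123.Step
import Crest.Agent.R123.Read
import Crest.Agent.R123.Theta

open scoped BigOperators

noncomputable section

namespace Crest.Agent.R123

namespace Orb

variable {β : Type} [Fintype β] [DecidableEq β] {P : Par β} (o : Orb P)

theorem rho_nonneg (t : ℕ) : 0 ≤ o.ρ t := norm_nonneg _

theorem rho_pow {k s t : ℕ} (hb : ∀ t', s ≤ t' → t' < t → o.ρ t' ≤ P.hi k) (t' : ℕ)
    (h1 : s ≤ t') (j : ℕ) (h2 : t' + j ≤ t) : o.ρ (t' + j) ≤ P.Z ^ j * o.ρ t' := by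
  induction j with
  | zero => simp
  | succ j ih =>
    have hZ := P.toPre.two_le_Z
    have h3 := o.rho_step (t' + j)
      ((hb _ (by omega) (by omega)).trans (P.hi_anti (Nat.zero_le k)))
    have h4 := ih (by omega)
    calc o.ρ (t' + (j + 1)) = o.ρ (t' + j + 1) := rfl
      _ ≤ P.Z * o.ρ (t' + j) := h3
      _ ≤ P.Z * (P.Z ^ j * o.ρ t') := by gcongr
      _ = P.Z ^ (j + 1) * o.ρ t' := by ring

/-- the scale condition for witnesses -/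
theorem wit_scale {k s t : ℕ} {ω : ℂ} (hb : ∀ t', s ≤ t' → t' < t → o.ρ t' ≤ P.hi k)
    (hlow : ∀ t', s ≤ t' → t' ≤ t → P.gam k * o.ρ t' ≤ o.ρ t)
    (hlow' : ∀ t', s ≤ t' → t' ≤ t → 2 * P.l (k + 1) ≤ o.ρ t')
    {b : β} {k' j : ℕ} (hw : o.Wit s ω t b k' j) :
    2 * P.S (k' + 2) ≤ o.ρ t ∧ o.ρ t ≤ P.S k' ∧ k' ≤ k + 1 := by
  obtain ⟨hj1, hj2, hj3, hsig, -, -, -⟩ := hw
  obtain ⟨hs1, hs2⟩ := P.sig_ne_zero (o.rho_nonneg _) hsig
  have hZ := P.toPre.two_le_Z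
  have hk1 : k ≤ k' + 1 := by
    by_contra hc
    have h1 := hb (t - j) (by omega) (by omega)
    have h2 : P.hi k ≤ P.hi (k' + 2) := P.hi_anti (by omega)
    have h3 := P.two_hi_le (k' + 2)
    have h4 := P.two_S_le (k' + 1)
    have h5 := P.hi_pos (k' + 2)
    linarith
  have hk2 : k' ≤ k + 1 := by
    by_contra hc
    have h1 := hlow' (t - j) (by omega) (by omega)
    have h2 : P.hi k' ≤ P.hi (k + 2) := P.hi_anti (by omega)
    have h3 := P.two_hi_le (k + 2)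
    have h4 := P.two_S_le (k + 1)
    have h5 := P.hi_pos (k + 2)
    have h6 := P.l_pos (k + 1)
    linarith
  refine ⟨?_, ?_, hk2⟩
  · have h1 := hlow (t - j) (by omega) (by omega)
    have h2 := P.S_l (k' + 1)
    have h3 : P.gam (k' + 1) ≤ P.gam k := P.toPre.gam_anti hk1
    have h4 := P.toPre.gam_pos (k' + 1)
    have h5 := P.l_pos (k' + 1)
    calc 2 * P.S (k' + 2) ≤ P.gam (k' + 1) * P.l (k' + 1) := h2
      _ ≤ P.gam k * o.ρ (t - j) := by gcongr; linarith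
      _ ≤ o.ρ t := h1
  · have h1 := o.rho_pow hb (t - j) (by omega) j (by omega)
    rw [show t - j + j = t by omega] at h1
    have h2 := P.hi_S k'
    have h3 := P.hi_pos k'
    have h4 : P.Z ^ j ≤ P.Z ^ P.Q k' := pow_le_pow_right₀ (by linarith) hj2
    calc o.ρ t ≤ P.Z ^ j * o.ρ (t - j) := h1
      _ ≤ P.Z ^ P.Q k' * (2 * P.hi k') := by
          gcongr
          exact o.rho_nonneg _
      _ ≤ P.Z ^ P.Q k' * (P.Z * P.hi k') := by gcongr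
      _ = P.S k' := by rw [← h2]; ring

/-- reading a valid state -/
theorem valid_read {k s t : ℕ} {ω : ℂ} (hω : ‖ω‖ = 1) (hv : o.Valid s ω t)
    (hb : ∀ t', s ≤ t' → t' < t → o.ρ t' ≤ P.hi k)
    (hlow : ∀ t', s ≤ t' → t' ≤ t → P.gam k * o.ρ t' ≤ o.ρ t)
    (hlow' : ∀ t', s ≤ t' → t' ≤ t → 2 * P.l (k + 1) ≤ o.ρ t') (hst : s ≤ t) :
    o.x t ≠ 0 ∧ (∀ b π, o.Ok s ω t b π) ∧
    ∃ n : ℝ, 0 ≤ n ∧ P.N (o.u t) (o.x t) = (n : ℂ) * ω ^ (2 ^ (t - s)) ∧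
      (P.Z ^ (P.Q (k + 1) + 1))⁻¹ * o.ρ t ≤ n ∧
      ∀ b j, o.Wit s ω t b k j → P.gam k * o.ρ t ≤ ‖o.x t (b, cls k)‖ →
        (P.L⁻¹) ^ j * ‖o.x t (b, cls k)‖ ≤ n := by
  have hpos : 0 < o.ρ t := by
    have := hlow' t hst le_rfl
    have := P.l_pos (k + 1)
    linarith
  have hx0 : o.x t ≠ 0 := norm_pos_iff.mp hpos
  have hsrc : ∀ b k' j, o.Wit s ω t b k' j →
      P.Src (o.u t) (ω ^ (2 ^ (t - s))) (o.x t) b k' j := fun b k' j hw => by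
    obtain ⟨h1, h2, -⟩ := o.wit_scale hb hlow hlow' hw
    exact Wit.src o hω hw h1 h2
  refine ⟨hx0, fun b π => ?_, ?_⟩
  · rcases hv b π with h | ⟨k', j, hc, hw⟩
    · left; rw [h, mul_zero]
    · obtain ⟨h1, h2, -⟩ := o.wit_scale hb hlow hlow' hw
      exact Or.inr ⟨k', j, hc, hw, h1, h2⟩
  obtain ⟨n, hn, hN, hbig⟩ := P.read (o.u t) (ω ^ (2 ^ (t - s))) (o.norm_u t) (o.x t) hx0
    (fun b π => (hv b π).imp id fun ⟨k', j, hc, hw⟩ => ⟨k', j, hc, hsrc b k' j hw⟩)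
  refine ⟨n, hn, hN, ?_, fun b j hw hg => hbig b k j (hsrc b k j hw) hg⟩
  obtain ⟨⟨b, π⟩, hc⟩ := P.toPre.exists_big (o.x t)
  have hZ := P.toPre.two_le_Z
  have hZ0 : 0 < P.Z := by linarith
  have hρ : o.ρ t = ‖o.x t‖ := rfl
  rcases hv b π with h | ⟨k', j, hc', hw⟩
  · rw [h, norm_zero, mul_zero] at hc
    linarith
  subst hc'
  obtain ⟨-, -, hk⟩ := o.wit_scale hb hlow hlow' hw
  have h1 : P.Z⁻¹ * o.ρ t ≤ ‖o.x t (b, cls k')‖ := by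
    rw [inv_mul_le_iff₀ hZ0]; linarith
  have h2 := hbig b k' j (hsrc b k' j hw) (by
    have := P.toPre.gam_le k'
    calc P.gam k' * ‖o.x t‖ ≤ P.Z⁻¹ * o.ρ t := by rw [hρ]; gcongr
      _ ≤ _ := h1)
  have hL := P.toPre.two_le_L
  have hLZ : P.L ≤ P.Z := by
    have h3 := P.toPre.Z_ge
    have h4 := P.toPre.Lam_ge
    have h5 : (1 : ℝ) ≤ P.K := by exact_mod_cast P.toPre.one_le_K
    have h6 := P.toPre.Lam_pos
    nlinarith
  have h3 : (P.Z ^ P.Q (k + 1))⁻¹ ≤ (P.L⁻¹) ^ j := by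
    rw [inv_pow]
    apply inv_anti₀ (by positivity)
    calc P.L ^ j ≤ P.Z ^ j := by gcongr
      _ ≤ P.Z ^ P.Q (k + 1) :=
        pow_le_pow_right₀ (by linarith) (hw.2.1.trans (P.Qmono hk))
  calc (P.Z ^ (P.Q (k + 1) + 1))⁻¹ * o.ρ t = (P.Z ^ P.Q (k + 1))⁻¹ * (P.Z⁻¹ * o.ρ t) := by
        rw [pow_succ, mul_inv, mul_assoc]
    _ ≤ (P.L⁻¹) ^ j * ‖o.x t (b, cls k')‖ := by gcongr
    _ ≤ n := h2

theorem stage_aux {k s : ℕ} (hs : o.Start k s) {ω : ℂ} (hω : ‖ω‖ = 1)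
    (hN : P.N (o.u s) (o.x s) = (‖P.N (o.u s) (o.x s)‖ : ℂ) * ω) (M : ℕ)
    (hb : ∀ t', s ≤ t' → t' < s + M → o.ρ t' ≤ P.hi k) (m : ℕ) (hm : m < M) :
    o.Valid s ω (s + m + 1) ∧ ∃ b j, o.Wit s ω (s + m + 1) b k j ∧
      o.th k s (m + 1) ≤ (P.L⁻¹) ^ j * ‖o.x (s + m + 1) (b, cls k)‖ := by
  obtain ⟨hs1, hs2, hs3, hs4⟩ := hs
  have hk1 : P.h k (o.u s) = 1 := P.nest k _ (by rw [hs1]; exact one_ne_zero)
  have hk0 : P.h k (o.u s) ≠ 0 := by rw [hk1]; exact one_ne_zero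
  have hZ := P.toPre.two_le_Z
  have hL := P.toPre.two_le_L
  have hg := P.toPre.gam_pos k
  have hg1 : P.gam k ≤ 1 := (P.toPre.gam_le k).trans (inv_le_one_of_one_le₀ (by linarith))
  have hl := P.l_pos (k + 1)
  have hA : P.gam k * P.A k = 2 * P.l (k + 1) := by
    unfold Par.A; field_simp
  have hA0 : 0 < P.A k := by unfold Par.A; positivity
  have hAs : 2 * P.l (k + 1) ≤ o.ρ s := by nlinarith
  have hhi : P.hi k ≤ P.hi 0 := P.hi_anti (Nat.zero_le k)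
  have hup : ∀ m < M, o.ρ (s + m + 1) ≤ P.Z * o.ρ (s + m) := fun m hm =>
    o.rho_step _ ((hb _ (by omega) (by omega)).trans hhi)
  have heta := P.toPre.eta_pos k
  have hr := P.toPre.r1_pos k
  induction m using Nat.strong_induction_on with
  | _ m ih =>
  have hρm : o.ρ (s + m) ≤ P.hi k := hb _ (by omega) (by omega)
  -- the common write step
  have write : o.x (s + m) ≠ 0 → 2 * P.l (k + 1) ≤ o.ρ (s + m) → (∀ b π, o.Ok s ω (s + m) b π) →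
      P.h k (o.u (s + m)) ≠ 0 → ∀ n : ℝ, 0 ≤ n →
      P.N (o.u (s + m)) (o.x (s + m)) = (n : ℂ) * ω ^ (2 ^ (s + m - s)) →
      o.th k s m ≤ n → P.r1 k * o.ρ (s + m) ≤ n →
      ∃ b j, o.Wit s ω (s + m + 1) b k j ∧
        o.th k s (m + 1) ≤ (P.L⁻¹) ^ j * ‖o.x (s + m + 1) (b, cls k)‖ := by
    intro hx hlo hok hh n hn hNn h1 h2
    obtain ⟨b, hbw⟩ := P.cover k _ (o.norm_u (s + m)) hh
    obtain ⟨hw, hge⟩ := o.track_write hω (by omega) hx (hρm.trans hhi) hn hNn (hok b (cls k))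
      (P.sig_eq_one hlo hρm) hbw
    refine ⟨b, 1, hw, ?_⟩
    rw [th, if_neg hh]
    calc P.eta k / (2 * P.L) * max (o.th k s m) (P.r1 k * o.ρ (s + m))
        ≤ P.eta k / (2 * P.L) * n := by gcongr; exact max_le h1 h2
      _ = (P.L⁻¹) ^ 1 * (P.eta k / 2 * n) := by field_simp
      _ ≤ _ := by gcongr
  rcases Nat.eq_zero_or_pos m with rfl | hm0
  · have hx : o.x (s + 0) ≠ 0 := norm_pos_iff.mp (by change 0 < o.ρ s; linarith)
    have hok : ∀ b π, o.Ok s ω (s + 0) b π := fun b π => by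
      left
      have h2 := P.two_S_le (k + 1)
      have h3 := P.keep_eq_zero (k := k) (ρ := o.ρ s) (by linarith) hs1 π
      change (P.keep (o.u s) (o.ρ s) π : ℂ) * _ = 0
      rw [h3]
      simp
    have hN' : P.N (o.u (s + 0)) (o.x (s + 0)) =
        (‖P.N (o.u s) (o.x s)‖ : ℂ) * ω ^ (2 ^ (s + 0 - s)) := by simpa using hN
    exact ⟨o.valid_step (by omega) hx (hρm.trans hhi) (norm_nonneg _) hN' hok,
      write hx hAs hok hk0 _ (norm_nonneg _) hN' (by simp [th]) hs4⟩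
  -- lower bounds from the previous steps
  have hth : ∀ m₁, 0 < m₁ → m₁ ≤ m → o.th k s m₁ ≤ o.ρ (s + m₁) := by
    intro m₁ h1 h2
    obtain ⟨m₂, rfl⟩ : ∃ m₂, m₁ = m₂ + 1 := ⟨m₁ - 1, by omega⟩
    obtain ⟨-, b, j, -, hle⟩ := ih m₂ (by omega) (by omega)
    refine hle.trans ?_
    have h3 : (P.L⁻¹) ^ j ≤ 1 :=
      pow_le_one₀ (by positivity) (inv_le_one_of_one_le₀ (by linarith))
    have h4 : ‖o.x (s + m₂ + 1) (b, cls k)‖ ≤ o.ρ (s + (m₂ + 1)) :=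
      PiLp.norm_apply_le (o.x (s + m₂ + 1)) (b, cls k)
    calc _ ≤ 1 * ‖o.x (s + m₂ + 1) (b, cls k)‖ := by gcongr
      _ ≤ _ := by rw [one_mul]; exact h4
  have hlow0 : ∀ m' m₁, m' ≤ m₁ → 0 < m₁ → m₁ ≤ m → P.gam k * o.ρ (s + m') ≤ o.th k s m₁ := by
    intro m' m₁ h1 h2 h3
    refine le_trans ?_ (o.th_lower k s M hk0 hup m' m₁ h1 (by omega) h2)
    have h4 : (1 : ℝ) ≤ 2 ^ (m₁ - m') := one_le_pow₀ (by norm_num)
    have h5 := o.rho_nonneg (s + m')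
    calc P.gam k * o.ρ (s + m') = P.gam k * 1 * o.ρ (s + m') := by ring
      _ ≤ _ := by gcongr
  have hlow : ∀ t', s ≤ t' → t' ≤ s + m → P.gam k * o.ρ t' ≤ o.ρ (s + m) := by
    intro t' h1 h2
    obtain ⟨m', rfl⟩ : ∃ m', t' = s + m' := ⟨t' - s, by omega⟩
    exact (hlow0 m' m (by omega) hm0 le_rfl).trans (hth m hm0 le_rfl)
  have hlow' : ∀ t', s ≤ t' → t' ≤ s + m → 2 * P.l (k + 1) ≤ o.ρ t' := by
    intro t' h1 h2
    obtain ⟨m', rfl⟩ : ∃ m', t' = s + m' := ⟨t' - s, by omega⟩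
    rcases Nat.eq_zero_or_pos m' with rfl | h3
    · exact hAs
    · have h4 := (hlow0 0 m' (by omega) h3 (by omega)).trans (hth m' h3 (by omega))
      have h5 : P.gam k * P.A k ≤ P.gam k * o.ρ (s + 0) := by gcongr; exact hs2
      linarith
  obtain ⟨m₂, rfl⟩ : ∃ m₂, m = m₂ + 1 := ⟨m - 1, by omega⟩
  obtain ⟨hv, b, j, hw, hle⟩ := ih m₂ (by omega) (by omega)
  have hb' : ∀ t', s ≤ t' → t' < s + (m₂ + 1) → o.ρ t' ≤ P.hi k :=
    fun t' h1 h2 => hb t' h1 (by omega)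
  obtain ⟨hx, hok, n, hn, hNn, hn1, hn2⟩ := o.valid_read (k := k) hω hv hb' hlow hlow' (by omega)
  refine ⟨o.valid_step (by omega) hx (hρm.trans hhi) hn hNn hok, ?_⟩
  have hLj : (P.L⁻¹) ^ j ≤ 1 :=
    pow_le_one₀ (by positivity) (inv_le_one_of_one_le₀ (by linarith))
  have hthx : o.th k s (m₂ + 1) ≤ ‖o.x (s + m₂ + 1) (b, cls k)‖ := by
    refine hle.trans ?_
    calc _ ≤ 1 * ‖o.x (s + m₂ + 1) (b, cls k)‖ := by gcongr
      _ = _ := one_mul _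
  have hgx := (hlow0 (m₂ + 1) (m₂ + 1) le_rfl hm0 le_rfl).trans hthx
  by_cases hh : P.h k (o.u (s + (m₂ + 1))) = 0
  · obtain ⟨h1, h2, -⟩ := o.wit_scale hb' hlow hlow' hw
    have hρpos : 0 < o.ρ (s + (m₂ + 1)) := norm_pos_iff.mpr hx
    have hxb : o.x (s + (m₂ + 1)) (b, cls k) ≠ 0 := by
      apply norm_pos_iff.mp
      have : 0 < P.gam k * o.ρ (s + (m₂ + 1)) := by positivity
      exact this.trans_le hgx
    obtain ⟨hw', hge⟩ := o.track_keep (hρm.trans hhi) hw h1 h2 hxb hh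
    refine ⟨b, j + 1, hw', ?_⟩
    rw [th, if_pos hh]
    have hlam := P.toPre.lam_pos k (o.u (s + (m₂ + 1)))
    calc P.lam k (o.u (s + (m₂ + 1))) / (2 * P.L) * o.th k s (m₂ + 1)
        ≤ P.lam k (o.u (s + (m₂ + 1))) / (2 * P.L) *
          ((P.L⁻¹) ^ j * ‖o.x (s + m₂ + 1) (b, cls k)‖) := by gcongr
      _ = (P.L⁻¹) ^ (j + 1) *
          (P.lam k (o.u (s + (m₂ + 1))) / 2 * ‖o.x (s + m₂ + 1) (b, cls k)‖) := by
          rw [pow_succ]; field_simp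
      _ ≤ _ := by gcongr; exact hge
  · refine write hx (hlow' _ (by omega) le_rfl) hok hh n hn hNn
      (hle.trans (hn2 b j hw hgx)) (le_trans ?_ hn1)
    have h1 : P.r1 k ≤ (P.Z ^ (P.Q (k + 1) + 1))⁻¹ := by
      unfold Pre.r1
      apply inv_anti₀ (by positivity)
      have h3 : P.Q (k + 1) ≤ P.Q (k + 2) := P.Qmono (by omega)
      exact pow_le_pow_right₀ (by linarith) (by omega)
    exact mul_le_mul_of_nonneg_right h1 (o.rho_nonneg _)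

theorem stage {k s : ℕ} (hs : o.Start k s) (t : ℕ) (hst : s < t)
    (hb : ∀ t', s ≤ t' → t' < t → o.ρ t' ≤ P.hi k) :
    (∀ t', s ≤ t' → t' ≤ t → P.gam k * 2 ^ (t - t') * o.ρ t' ≤ o.ρ t) ∧
      (o.ρ t ≤ P.hi k → (P.Z ^ (P.Q (k + 1) + 1))⁻¹ * o.ρ t ≤ ‖P.N (o.u t) (o.x t)‖) := by
  obtain ⟨M, rfl⟩ : ∃ M, t = s + M := ⟨t - s, by omega⟩
  have hM : 0 < M := by omega
  have hs' := hs
  obtain ⟨hs1, hs2, hs3, hs4⟩ := hs'
  have hk1 : P.h k (o.u s) = 1 := P.nest k _ (by rw [hs1]; exact one_ne_zero)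
  have hk0 : P.h k (o.u s) ≠ 0 := by rw [hk1]; exact one_ne_zero
  have hZ := P.toPre.two_le_Z
  have hL := P.toPre.two_le_L
  have hg := P.toPre.gam_pos k
  have hg1 : P.gam k ≤ 1 := (P.toPre.gam_le k).trans (inv_le_one_of_one_le₀ (by linarith))
  have hl := P.l_pos (k + 1)
  have hA : P.gam k * P.A k = 2 * P.l (k + 1) := by
    unfold Par.A; field_simp
  have hA0 : 0 < P.A k := by unfold Par.A; positivity
  have hAs : 2 * P.l (k + 1) ≤ o.ρ s := by nlinarith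
  have hhi : P.hi k ≤ P.hi 0 := P.hi_anti (Nat.zero_le k)
  have hup : ∀ m < M, o.ρ (s + m + 1) ≤ P.Z * o.ρ (s + m) := fun m hm =>
    o.rho_step _ ((hb _ (by omega) (by omega)).trans hhi)
  have hr := P.toPre.r1_pos k
  have hN0 : 0 < ‖P.N (o.u s) (o.x s)‖ := by
    have : 0 < P.r1 k * o.ρ s := mul_pos hr (by linarith)
    linarith
  set ω : ℂ := P.N (o.u s) (o.x s) / (‖P.N (o.u s) (o.x s)‖ : ℂ) with hωdef
  have hω : ‖ω‖ = 1 := by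
    rw [hωdef, norm_div, Complex.norm_real, norm_norm, div_self hN0.ne']
  have hN : P.N (o.u s) (o.x s) = (‖P.N (o.u s) (o.x s)‖ : ℂ) * ω := by
    rw [hωdef, mul_div_cancel₀]
    exact_mod_cast hN0.ne'
  have key := o.stage_aux hs hω hN M hb
  have hth : ∀ m₁, 0 < m₁ → m₁ ≤ M → o.th k s m₁ ≤ o.ρ (s + m₁) := by
    intro m₁ h1 h2
    obtain ⟨m₂, rfl⟩ : ∃ m₂, m₁ = m₂ + 1 := ⟨m₁ - 1, by omega⟩
    obtain ⟨-, b, j, -, hle⟩ := key m₂ (by omega)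
    refine hle.trans ?_
    have h3 : (P.L⁻¹) ^ j ≤ 1 :=
      pow_le_one₀ (by positivity) (inv_le_one_of_one_le₀ (by linarith))
    have h4 : ‖o.x (s + m₂ + 1) (b, cls k)‖ ≤ o.ρ (s + (m₂ + 1)) :=
      PiLp.norm_apply_le (o.x (s + m₂ + 1)) (b, cls k)
    calc _ ≤ 1 * ‖o.x (s + m₂ + 1) (b, cls k)‖ := by gcongr
      _ ≤ _ := by rw [one_mul]; exact h4
  have hmain : ∀ m₁, 0 < m₁ → m₁ ≤ M → ∀ t', s ≤ t' → t' ≤ s + m₁ →
      P.gam k * 2 ^ (s + m₁ - t') * o.ρ t' ≤ o.ρ (s + m₁) := by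
    intro m₁ h0 h0' t' h1 h2
    obtain ⟨m', rfl⟩ : ∃ m', t' = s + m' := ⟨t' - s, by omega⟩
    rw [show s + m₁ - (s + m') = m₁ - m' by omega]
    exact (o.th_lower k s M hk0 hup m' m₁ (by omega) h0' h0).trans (hth m₁ h0 h0')
  have hmain' : ∀ m₁, 0 < m₁ → m₁ ≤ M → ∀ t', s ≤ t' → t' ≤ s + m₁ →
      P.gam k * o.ρ t' ≤ o.ρ (s + m₁) := by
    intro m₁ h0 h0' t' h1 h2
    refine le_trans ?_ (hmain m₁ h0 h0' t' h1 h2)
    have h4 : (1 : ℝ) ≤ 2 ^ (s + m₁ - t') := one_le_pow₀ (by norm_num)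
    have h5 := o.rho_nonneg t'
    calc P.gam k * o.ρ t' = P.gam k * 1 * o.ρ t' := by ring
      _ ≤ _ := by gcongr
  refine ⟨hmain M hM le_rfl, fun _ => ?_⟩
  have hlow' : ∀ t', s ≤ t' → t' ≤ s + M → 2 * P.l (k + 1) ≤ o.ρ t' := by
    intro t' h1 h2
    obtain ⟨m', rfl⟩ : ∃ m', t' = s + m' := ⟨t' - s, by omega⟩
    rcases Nat.eq_zero_or_pos m' with rfl | h3
    · exact hAs
    · have h4 := hmain' m' h3 (by omega) s le_rfl (by omega)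
      have h5 : P.gam k * P.A k ≤ P.gam k * o.ρ s := by gcongr
      linarith
  obtain ⟨M', rfl⟩ : ∃ M', M = M' + 1 := ⟨M - 1, by omega⟩
  obtain ⟨hv, -⟩ := key M' (by omega)
  obtain ⟨-, -, n, hn, hNn, hn1, -⟩ :=
    o.valid_read (k := k) hω hv hb (hmain' _ hM le_rfl) hlow' (by omega)
  refine hn1.trans (le_of_eq ?_)
  change n = ‖P.N (o.u (s + M' + 1)) (o.x (s + M' + 1))‖
  rw [hNn, norm_mul, norm_pow, hω, one_pow, mul_one, Complex.norm_real, Real.norm_of_nonneg hn]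

end Orb

end Crest.Agent.R123
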