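import Crest.Agent.R123.Desc

open scoped BigOperators

noncomputable section

namespace Crest.Agent.R123

namespace Orb

variable {β : Type} [Fintype β] [DecidableEq β] {P : Par β} (o : Orb P)

theorem a_ne_zero (P : Par β) : P.a ≠ 0 := by
  intro h
  have := P.ha
  rw [h, norm_zero] at this
  exact zero_ne_one this

theorem norm_u (t : ℕ) : ‖o.u t‖ = 1 := by
  simp [u, o.hu0, P.ha]

theorem u_back {t j : ℕ} (h : j ≤ t) : o.u t * P.a⁻¹ ^ j = o.u (t - j) := by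
  obtain ⟨m, rfl⟩ := Nat.exists_eq_add_of_le h
  have := a_ne_zero P
  simp only [u, Nat.add_sub_cancel_left, pow_add, inv_pow]
  field_simp

theorem u_add (t j : ℕ) : o.u t * P.a ^ j = o.u (t + j) := by
  simp only [u, pow_add, mul_assoc]

theorem φ_pos (t : ℕ) (c : β × Fin 2) : 0 < o.φ t c := by
  have := o.φ_ge t c
  linarith

theorem norm_step_le (t : ℕ) : o.ρ (t + 1) ≤ 2 * ‖P.Hm (o.u t) (o.x t)‖ := by
  have h : ∀ c, ‖o.x (t + 1) c‖ ≤ ‖((2 : ℝ) • P.Hm (o.u t) (o.x t)) c‖ := fun c => by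
    rw [o.step t c, norm_mul, Complex.norm_real, Real.norm_of_nonneg (o.φ_pos t c).le,
      PiLp.smul_apply, norm_smul, Real.norm_of_nonneg (by norm_num)]
    exact mul_le_mul_of_nonneg_right (o.φ_le t c) (norm_nonneg _)
  have h2 : ‖o.x (t + 1)‖ ≤ ‖(2 : ℝ) • P.Hm (o.u t) (o.x t)‖ := by
    rw [EuclideanSpace.norm_eq, EuclideanSpace.norm_eq]
    apply Real.sqrt_le_sqrt
    exact Finset.sum_le_sum fun c _ => pow_le_pow_left₀ (norm_nonneg _) (h c) 2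
  rw [norm_smul, Real.norm_of_nonneg (by norm_num)] at h2
  exact h2

theorem rho_step (t : ℕ) (h : o.ρ t ≤ P.hi 0) : o.ρ (t + 1) ≤ P.Z * o.ρ t :=
  (o.norm_step_le t).trans (P.norm_Hm_le _ _ h)

theorem Wit.src {s : ℕ} {ω : ℂ} (hω : ‖ω‖ = 1) {t : ℕ} {b : β} {k j : ℕ} (h : o.Wit s ω t b k j)
    (h1 : 2 * P.S (k + 2) ≤ o.ρ t) (h2 : o.ρ t ≤ P.S k) :
    P.Src (o.u t) (ω ^ (2 ^ (t - s))) (o.x t) b k j := by
  obtain ⟨hj1, hj2, hj3, -, hw, ⟨A, hA, hx⟩, -⟩ := h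
  refine ⟨hj1, hj2, h1, h2, ?_, A, ω ^ (2 ^ (t - j - s)), hA, ?_, ?_, hx⟩
  · rw [o.u_back (by omega)]; exact hw
  · rw [norm_pow, hω, one_pow]
  · rw [← pow_mul, ← pow_add, show t - j - s + j = t - s by omega]

theorem step_apply {t : ℕ} (hx : o.x t ≠ 0) (hρ : o.ρ t ≤ P.hi 0) (c : β × Fin 2) :
    o.x (t + 1) c = (o.φ t c : ℂ) * ((P.keep (o.u t) (o.ρ t) c.2 : ℂ) * o.x t c +
      (P.wf (o.u t) (o.ρ t) c : ℂ) * P.N (o.u t) (o.x t)) := by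
  rw [o.step t c]
  congr 1
  exact P.Hm_apply _ _ hx hρ c

/-- a channel that is being written to, and holds a witness, is being annihilated -/
theorem h_eq_one_of_write {s : ℕ} {ω : ℂ} {t : ℕ} {b : β} {k k' j : ℕ} (hc : cls k' = cls k)
    (hs : P.sig k (o.ρ t) ≠ 0) (hw : P.w k b (o.u t) ≠ 0) (hwit : o.Wit s ω t b k' j)
    (h1 : 2 * P.S (k' + 2) ≤ o.ρ t) (h2 : o.ρ t ≤ P.S k') : k' = k ∧ P.h k (o.u t) = 1 := by
  obtain ⟨hs1, hs2⟩ := P.sig_ne_zero (norm_nonneg _) hs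
  have hk : k' = k := by
    refine P.level_unique hc h1 h2 ?_ ?_
    · have h3 := P.two_S_le (k + 1)
      have h4 := P.S_pos (k + 2)
      change _ < ‖o.x t‖
      linarith
    · have h3 := P.two_hi_le k
      have h4 := P.S_pos k
      change ‖o.x t‖ < _
      linarith
  subst hk
  obtain ⟨hj1, hj2, hj3, -, hw', -, -⟩ := hwit
  have h3 : o.u (t - j) * P.a ^ j = o.u t := by rw [o.u_add, show t - j + j = t by omega]
  have := P.w_sep k' b (o.u (t - j)) j (o.norm_u _) hj1 hj2 hw' (by rw [h3]; exact hw)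
  rw [h3] at this
  exact ⟨rfl, this⟩

theorem keep_zero_of_write {s : ℕ} {ω : ℂ} {t : ℕ} {b : β} {k : ℕ} (hok : o.Ok s ω t b (cls k))
    (hs : P.sig k (o.ρ t) ≠ 0) (hw : P.w k b (o.u t) ≠ 0) :
    (P.keep (o.u t) (o.ρ t) (cls k) : ℂ) * o.x t (b, cls k) = 0 := by
  rcases hok with h | ⟨k', j, hc, hwit, h1, h2⟩
  · exact h
  obtain ⟨rfl, hh⟩ := o.h_eq_one_of_write hc hs hw hwit h1 h2
  rw [P.keep_eq _ h1 h2, Pre.kap, hh]
  simp

theorem wit_write {s : ℕ} {ω : ℂ} {t : ℕ} (hst : s ≤ t) (hx : o.x t ≠ 0)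
    (hρ : o.ρ t ≤ P.hi 0) {n : ℝ} (hn : 0 ≤ n)
    (hN : P.N (o.u t) (o.x t) = (n : ℂ) * ω ^ (2 ^ (t - s))) {b : β} {k : ℕ}
    (hok : o.Ok s ω t b (cls k)) (hs : P.sig k (o.ρ t) ≠ 0) (hw : P.w k b (o.u t) ≠ 0) :
    o.Wit s ω (t + 1) b k 1 ∧ o.x (t + 1) (b, cls k) =
      ((o.φ t (b, cls k) * P.wf (o.u t) (o.ρ t) (b, cls k) * n : ℝ) : ℂ) * ω ^ (2 ^ (t - s)) := by
  have h1 : o.x (t + 1) (b, cls k) =
      ((o.φ t (b, cls k) * P.wf (o.u t) (o.ρ t) (b, cls k) * n : ℝ) : ℂ) * ω ^ (2 ^ (t - s)) := by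
    rw [o.step_apply hx hρ, o.keep_zero_of_write hok hs hw, hN]
    push_cast
    ring
  have hpos : 0 < o.ρ t := norm_pos_iff.mpr hx
  refine ⟨⟨le_rfl, P.toPre.one_le_Q k, by omega, by simpa using hs, by simpa using hw,
    ⟨o.φ t (b, cls k) * P.wf (o.u t) (o.ρ t) (b, cls k) * n, ?_, by simpa using h1⟩,
    fun i h2 h3 => by omega⟩, h1⟩
  have := o.φ_pos t (b, cls k)
  have := P.wf_nonneg (o.u t) hpos (b, cls k)
  positivity

theorem wit_keep {s : ℕ} {ω : ℂ} {t : ℕ} (hx : o.x t ≠ 0) (hρ : o.ρ t ≤ P.hi 0) {b : β}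
    {k j : ℕ} (hw : o.Wit s ω t b k j) (h1 : 2 * P.S (k + 2) ≤ o.ρ t) (h2 : o.ρ t ≤ P.S k)
    (hwf : P.wf (o.u t) (o.ρ t) (b, cls k) = 0) (hh : P.h k (o.u t) ≠ 1) :
    o.Wit s ω (t + 1) b k (j + 1) ∧ o.x (t + 1) (b, cls k) =
      ((o.φ t (b, cls k) * P.kap k (o.u t) : ℝ) : ℂ) * o.x t (b, cls k) := by
  have h3 : o.x (t + 1) (b, cls k) =
      ((o.φ t (b, cls k) * P.kap k (o.u t) : ℝ) : ℂ) * o.x t (b, cls k) := by
    rw [o.step_apply hx hρ, hwf, P.keep_eq _ h1 h2]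
    push_cast
    ring
  obtain ⟨hj1, hj2, hj3, hs, hw', ⟨A, hA, hxA⟩, hnot⟩ := hw
  have hnot' : ∀ i, t - j < i → i < t + 1 → P.h k (o.u i) ≠ 1 := fun i h4 h5 => by
    rcases Nat.lt_succ_iff_lt_or_eq.mp h5 with h6 | rfl
    · exact hnot i h4 h6
    · exact hh
  have e1 : t + 1 - (j + 1) = t - j := by omega
  refine ⟨⟨by omega, ?_, by omega, by rw [e1]; exact hs, by rw [e1]; exact hw',
    ⟨o.φ t (b, cls k) * P.kap k (o.u t) * A, ?_, ?_⟩, by rw [e1]; exact hnot'⟩, h3⟩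
  · obtain ⟨i, hi, hv⟩ := P.visit k _ (o.norm_u (t - j + 1))
    rw [o.u_add] at hv
    by_contra hc
    exact hnot' (t - j + 1 + i) (by omega) (by omega) hv
  · have := o.φ_pos t (b, cls k)
    have := P.toPre.kap_nonneg k (o.u t)
    positivity
  · rw [h3, hxA, e1]
    push_cast
    ring

theorem valid_step {s : ℕ} {ω : ℂ} {t : ℕ} (hst : s ≤ t) (hx : o.x t ≠ 0) (hρ : o.ρ t ≤ P.hi 0)
    {n : ℝ} (hn : 0 ≤ n) (hN : P.N (o.u t) (o.x t) = (n : ℂ) * ω ^ (2 ^ (t - s)))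
    (hok : ∀ b π, o.Ok s ω t b π) : o.Valid s ω (t + 1) := by
  intro b π
  have hpos : 0 < o.ρ t := norm_pos_iff.mpr hx
  by_cases hwf : P.wf (o.u t) (o.ρ t) (b, π) = 0
  · by_cases hk : (P.keep (o.u t) (o.ρ t) π : ℂ) * o.x t (b, π) = 0
    · left
      rw [o.step_apply hx hρ, hwf, hk]
      simp
    rcases hok b π with h | ⟨k, j, rfl, hw, h1, h2⟩
    · exact absurd h hk
    refine Or.inr ⟨k, j + 1, rfl, (o.wit_keep hx hρ hw h1 h2 hwf fun hh => hk ?_).1⟩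
    rw [P.keep_eq _ h1 h2, Pre.kap, hh]
    simp
  · obtain ⟨k, hc, hs, hw⟩ := P.wf_ne_zero hpos hwf
    simp only at hc hw
    subst hc
    exact Or.inr ⟨k, 1, rfl, (o.wit_write hst hx hρ hn hN (hok b _) hs hw).1⟩

theorem track_keep {s : ℕ} {ω : ℂ} {t : ℕ} (hρ : o.ρ t ≤ P.hi 0) {b : β} {k j : ℕ}
    (hw : o.Wit s ω t b k j) (h1 : 2 * P.S (k + 2) ≤ o.ρ t) (h2 : o.ρ t ≤ P.S k)
    (hx : o.x t (b, cls k) ≠ 0) (hh : P.h k (o.u t) = 0) :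
    o.Wit s ω (t + 1) b k (j + 1) ∧
      P.lam k (o.u t) / 2 * ‖o.x t (b, cls k)‖ ≤ ‖o.x (t + 1) (b, cls k)‖ := by
  have hx0 : o.x t ≠ 0 := fun h => hx (by rw [h]; rfl)
  have hpos : 0 < o.ρ t := norm_pos_iff.mpr hx0
  have hwf : P.wf (o.u t) (o.ρ t) (b, cls k) = 0 := by
    by_contra hwf
    obtain ⟨k', hc, hs, hw'⟩ := P.wf_ne_zero hpos hwf
    obtain ⟨rfl, h3⟩ := o.h_eq_one_of_write hc.symm hs hw' hw h1 h2
    rw [hh] at h3
    exact zero_ne_one h3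
  obtain ⟨h3, h4⟩ := o.wit_keep hx0 hρ hw h1 h2 hwf (by rw [hh]; exact zero_ne_one)
  refine ⟨h3, ?_⟩
  have h5 := o.φ_ge t (b, cls k)
  have h6 := P.toPre.lam_pos k (o.u t)
  rw [h4, norm_mul, Complex.norm_real, Pre.kap, hh, sub_zero, mul_one,
    Real.norm_of_nonneg (by positivity)]
  gcongr
  nlinarith

theorem track_write {s : ℕ} {ω : ℂ} (hω : ‖ω‖ = 1) {t : ℕ} (hst : s ≤ t) (hx : o.x t ≠ 0)
    (hρ : o.ρ t ≤ P.hi 0) {n : ℝ} (hn : 0 ≤ n)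
    (hN : P.N (o.u t) (o.x t) = (n : ℂ) * ω ^ (2 ^ (t - s))) {b : β} {k : ℕ}
    (hok : o.Ok s ω t b (cls k)) (hs : P.sig k (o.ρ t) = 1) (hw : P.w k b (o.u t) = 1) :
    o.Wit s ω (t + 1) b k 1 ∧ P.eta k / 2 * n ≤ ‖o.x (t + 1) (b, cls k)‖ := by
  have hpos : 0 < o.ρ t := norm_pos_iff.mpr hx
  have hs' : P.sig k (o.ρ t) ≠ 0 := by rw [hs]; exact one_ne_zero
  obtain ⟨h1, h2⟩ := o.wit_write hst hx hρ hn hN hok hs' (by rw [hw]; exact one_ne_zero)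
  refine ⟨h1, ?_⟩
  have h5 := o.φ_ge t (b, cls k)
  have h6 := P.toPre.eta_pos k
  rw [h2, norm_mul, norm_pow, hω, one_pow, mul_one, Complex.norm_real, P.wf_eq _ hpos hs', hs, hw,
    Real.norm_of_nonneg (by positivity)]
  gcongr
  nlinarith

/-- at a visit where everything old is annihilated, the new norm is controlled by `N` -/
theorem landing {k t : ℕ} (hρ : o.ρ t ≤ P.hi 0) (h1 : 2 * P.S (k + 2) ≤ o.ρ t)
    (hh : P.h (k + 1) (o.u t) = 1) : 2 * o.ρ (t + 1) ≤ P.Z * ‖P.N (o.u t) (o.x t)‖ := by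
  have hpos : 0 < o.ρ t := by have := P.S_pos (k + 2); linarith
  have hx : o.x t ≠ 0 := norm_pos_iff.mp hpos
  have hL := P.toPre.Lam_pos
  have h2 : ∀ c, ‖o.x (t + 1) c‖ ≤ 2 * P.Lam * ‖P.N (o.u t) (o.x t)‖ := fun c => by
    have h3 := o.φ_pos t c
    have h4 := P.wf_nonneg (o.u t) hpos c
    rw [o.step_apply hx hρ, P.keep_eq_zero h1 hh, Complex.ofReal_zero, zero_mul, zero_add,
      norm_mul, norm_mul, Complex.norm_real, Complex.norm_real, Real.norm_of_nonneg h3.le,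
      Real.norm_of_nonneg h4, ← mul_assoc]
    gcongr
    · exact o.φ_le t c
    · exact P.wf_le _ hpos c
  have h3 : o.ρ (t + 1) ≤ ∑ c, ‖o.x (t + 1) c‖ := by
    have h4 : o.x (t + 1) = ∑ c, EuclideanSpace.single c (o.x (t + 1) c) := by
      ext c
      simp [Finset.sum_apply, Pi.single_apply]
    calc o.ρ (t + 1) = ‖∑ c, EuclideanSpace.single c (o.x (t + 1) c)‖ := by rw [← h4]; rfl
      _ ≤ ∑ c, ‖EuclideanSpace.single c (o.x (t + 1) c)‖ := norm_sum_le _ _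
      _ = _ := by simp
  have h4 : ∑ c, ‖o.x (t + 1) c‖ ≤ (P.K * 2 : ℝ) * (2 * P.Lam * ‖P.N (o.u t) (o.x t)‖) := by
    refine (Finset.sum_le_sum fun c _ => h2 c).trans (le_of_eq ?_)
    simp [Pre.K]
  have h5 := P.toPre.Z_ge
  have h6 := norm_nonneg (P.N (o.u t) (o.x t))
  have h7 : (0 : ℝ) ≤ P.K := Nat.cast_nonneg _
  have h8 : 0 ≤ P.Lam * P.K * ‖P.N (o.u t) (o.x t)‖ := by positivity
  nlinarith

end Orb

end Crest.Agent.R123
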